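import Vale.Agent.P305.Code

/-! Entrywise routines, each one use of `Ok.fillE` (take `f i` to be the value of the expression,
written with `i / s`, `i % s`; for `i < s * s` write `i = (i / s) * s + i % s` to use `Rep`).
`ZMod.val_add`, `ZMod.val_lt`, `ZMod.neg_val`, `ZMod.val_natCast`, `ZMod.natCast_zmod_val`. -/

namespace Vale.Agent.P305

open Finset Matrix

variable {M : ℕ} {ρ : ℕ → Bool} {p : ℕ} [Fact p.Prime] {σ : State} {s sr x y z : ℕ}
  {A B : Matrix (Fin s) (Fin s) (ZMod p)}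

omit [Fact p.Prime] in
theorem gen_Elem {e : Expr} {C : Matrix (Fin s) (Fin s) (ZMod p)} (hsr : 9 ≤ sr)
    (hs : σ.reg sr = s) (hM : s * s < M) (hz : z ∉ e.arrs)
    (he : ∀ a b : Fin s, e.val (σ.setReg 1 (a.val * s + b.val)) = (C a b).val ∧ (C a b).val < M) :
    Ok M ρ (fillE z (.reg sr * .reg sr) e) σ (fun σ' => Rep σ' z C ∧ Only [1] [z] σ σ')
      (3 * (s * s) + 2) := by
  have h1 : sr ≠ 1 := by omega
  refine (Ok.fillE (s * s) (fun i => e.val (σ.setReg 1 i)) (by simp [hs]) (by simp [h1.symm])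
    (by simp) hz hM fun i hi => ⟨rfl, ?_⟩).mono (fun σ' h => ⟨fun a b => ?_, h.2.2⟩) le_rfl
  · have hs0 : 0 < s := Nat.pos_of_ne_zero fun h => by simp [h] at hi
    have := he ⟨i / s, Nat.div_lt_of_lt_mul hi⟩ ⟨i % s, Nat.mod_lt _ hs0⟩
    dsimp only at this
    rw [Nat.div_add_mod' i s] at this
    rw [this.1]
    exact this.2
  · rw [h.1 _ ?_, (he a b).1]
    calc a.val * s + b.val < a.val * s + s := Nat.add_lt_add_left b.2 _
      _ = (a.val + 1) * s := by ring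
      _ ≤ s * s := Nat.mul_le_mul_right _ a.2

theorem sub_Elem (u v : ZMod p) : (u.val + (p - v.val)) % p = (u - v).val := by
  rw [← ZMod.val_natCast, Nat.cast_add, Nat.cast_sub (ZMod.val_lt v).le, ZMod.natCast_self,
    ZMod.natCast_zmod_val, ZMod.natCast_zmod_val, zero_sub, ← sub_eq_add_neg]

theorem div_Elem (a b : Fin s) : (a.val * s + b.val) / s = a.val := by
  rw [Nat.add_comm, Nat.add_mul_div_right _ _ (Fin.pos a), Nat.div_eq_of_lt b.2, Nat.zero_add]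

theorem zeroM_ok (hsr : 9 ≤ sr) (hs : σ.reg sr = s) (hM : s * s < M) :
    Ok M ρ (zeroM z sr) σ
      (fun σ' => Rep σ' z (0 : Matrix (Fin s) (Fin s) (ZMod p)) ∧ Only [1] [z] σ σ') (3 * (s * s) + 2) := by
  refine gen_Elem hsr hs hM (by simp) fun a b => ?_
  simp only [val_lit, Matrix.zero_apply, ZMod.val_zero, true_and]
  omega

theorem copyM_ok (hsr : 9 ≤ sr) (hs : σ.reg sr = s) (hM : s * s < M) (hpM : p ≤ M) (hzx : z ≠ x)
    (hA : Rep σ x A) :
    Ok M ρ (copyM z x sr) σ (fun σ' => Rep σ' z A ∧ Only [1] [z] σ σ') (3 * (s * s) + 2) := by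
  refine gen_Elem hsr hs hM (by simp [hzx]) fun a b => ⟨?_, (ZMod.val_lt _).trans_le hpM⟩
  simp [hA a b]

theorem addM_ok (hsr : 9 ≤ sr) (hs : σ.reg sr = s) (hM : s * s < M) (hp : σ.reg 5 = p) (hpM : p ≤ M)
    (hzx : z ≠ x) (hzy : z ≠ y) (hA : Rep σ x A) (hB : Rep σ y B) :
    Ok M ρ (addM z x y sr) σ (fun σ' => Rep σ' z (A + B) ∧ Only [1] [z] σ σ') (3 * (s * s) + 2) := by
  refine gen_Elem hsr hs hM (by simp [hzx, hzy]) fun a b => ⟨?_, (ZMod.val_lt _).trans_le hpM⟩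
  simp [hA a b, hB a b, hp, ZMod.val_add]

theorem subM_ok (hsr : 9 ≤ sr) (hs : σ.reg sr = s) (hM : s * s < M) (hp : σ.reg 5 = p) (hpM : p ≤ M)
    (hzx : z ≠ x) (hzy : z ≠ y) (hA : Rep σ x A) (hB : Rep σ y B) :
    Ok M ρ (subM z x y sr) σ (fun σ' => Rep σ' z (A - B) ∧ Only [1] [z] σ σ') (3 * (s * s) + 2) := by
  refine gen_Elem hsr hs hM (by simp [hzx, hzy]) fun a b => ⟨?_, (ZMod.val_lt _).trans_le hpM⟩
  rw [Matrix.sub_apply, ← sub_Elem]
  simp [hA a b, hB a b, hp]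

theorem oneSub_ok (hsr : 9 ≤ sr) (hs : σ.reg sr = s) (hM : s * s < M) (hp : σ.reg 5 = p)
    (hpM : p ≤ M) (hzx : z ≠ x) (hA : Rep σ x A) :
    Ok M ρ (oneSub z x sr) σ (fun σ' => Rep σ' z (1 - A) ∧ Only [1] [z] σ σ') (3 * (s * s) + 2) := by
  refine gen_Elem hsr hs hM (by simp [hzx]) fun a b => ⟨?_, (ZMod.val_lt _).trans_le hpM⟩
  have h1 : sr ≠ 1 := by omega
  have e : (1 - (if a.val < b.val then 1 else 0) - if b.val < a.val then 1 else 0 : ℕ) =
      ((1 : Matrix (Fin s) (Fin s) (ZMod p)) a b).val := by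
    rw [Matrix.one_apply]
    rcases lt_trichotomy a b with h | h | h
    · have h' : a.val < b.val := h
      rw [if_pos h', if_neg h.ne, ZMod.val_zero]
      omega
    · rw [if_pos h, h, if_neg (lt_irrefl _), ZMod.val_one]
    · have h' : b.val < a.val := h
      rw [if_pos h', if_neg h.ne', ZMod.val_zero]
      omega
  rw [Matrix.sub_apply, ← sub_Elem, ← e]
  simp [hA a b, hp, h1, hs, div_Elem, Nat.mod_eq_of_lt b.2]

theorem transM_ok (hsr : 9 ≤ sr) (hs : σ.reg sr = s) (hM : s * s < M) (hpM : p ≤ M) (hzx : z ≠ x)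
    (hA : Rep σ x A) :
    Ok M ρ (transM z x sr) σ (fun σ' => Rep σ' z Aᵀ ∧ Only [1] [z] σ σ') (3 * (s * s) + 2) := by
  refine gen_Elem hsr hs hM (by simp [hzx]) fun a b => ⟨?_, (ZMod.val_lt _).trans_le hpM⟩
  have h1 : sr ≠ 1 := by omega
  simp [hA b a, h1, hs, div_Elem, Nat.mod_eq_of_lt b.2]

end Vale.Agent.P305
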