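import Vale.Agent.P305.MM
import Vale.Agent.P305.Elem

/-! Building the matrix `Nm`: `tmP_ok`, `wmP_ok` are uses of `Ok.fillE` (`ZMod.val_natCast`,
`Nat.mod_eq_of_lt`, `ZMod.neg_val`); `buildP_ok` chains `Ok.seq'` with `MEnv.only`, `Rep.only`,
`Only.mono`, `Only.trans`; time by `sq_le_mmT`. -/

namespace Vale.Agent.P305

open Finset Matrix

variable {M : ℕ} {ρ : ℕ → Bool} {p : ℕ} [Fact p.Prime] {σ : State} {m n : ℕ}

open Classical in
theorem idx_Build (u v : Fin m) : u.val * m + v.val < m * m ∧ (u.val * m + v.val) / m = u.val ∧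
    (u.val * m + v.val) % m = v.val := by
  have hu := u.2
  have hv := v.2
  refine ⟨by nlinarith, ?_, ?_⟩
  · rw [Nat.mul_comm, Nat.mul_add_div (by omega), Nat.div_eq_of_lt hv, Nat.add_zero]
  · rw [Nat.mul_comm, Nat.mul_add_mod, Nat.mod_eq_of_lt hv]

theorem fillM_Build {a : ℕ} {e : Expr} {A : Matrix (Fin m) (Fin m) (ZMod p)} (hpM : p ≤ M)
    (hM : m * m < M) (h10 : σ.reg 10 = m) (h3 : a ∉ e.arrs)
    (hv : ∀ u v : Fin m, e.val (σ.setReg 1 (u.val * m + v.val)) = (A u v).val) :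
    Ok M ρ (fillE a (.reg 10 * .reg 10) e) σ (fun σ' => Rep σ' a A ∧ Only [1] [a] σ σ')
      (3 * (m * m) + 2) := by
  refine (Ok.fillE (m * m) (fun i => e.val (σ.setReg 1 i)) (by simp [h10]) (by simp) (by simp) h3
    hM fun i hi => ⟨rfl, ?_⟩).mono (fun σ' h => ⟨fun u v => ?_, h.2.2⟩) le_rfl
  · have hm : 0 < m := Nat.pos_of_ne_zero fun h => by simp [h] at hi
    have h1 := hv ⟨i / m, Nat.div_lt_of_lt_mul hi⟩ ⟨i % m, Nat.mod_lt _ hm⟩
    rw [Nat.div_add_mod'] at h1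
    rw [h1]
    exact (ZMod.val_lt _).trans_le hpM
  · rw [h.1 _ (idx_Build u v).1]
    exact hv u v

open Classical in

theorem tmP_ok {Γ : SimpleGraph (Fin m)} {r : ℕ → ℕ} (hp : σ.reg 5 = p) (hpM : p ≤ M)
    (hM : m * m < M) (h10 : σ.reg 10 = m)
    (h3 : ∀ u v : Fin m, σ.arr 3 (u.val * m + v.val) = if Γ.Adj u v then 1 else 0)
    (h9 : ∀ i < 2 * m * m, σ.arr 9 i = r i) (hr : ∀ i, r i < p) :
    Ok M ρ tmP σ (fun σ' => Rep σ' 17 (Tm Γ fun i => (r i : ZMod p)) ∧ Only [1] [17] σ σ')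
      (3 * (m * m) + 2) := by
  refine fillM_Build hpM hM h10 (by simp) fun u v => ?_
  obtain ⟨a1, a2, a3⟩ := idx_Build u v
  have b1 := h9 (u.val * m + v.val) (by nlinarith)
  have b2 := h9 (v.val * m + u.val) (by nlinarith [(idx_Build v u).1])
  have c : ∀ i, ((r i : ℕ) : ZMod p).val = r i := fun i => ZMod.val_cast_of_lt (hr i)
  simp only [val_mul, val_load, val_reg, val_add, val_sub, val_lt, val_div, val_mod, val_lit,
    setReg_reg, setReg_arr, if_true, Nat.reduceEqDiff, if_false, h10, hp, a2, a3, h3, b1, b2, Tm,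
    Matrix.of_apply]
  by_cases h1 : Γ.Adj u v
  · by_cases h2 : u.val < v.val
    · simp [h1, h2, c]
    · simp [h1, h2, c, ZMod.neg_val']
  · simp [h1]

theorem wmP_ok {r : ℕ → ℕ} (hpM : p ≤ M) (hM : m * m < M) (h0 : σ.reg 0 = n) (h10 : σ.reg 10 = m)
    (h9 : ∀ i < 2 * m * m, σ.arr 9 i = r i) (hr : ∀ i, r i < p) :
    Ok M ρ wmP σ (fun σ' => Rep σ' 18 (Wm m n fun i => (r i : ZMod p)) ∧ Only [1] [18] σ σ')
      (3 * (m * m) + 2) := by
  refine fillM_Build hpM hM h10 (by simp) fun u v => ?_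
  obtain ⟨a1, a2, a3⟩ := idx_Build u v
  have b1 := h9 (m * m + (u.val * m + v.val)) (by nlinarith)
  have c : ∀ i, ((r i : ℕ) : ZMod p).val = r i := fun i => ZMod.val_cast_of_lt (hr i)
  simp only [val_mul, val_load, val_reg, val_add, val_sub, val_lt, val_div, val_mod, val_lit,
    setReg_reg, setReg_arr, if_true, Nat.reduceEqDiff, if_false, h10, h0, a2, a3, b1, Wm,
    Matrix.of_apply, Nat.add_assoc]
  by_cases h1 : u.val < n
  · simp [h1, h1.not_ge]
  · by_cases h2 : u.val < 2 * n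
    · by_cases h4 : v.val < n
      · simp [h1, h2, h4, c, not_lt.1 h1]
      · simp [h4]
    · simp [h2]

open Classical in
theorem buildP_ok {N R D e : ℕ} {a b c : ℕ → ℕ → ℕ → ZMod p} (hN : 2 ≤ N) (hR : N * N ≤ R)
    (hB : BilAlg N R a b c) (hE : MEnv N R a b c σ) (hpM : p ≤ M) (hM : R ^ e < M) (hme : m = N ^ e)
    {Γ : SimpleGraph (Fin m)} {r : ℕ → ℕ} (h0 : σ.reg 0 = n) (h10 : σ.reg 10 = m)
    (h3 : ∀ u v : Fin m, σ.arr 3 (u.val * m + v.val) = if Γ.Adj u v then 1 else 0)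
    (h9 : ∀ i < 2 * m * m, σ.arr 9 i = r i) (hr : ∀ i, r i < p) :
    Ok M ρ (buildP N R D) σ
      (fun σ' => Rep σ' (PA D) (Nm n Γ fun i => (r i : ZMod p)) ∧
        (∀ t < m, σ'.arr (IA D) t = t) ∧
        Only [1, 2, 3, 6, 7, 8] [11, 12, 13, 14, 15, 17, 18, 19, PA D, IA D] σ σ')
      (10 * mmT R e) := by
  have hsq := sq_le_mmT (e := e) hR
  rw [← hme] at hsq
  have hm : 1 ≤ m := hme ▸ Nat.one_le_pow _ _ (by omega)
  have hmm : m * m < M := by
    refine lt_of_le_of_lt ?_ hM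
    rw [hme, ← mul_pow]
    exact Nat.pow_le_pow_left hR e
  have hm2 : m ≤ m * m := Nat.le_mul_self m
  have hPA : 20 ≤ PA D := Nat.le_add_right _ _
  have hIA : IA D = PA D + 2 := by simp only [IA, PA]; omega
  unfold buildP
  generalize PA D = P at *
  generalize IA D = I at *
  obtain ⟨Rs, hRs⟩ : ∃ Rs : List ℕ, Rs = [1, 2, 3, 6, 7, 8] := ⟨_, rfl⟩
  obtain ⟨As, hAs⟩ : ∃ As : List ℕ, As = [11, 12, 13, 14, 15, 17, 18, 19, P, I] := ⟨_, rfl⟩
  rw [← hRs, ← hAs]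
  have k10 : ∀ {σ'}, Only Rs As σ σ' → σ'.reg 10 = m := fun o =>
    (o.1 10 (by simp [hRs])).trans h10
  have kE : ∀ {σ'}, Only Rs As σ σ' → MEnv N R a b c σ' := fun o =>
    hE.only o (by simp [hRs]) (by simp [hAs]; omega) (by simp [hAs]; omega)
      (by simp [hAs]; omega)
  refine Ok.seq' (T := 6 * (3 * (m * m) + 2) + 2 * mmT R e)
    (tmP_ok hE.rp hpM hmm h10 h3 h9 hr) (fun σ₁ ⟨r1, o1⟩ => ?_) (by omega)
  have O1 : Only Rs As σ σ₁ := o1.mono (by simp [hRs]) (by simp [hAs])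
  refine Ok.seq' (T := 5 * (3 * (m * m) + 2) + 2 * mmT R e)
    (wmP_ok (n := n) hpM hmm ((o1.1 0 (by simp)).trans h0) (k10 O1)
      (by rw [o1.2.1 9 (by simp)]; exact h9) hr) (fun σ₂ ⟨r2, o2⟩ => ?_) (by omega)
  have O2 := O1.trans (o2.mono (R' := Rs) (A' := As) (by simp [hRs]) (by simp [hAs]))
  refine Ok.seq' (T := 4 * (3 * (m * m) + 2) + 2 * mmT R e)
    (transM_ok (by norm_num) (k10 O2) hmm hpM (by norm_num) r2) (fun σ₃ ⟨r3, o3⟩ => ?_) (by omega)
  have O3 := O2.trans (o3.mono (R' := Rs) (A' := As) (by simp [hRs]) (by simp [hAs]))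
  have w3 := r2.only o3 (by simp)
  refine Ok.seq' (T := 4 * (3 * (m * m) + 2) + mmT R e)
    (mm_ok hN hR hB (kE O3) hpM hM hme (by norm_num) (k10 O3) (by norm_num) (by norm_num)
      (by norm_num) w3 ((r1.only o2 (by simp)).only o3 (by simp))) (fun σ₄ ⟨r4, o4⟩ => ?_)
    (by omega)
  have O4 := O3.trans (o4.mono (R' := Rs) (A' := As) (by simp [hRs]) (by simp [hAs]))
  have t4 := r3.only o4 (by simp)
  refine Ok.seq' (T := 4 * (3 * (m * m) + 2))
    (mm_ok hN hR hB (kE O4) hpM hM hme (by norm_num) (k10 O4) (by norm_num) (by norm_num)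
      (by norm_num) r4 t4) (fun σ₅ ⟨r5, o5⟩ => ?_) (by omega)
  have O5 := O4.trans (o5.mono (R' := Rs) (A' := As) (by simp [hRs]) (by simp [hAs]))
  refine Ok.seq' (T := 3 * (3 * (m * m) + 2))
    (addM_ok (by norm_num) (k10 O5) hmm (kE O5).rp hpM (by norm_num) (by norm_num) r5
      ((w3.only o4 (by simp)).only o5 (by simp))) (fun σ₆ ⟨r6, o6⟩ => ?_) (by omega)
  have O6 := O5.trans (o6.mono (R' := Rs) (A' := As) (by simp [hRs]) (by simp [hAs]))
  refine Ok.seq' (T := 3 * m + 2)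
    (subM_ok (by norm_num) (k10 O6) hmm (kE O6).rp hpM (by omega) (by omega) r6
      ((t4.only o5 (by simp)).only o6 (by simp))) (fun σ₇ ⟨r7, o7⟩ => ?_) (by omega)
  have O7 := O6.trans (o7.mono (R' := Rs) (A' := As) (by simp [hRs]) (by simp [hAs]))
  refine (Ok.fillE m (fun i => i) (by simp [k10 O7]) (by simp) (by simp) (by simp) (by omega)
    fun i hi => ⟨by simp, by omega⟩).mono (fun σ₈ ⟨r8, _, o8⟩ => ?_) le_rfl
  exact ⟨r7.only o8 (by simp; omega), r8,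
    O7.trans (o8.mono (R' := Rs) (A' := As) (by simp [hRs]) (by simp [hAs]))⟩

end Vale.Agent.P305
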