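import Vale.Agent.P305.Defs

/-! Mathematical definitions for the matching algorithm (no machine here). -/

namespace Vale.Agent.P305

open Matrix Finset

noncomputable section
open Classical

/-- Principal minor on `X` (identity outside `X`). -/
def Dm {R : Type} [CommRing R] {m : ℕ} (N : Matrix (Fin m) (Fin m) R) (X : Finset (Fin m)) : R :=
  (Matrix.of fun a b => if a ∈ X ∧ b ∈ X then N a b else if a = b then 1 else 0).det

/-- Inverse of the `2 × 2` block of a skew matrix at `u, v`, padded with zeros. -/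
def piv {F : Type} [Field F] {m : ℕ} (G : Matrix (Fin m) (Fin m) F) (u v : Fin m) :
    Matrix (Fin m) (Fin m) F :=
  Matrix.single u v (-(G u v)⁻¹) + Matrix.single v u (G u v)⁻¹

/-- `G` is the Schur complement of `N` with respect to the nonsingular principal block `X`. -/
def Inv {F : Type} [Field F] {m : ℕ} (N : Matrix (Fin m) (Fin m) F) (X : Finset (Fin m))
    (G : Matrix (Fin m) (Fin m) F) : Prop :=
  (∃ K : Matrix (Fin m) (Fin m) F, Kᵀ = -K ∧ (∀ a b, K a b ≠ 0 → a ∈ X ∧ b ∈ X) ∧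
    (∀ a b, b ∈ X → (K * N) a b = if a = b then 1 else 0) ∧ G = N - N * K * N) ∧
  Dm N X ≠ 0 ∧ ∀ Y, Disjoint X Y → Dm N (X ∪ Y) = Dm N X * Dm G Y

/-- Tutte matrix with values `r`. -/
def Tm {R : Type} [CommRing R] {m : ℕ} (Γ : SimpleGraph (Fin m)) (r : ℕ → R) :
    Matrix (Fin m) (Fin m) R :=
  Matrix.of fun u v => if Γ.Adj u v then
    (if u.val < v.val then r (u.val * m + v.val) else -r (v.val * m + u.val)) else 0

/-- Random block with rows `n ≤ z < 2n` and columns `v < n`. -/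
def Wm {R : Type} [CommRing R] (m n : ℕ) (r : ℕ → R) : Matrix (Fin m) (Fin m) R :=
  Matrix.of fun z v => if n ≤ z.val ∧ z.val < 2 * n ∧ v.val < n then r (m * m + z.val * m + v.val)
    else 0

/-- The skew matrix on which the algorithm pivots. -/
def Nm {R : Type} [CommRing R] {m : ℕ} (n : ℕ) (Γ : SimpleGraph (Fin m)) (r : ℕ → R) :
    Matrix (Fin m) (Fin m) R :=
  Wm m n r * Tm Γ r * (Wm m n r)ᵀ + Wm m n r - (Wm m n r)ᵀ

/-- The graph `G` on the first `n` of `m` vertices. -/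
def lift {n : ℕ} (G : SimpleGraph (Fin n)) (m : ℕ) : SimpleGraph (Fin m) where
  Adj u v := ∃ (hu : u.val < n) (hv : v.val < n), G.Adj ⟨u.val, hu⟩ ⟨v.val, hv⟩
  symm := ⟨fun _ _ ⟨hu, hv, h⟩ => ⟨hv, hu, h.symm⟩⟩
  loopless := ⟨fun _ ⟨_, _, h⟩ => h.ne rfl⟩

/-- All edges lie on the first `n` vertices. -/
def Low {m : ℕ} (n : ℕ) (Γ : SimpleGraph (Fin m)) : Prop := ∀ u v, Γ.Adj u v → u.val < n

/-- A matching as an involution. -/
def Mt {m : ℕ} (Γ : SimpleGraph (Fin m)) (μ : Fin m → Fin m) : Prop :=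
  (∀ v, μ (μ v) = v) ∧ ∀ v, μ v ≠ v → Γ.Adj v (μ v)

/-- Covered vertices. -/
def cov {m : ℕ} (μ : Fin m → Fin m) : Finset (Fin m) := univ.filter fun v => μ v ≠ v

def vs {m : ℕ} (n : ℕ) (X : Finset (Fin m)) : Finset (Fin m) := X.filter fun v => v.val < n
def zs {m : ℕ} (n : ℕ) (X : Finset (Fin m)) : Finset (Fin m) := X.filter fun v => n ≤ v.val

def Feas {m : ℕ} (n : ℕ) (Γ : SimpleGraph (Fin m)) (X : Finset (Fin m)) : Prop :=
  ∃ μ, Mt Γ μ ∧ Disjoint (cov μ) X ∧ (zs n X).card ≤ (cov μ).card + (vs n X).card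

def FeasE {m : ℕ} (n : ℕ) (Γ : SimpleGraph (Fin m)) (X : Finset (Fin m)) : Prop :=
  ∃ μ, Mt Γ μ ∧ Disjoint (cov μ) X ∧ (zs n X).card = (cov μ).card + (vs n X).card

/-- Record the pair `u, v` in the output array. -/
def mark {m : ℕ} (o : ℕ → ℕ) (u v : Fin m) : ℕ → ℕ :=
  Function.update (Function.update o u.val (v.val + 1)) v.val (u.val + 1)

/-- One step of the numerical process. -/
def nstep {F : Type} [Field F] {m : ℕ} (H : Fin m → Fin m → Prop)
    (s : Matrix (Fin m) (Fin m) F × (ℕ → ℕ)) (e : Fin m × Fin m) :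
    Matrix (Fin m) (Fin m) F × (ℕ → ℕ) :=
  if H e.1 e.2 ∧ s.1 e.1 e.2 ≠ 0 then (s.1 - s.1 * piv s.1 e.1 e.2 * s.1, mark s.2 e.1 e.2) else s

/-- State of the ideal process: taken indices, all sets taken so far, output array. -/
structure IState (m : ℕ) where
  X : Finset (Fin m)
  hist : Finset (Finset (Fin m))
  out : ℕ → ℕ

/-- One step of the ideal process. -/
def istep {m : ℕ} (n : ℕ) (Γ : SimpleGraph (Fin m)) (H : Fin m → Fin m → Prop) (s : IState m)
    (e : Fin m × Fin m) : IState m :=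
  if H e.1 e.2 ∧ e.1 ∉ s.X ∧ e.2 ∉ s.X ∧ e.1 ≠ e.2 ∧ Feas n Γ (s.X ∪ {e.1, e.2}) then
    ⟨s.X ∪ {e.1, e.2}, insert (s.X ∪ {e.1, e.2}) s.hist, mark s.out e.1 e.2⟩
  else s

/-- Pairs tested in phase 1. -/
def HZ (m n : ℕ) (u v : Fin m) : Prop := n ≤ u.val ∧ u.val < 2 * n ∧ n ≤ v.val ∧ v.val < 2 * n

/-- Final state of the ideal process: phase 1 on `HZ`, phase 2 on the edges. -/
def ifinal {m : ℕ} (n : ℕ) (Γ : SimpleGraph (Fin m)) (L : List (Fin m × Fin m)) : IState m :=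
  L.foldl (istep n Γ Γ.Adj) (L.foldl (istep n Γ (HZ m n)) ⟨∅, ∅, fun _ => 0⟩)

/-- Final state of the numerical process. -/
def nfinal {F : Type} [Field F] {m : ℕ} (n : ℕ) (Γ : SimpleGraph (Fin m))
    (N : Matrix (Fin m) (Fin m) F) (L : List (Fin m × Fin m)) :
    Matrix (Fin m) (Fin m) F × (ℕ → ℕ) :=
  L.foldl (nstep Γ.Adj) (L.foldl (nstep (HZ m n)) (N, fun _ => 0))

/-- The output array encodes a maximum matching of `Γ`. -/
def MaxOut {m : ℕ} (n : ℕ) (Γ : SimpleGraph (Fin m)) (o : ℕ → ℕ) : Prop :=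
  ∃ μ, Mt Γ μ ∧ (∀ μ', Mt Γ μ' → (cov μ').card ≤ (cov μ).card) ∧
    ∀ u v : Fin m, u.val < n → v.val < n → (o u.val = v.val + 1 ↔ μ u = v ∧ v ≠ u)

/-- The number read from `k` bits starting at position `s`, most significant bit first. -/
def bitsVal (ρ : ℕ → Bool) (s : ℕ) : ℕ → ℕ
  | 0 => 0
  | k + 1 => 2 * bitsVal ρ s k + (if ρ (s + k) then 1 else 0)

/-- Size of the local matrix at level `d`. -/
def sz (N g d : ℕ) : ℕ := N ^ (1 + g * d)

theorem sz_pos (N g d : ℕ) [NeZero N] : 0 < sz N g d := pow_pos (Nat.pos_of_ne_zero (NeZero.ne N)) _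

def pos (N g d : ℕ) [NeZero N] (x : ℕ) : Fin (sz N g d) := ⟨x % sz N g d, Nat.mod_lt _ (sz_pos N g d)⟩

/-- Position in the level `d+1` matrix of position `t` of its child number `c`: blocks have
size `s = N^(g d)`, there are `β = N^(g+1)` of them, the child joins blocks `c / β`, `c % β`. -/
def fcN (N g d c t : ℕ) : ℕ :=
  if t < N ^ (g * d) then c / N ^ (g + 1) * N ^ (g * d) + t
  else c % N ^ (g + 1) * N ^ (g * d) + t % N ^ (g * d)

def fc (N g d c : ℕ) [NeZero N] (t : Fin (sz N g d)) : Fin (sz N g (d + 1)) :=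
  pos N g (d + 1) (fcN N g d c t.val)

/-- The list of pairs tested by a node of level `d` with index map `ι`. -/
def pairs (N g : ℕ) [NeZero N] {m : ℕ} : (d : ℕ) → (Fin (sz N g d) → Fin m) → List (Fin m × Fin m)
  | 0, ι => [(ι (pos N g 0 0), ι (pos N g 0 1))]
  | d + 1, ι => (List.range (N ^ (g + 1) * N ^ (g + 1))).flatMap fun c =>
      pairs N g d (ι ∘ fc N g d c)

/-- An integer bilinear algorithm for `Dn` times the `N × N` matrix product. -/
def IntAlg (N R Dn : ℕ) (a b c : ℕ → ℕ → ℕ → ℤ) : Prop :=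
  ∀ i < N, ∀ j < N, ∀ j' < N, ∀ k < N, ∀ i' < N, ∀ k' < N,
    ∑ l ∈ range R, a l i j * b l j' k * c l i' k' =
      if j = j' ∧ k = k' ∧ i = i' then (Dn : ℤ) else 0

/-- A bilinear algorithm for the `N × N` matrix product over `F`. -/
def BilAlg {F : Type} [CommRing F] (N R : ℕ) (a b c : ℕ → ℕ → ℕ → F) : Prop :=
  ∀ i < N, ∀ j < N, ∀ j' < N, ∀ k < N, ∀ i' < N, ∀ k' < N,
    ∑ l ∈ range R, a l i j * b l j' k * c l i' k' = if j = j' ∧ k = k' ∧ i = i' then 1 else 0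

/-- One down stage: a collection of `N k × N k` matrices becomes one of `k × k` matrices. -/
def down {F : Type} [CommRing F] (N R k : ℕ) (a : ℕ → ℕ → ℕ → F) (X : ℕ → ℕ → ℕ → F) :
    ℕ → ℕ → ℕ → F :=
  fun h x y => ∑ t ∈ range (N * N), a (h % R) (t / N) (t % N) * X (h / R) (t / N * k + x) (t % N * k + y)

/-- One up stage. -/
def up {F : Type} [CommRing F] (R k : ℕ) (c : ℕ → ℕ → ℕ → F) (Z : ℕ → ℕ → ℕ → F) :
    ℕ → ℕ → ℕ → F :=
  fun h x y => ∑ l ∈ range R, c l (x / k) (y / k) * Z (h * R + l) (x % k) (y % k)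

/-- Products of the members of two collections of `k × k` matrices. -/
def cprod {F : Type} [CommRing F] (k : ℕ) (X Y : ℕ → ℕ → ℕ → F) : ℕ → ℕ → ℕ → F :=
  fun h x y => ∑ z ∈ range k, X h x z * Y h z y

/-- The collection after `j` down stages, starting from size `N ^ e`. -/
def downs {F : Type} [CommRing F] (N R e : ℕ) (a : ℕ → ℕ → ℕ → F) (X : ℕ → ℕ → ℕ → F) :
    ℕ → ℕ → ℕ → ℕ → F
  | 0 => X
  | j + 1 => down N R (N ^ (e - (j + 1))) a (downs N R e a X j)

/-- Time bound for one product of size `N ^ e`. -/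
def mmT (R e : ℕ) : ℕ := (10 * R + 100) * (e + 1) * R ^ e

/-- Time bound for a node of level `d`. -/
def nodeT (N R g : ℕ) : ℕ → ℕ
  | 0 => 3 * (N * N) + 20
  | d + 1 => N ^ (g + 1) * N ^ (g + 1) * (100 * mmT R (1 + g * (d + 1)) + nodeT N R g d) +
      100 * mmT R (1 + g * (d + 1))

end

end Vale.Agent.P305
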