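import Vale.Agent.P305.Logic
import Vale.Agent.P305.Pure

/-! The programs and the representation predicates.

Registers: 0 `n`; 1, 2, 3 loop indices of `fillE`, `fillS`; 4 random bit; 5 `p`; 6, 7, 8 used by
`mm`; 10 `m`; 11 `k`; 12 `2^k`; 13, 14, 15 temporaries; 16 `N^(g+1)`; 17 `N^g`; level registers
`SZ d`, `CT d`, `BS d`.
Arrays: 0, 1 input; 2 output; 3 adjacency matrix; 4 phase 1 pairs; 5 inverses; 6, 7, 8 tables;
9 random values; 10 sieve; 11, 12, 13 used by `mm`; 14 to 19 temporaries; level arrays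
`PA d`, `KA d`, `IA d`. -/

namespace Vale.Agent.P305

open Finset

abbrev SZ (d : ℕ) : ℕ := 20 + 3 * d
abbrev CT (d : ℕ) : ℕ := 21 + 3 * d
abbrev BS (d : ℕ) : ℕ := 22 + 3 * d
abbrev PA (d : ℕ) : ℕ := 20 + 3 * d
abbrev KA (d : ℕ) : ℕ := 21 + 3 * d
abbrev IA (d : ℕ) : ℕ := 22 + 3 * d

/-- Array `a` holds the matrix `A`, row by row. -/
def Rep {p s : ℕ} (σ : State) (a : ℕ) (A : Matrix (Fin s) (Fin s) (ZMod p)) : Prop :=
  ∀ i j : Fin s, σ.arr a (i.val * s + j.val) = (A i j).val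

/-- Array `a` holds `H` matrices of size `k`. -/
def Col {p : ℕ} (σ : State) (a H k : ℕ) (X : ℕ → ℕ → ℕ → ZMod p) : Prop :=
  ∀ h < H, ∀ x < k, ∀ y < k, σ.arr a ((h * k + x) * k + y) = (X h x y).val

/-- Array `a` holds a coefficient table. -/
def Tab {p : ℕ} (σ : State) (a N R : ℕ) (f : ℕ → ℕ → ℕ → ZMod p) : Prop :=
  ∀ l < R, ∀ i < N, ∀ j < N, σ.arr a (l * (N * N) + (i * N + j)) = (f l i j).val

/-- Array 5 holds the inverses modulo `p`. -/
def InvTab (p : ℕ) (σ : State) : Prop := ∀ x, 0 < x → x < p → σ.arr 5 x = ((x : ZMod p)⁻¹).val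

/-- What `mm` needs. -/
structure MEnv {p : ℕ} (N R : ℕ) (a b c : ℕ → ℕ → ℕ → ZMod p) (σ : State) : Prop where
  rp : σ.reg 5 = p
  ta : Tab σ 6 N R a
  tb : Tab σ 7 N R b
  tc : Tab σ 8 N R c

/-- What the nodes need. -/
structure Env {p : ℕ} (N R g D m : ℕ) (a b c : ℕ → ℕ → ℕ → ZMod p) (σ : State) : Prop where
  me : MEnv N R a b c σ
  rm : σ.reg 10 = m
  rb : σ.reg 16 = N ^ (g + 1)
  rsz : ∀ d ≤ D, σ.reg (SZ d) = sz N g d
  rbs : ∀ d ≤ D, σ.reg (BS d) = N ^ (g * d)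
  inv : InvTab p σ

def WR (d r : ℕ) : Prop := r ∈ [1, 2, 3, 6, 7, 8, 13, 14, 15] ∨ (21 ≤ r ∧ r ≤ 21 + 3 * d ∧ r % 3 = 0)
def WA (d a : ℕ) : Prop :=
  a ∈ [2, 11, 12, 13, 14, 15, 16] ∨ (20 ≤ a ∧ a < 20 + 3 * d) ∨ a = 21 + 3 * d

/-- What a node of level `d` leaves unchanged. -/
def NFrame (d : ℕ) (σ σ' : State) : Prop :=
  (∀ r, ¬ WR d r → σ'.reg r = σ.reg r) ∧ (∀ a, ¬ WA d a → σ'.arr a = σ.arr a) ∧ σ'.coins = σ.coins

open Expr in
/-- One down stage on array `src` with table `tab`; registers 6 `= N k`, 7 `= H`, 8 `= k`. -/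
def downP (N R tab src : ℕ) : Prog :=
  .seq (fillS 13 (reg 7 * lit R * reg 8 * reg 8) (lit (N * N))
      (load tab (reg 1 / reg 8 / reg 8 % lit R * lit (N * N) + reg 2) *
        load src ((reg 1 / reg 8 / reg 8 / lit R * reg 6 +
          (reg 2 / lit N * reg 8 + reg 1 / reg 8 % reg 8)) * reg 6 +
          (reg 2 % lit N * reg 8 + reg 1 % reg 8))))
    (fillE src (reg 7 * lit R * reg 8 * reg 8) (load 13 (reg 1)))

open Expr in
/-- One up stage on array 11; registers 6 `= N k`, 7 `= H` (after the stage), 8 `= k`. -/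
def upP (N R : ℕ) : Prog :=
  .seq (fillS 13 (reg 7 * reg 6 * reg 6) (lit R)
      (load 8 (reg 2 * lit (N * N) + (reg 1 / reg 6 % reg 6 / reg 8 * lit N + reg 1 % reg 6 / reg 8)) *
        load 11 (((reg 1 / reg 6 / reg 6 * lit R + reg 2) * reg 8 + reg 1 / reg 6 % reg 6 % reg 8) *
          reg 8 + reg 1 % reg 6 % reg 8)))
    (fillE 11 (reg 7 * reg 6 * reg 6) (load 13 (reg 1)))

open Expr in
def downLoop (N R : ℕ) : Prog :=
  .loop (lt (lit 1) (reg 6))
    (.seq (.set 8 (reg 6 / lit N)) <| .seq (downP N R 6 11) <| .seq (downP N R 7 12) <|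
      .seq (.set 7 (reg 7 * lit R)) (.set 6 (reg 8)))

open Expr in
def upLoop (N R sr : ℕ) : Prog :=
  .loop (lt (reg 6) (reg sr))
    (.seq (.set 8 (reg 6)) <| .seq (.set 6 (reg 6 * lit N)) <| .seq (.set 7 (reg 7 / lit R)) (upP N R))

open Expr in
/-- `z := x * y` for matrices whose size is in register `sr`. -/
def mm (N R x y z sr : ℕ) : Prog :=
  .seq (fillE 11 (reg sr * reg sr) (load x (reg 1))) <|
  .seq (fillE 12 (reg sr * reg sr) (load y (reg 1))) <|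
  .seq (.set 6 (reg sr)) <| .seq (.set 7 (lit 1)) <|
  .seq (downLoop N R) <|
  .seq (fillE 13 (reg 7) (load 11 (reg 1) * load 12 (reg 1) % reg 5)) <|
  .seq (fillE 11 (reg 7) (load 13 (reg 1))) <|
  .seq (upLoop N R sr) (fillE z (reg sr * reg sr) (load 11 (reg 1)))

open Expr in
def zeroM (z sr : ℕ) : Prog := fillE z (reg sr * reg sr) (lit 0)
open Expr in
def copyM (z x sr : ℕ) : Prog := fillE z (reg sr * reg sr) (load x (reg 1))
open Expr in
def addM (z x y sr : ℕ) : Prog :=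
  fillE z (reg sr * reg sr) ((load x (reg 1) + load y (reg 1)) % reg 5)
open Expr in
def subM (z x y sr : ℕ) : Prog :=
  fillE z (reg sr * reg sr) ((load x (reg 1) + (reg 5 - load y (reg 1))) % reg 5)
open Expr in
def oneSub (z x sr : ℕ) : Prog :=
  fillE z (reg sr * reg sr)
    ((lit 1 - lt (reg 1 / reg sr) (reg 1 % reg sr) - lt (reg 1 % reg sr) (reg 1 / reg sr) +
      (reg 5 - load x (reg 1))) % reg 5)
open Expr in
def transM (z x sr : ℕ) : Prog :=
  fillE z (reg sr * reg sr) (load x (reg 1 % reg sr * reg sr + reg 1 / reg sr))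

open Expr in
/-- The expression for `fcN N g d c t`, with `c` in register `CT (d+1)`. -/
def fE (d : ℕ) (t : Expr) : Expr :=
  lt t (reg (BS d)) * (reg (CT (d + 1)) / reg 16 * reg (BS d) + t) +
    (lit 1 - lt t (reg (BS d))) * (reg (CT (d + 1)) % reg 16 * reg (BS d) + t % reg (BS d))

open Expr in
/-- Child matrix: `z := x[f, f]`. -/
def selM (d z x : ℕ) : Prog :=
  fillE z (reg (SZ d) * reg (SZ d))
    (load x (fE d (reg 1 / reg (SZ d)) * reg (SZ (d + 1)) + fE d (reg 1 % reg (SZ d))))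
open Expr in
/-- Child index map. -/
def selI (d : ℕ) : Prog := fillE (IA d) (reg (SZ d)) (load (IA (d + 1)) (fE d (reg 1)))
open Expr in
/-- `z := x[all, f]`, padded with zero columns. -/
def colSel (d z x : ℕ) : Prog :=
  fillE z (reg (SZ (d + 1)) * reg (SZ (d + 1)))
    (lt (reg 1 % reg (SZ (d + 1))) (reg (SZ d)) *
      load x (reg 1 / reg (SZ (d + 1)) * reg (SZ (d + 1)) + fE d (reg 1 % reg (SZ (d + 1)))))
open Expr in
/-- `z := x[f, all]`, padded with zero rows. -/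
def rowSel (d z x : ℕ) : Prog :=
  fillE z (reg (SZ (d + 1)) * reg (SZ (d + 1)))
    (lt (reg 1 / reg (SZ (d + 1))) (reg (SZ d)) *
      load x (fE d (reg 1 / reg (SZ (d + 1))) * reg (SZ (d + 1)) + reg 1 % reg (SZ (d + 1))))
open Expr in
/-- `z := x` padded with zeros from size `sz d` to size `sz (d+1)`. -/
def padM (d z x : ℕ) : Prog :=
  fillE z (reg (SZ (d + 1)) * reg (SZ (d + 1)))
    (lt (reg 1 / reg (SZ (d + 1))) (reg (SZ d)) * lt (reg 1 % reg (SZ (d + 1))) (reg (SZ d)) *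
      load x (reg 1 / reg (SZ (d + 1)) * reg (SZ d) + reg 1 % reg (SZ (d + 1))))

/-- `z := P - P * (K * P)` for arrays `P`, `K`. -/
def updM (N R z P K sr : ℕ) : Prog :=
  .seq (mm N R K P 14 sr) <| .seq (mm N R P 14 15 sr) (subM z P 15 sr)

/-- Before the call of a child of level `d`. -/
def preP (N R d : ℕ) : Prog :=
  .seq (updM N R 16 (PA (d + 1)) (KA (d + 1)) (SZ (d + 1))) <| .seq (selM d (PA d) 16) (selI d)

/-- After the call of a child of level `d`. -/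
def postP (N R d : ℕ) : Prog :=
  .seq (mm N R (KA (d + 1)) (PA (d + 1)) 14 (SZ (d + 1))) <|
  .seq (oneSub 15 14 (SZ (d + 1))) <| .seq (colSel d 14 15) <| .seq (padM d 15 (KA d)) <|
  .seq (mm N R 14 15 16 (SZ (d + 1))) <|
  .seq (mm N R (PA (d + 1)) (KA (d + 1)) 14 (SZ (d + 1))) <|
  .seq (oneSub 15 14 (SZ (d + 1))) <| .seq (rowSel d 14 15) <|
  .seq (mm N R 16 14 15 (SZ (d + 1))) <|
  .seq (addM 14 (KA (d + 1)) 15 (SZ (d + 1))) (copyM (KA (d + 1)) 14 (SZ (d + 1)))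

open Expr in
def leafP (h : ℕ) : Prog :=
  .seq (zeroM (KA 0) (SZ 0)) <|
  .seq (.set 13 (load (IA 0) (lit 0))) <| .seq (.set 14 (load (IA 0) (lit 1))) <|
  .seq (.set 15 (load (PA 0) (lit 1))) <|
  .ite (load h (reg 13 * reg 10 + reg 14) * reg 15)
    (.seq (.store (KA 0) (lit 1) ((reg 5 - load 5 (reg 15)) % reg 5)) <|
      .seq (.store (KA 0) (reg (SZ 0)) (load 5 (reg 15))) <|
      .seq (.store 2 (reg 13) (reg 14 + lit 1)) (.store 2 (reg 14) (reg 13 + lit 1)))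
    (.set 13 (lit 0))

open Expr in
def nodeP (N R h : ℕ) : ℕ → Prog
  | 0 => leafP h
  | d + 1 => .seq (zeroM (KA (d + 1)) (SZ (d + 1)))
      (forL (CT (d + 1)) (reg 16 * reg 16)
        (.seq (preP N R d) <| .seq (nodeP N R h d) (postP N R d)))

open Expr in
def levelsP (N : ℕ) : ℕ → Prog
  | 0 => .seq (.set (BS 0) (lit 1)) (.set (SZ 0) (lit N))
  | d + 1 => .seq (levelsP N d) <| .seq (.set (BS (d + 1)) (reg (BS d) * reg 17))
      (.set (SZ (d + 1)) (reg (BS (d + 1)) * lit N))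

open Expr in
def sizesP (N D : ℕ) : Prog :=
  .seq (.set 17 (lit 1)) <| .seq (.set 10 (lit N)) <|
  .seq (.loop (lt (reg 10) (lit 2 * reg 0))
    (.seq (.set 17 (reg 17 * lit N)) (.set 10 (reg 10 * lit (N ^ D))))) <|
  .seq (.set 16 (reg 17 * lit N)) (levelsP N D)

open Expr in
def powP (Dn : ℕ) : Prog :=
  .seq (.set 12 (lit 1)) <| .seq (.set 11 (lit 0)) <|
  .loop (lt (reg 12) (lit 6 * reg 10 * reg 10 + lit (Dn + 3)))
    (.seq (.set 12 (lit 2 * reg 12)) (.set 11 (reg 11 + lit 1)))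

open Expr in
def sieveP : Prog :=
  .seq (forL 13 (lit 2 * reg 12 + lit 1)
    (.ite (lt (lit 1) (reg 13))
      (.seq (.set 14 (lit 2 * reg 13))
        (.loop (lt (reg 14) (lit 2 * reg 12 + lit 1))
          (.seq (.store 10 (reg 14) (lit 1)) (.set 14 (reg 14 + reg 13)))))
      (.set 14 (lit 0)))) <|
  .seq (.set 5 (reg 12 + lit 1)) (.loop (load 10 (reg 5)) (.set 5 (reg 5 + lit 1)))

open Expr in
def invP : Prog :=
  forL 13 (reg 5)
    (.ite (lt (lit 1) (reg 13))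
      (.store 5 (reg 13) ((reg 5 - reg 5 / reg 13) * load 5 (reg 5 % reg 13) % reg 5))
      (.store 5 (reg 13) (reg 13)))

open Expr in
/-- Cells `t < T` of array `a` get `f t * mult` modulo `p`. -/
def tabP (a : ℕ) (mult : Expr) (f : ℕ → ℤ) : ℕ → Prog
  | 0 => .set 1 (lit 0)
  | t + 1 => .seq (tabP a mult f t)
      (.store a (lit t) ((lit (f t).toNat + (reg 5 - lit 1) * lit (-f t).toNat) * mult % reg 5))

def flat (N : ℕ) (f : ℕ → ℕ → ℕ → ℤ) (t : ℕ) : ℤ := f (t / (N * N)) (t % (N * N) / N) (t % N)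

open Expr in
def tabsP (N R Dn : ℕ) (a b c : ℕ → ℕ → ℕ → ℤ) : Prog :=
  .seq (tabP 6 (lit 1) (flat N a) (R * (N * N))) <| .seq (tabP 7 (lit 1) (flat N b) (R * (N * N)))
    (tabP 8 (load 5 (lit Dn)) (flat N c) (R * (N * N)))

open Expr in
def readP : Prog :=
  .seq (.set 13 (lit 0))
    (forL 14 (reg 0) (forL 15 (load 0 (reg 14))
      (.seq (.store 3 (reg 14 * reg 10 + load 1 (reg 13)) (lit 1)) (.set 13 (reg 13 + lit 1)))))

open Expr in
def hzP : Prog :=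
  fillE 4 (reg 10 * reg 10)
    ((lit 1 - lt (reg 1 / reg 10) (reg 0)) * lt (reg 1 / reg 10) (lit 2 * reg 0) *
      (lit 1 - lt (reg 1 % reg 10) (reg 0)) * lt (reg 1 % reg 10) (lit 2 * reg 0))

open Expr in
def rndP : Prog :=
  forL 13 (lit 2 * reg 10 * reg 10)
    (.seq (.set 14 (lit 0)) <|
      .seq (forL 15 (reg 11) (.seq (.coin 4) (.set 14 (lit 2 * reg 14 + reg 4))))
        (.store 9 (reg 13) (reg 14)))

open Expr in
def tmP : Prog :=
  fillE 17 (reg 10 * reg 10)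
    (load 3 (reg 1) * (lt (reg 1 / reg 10) (reg 1 % reg 10) * load 9 (reg 1) +
      (lit 1 - lt (reg 1 / reg 10) (reg 1 % reg 10)) *
        ((reg 5 - load 9 (reg 1 % reg 10 * reg 10 + reg 1 / reg 10)) % reg 5)))

open Expr in
def wmP : Prog :=
  fillE 18 (reg 10 * reg 10)
    ((lit 1 - lt (reg 1 / reg 10) (reg 0)) * lt (reg 1 / reg 10) (lit 2 * reg 0) *
      lt (reg 1 % reg 10) (reg 0) * load 9 (reg 10 * reg 10 + reg 1))

open Expr in
def buildP (N R D : ℕ) : Prog :=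
  .seq tmP <| .seq wmP <| .seq (transM 19 18 10) <| .seq (mm N R 18 17 14 10) <|
  .seq (mm N R 14 19 15 10) <| .seq (addM 14 15 18 10) <| .seq (subM (PA D) 14 19 10)
    (fillE (IA D) (reg 10) (reg 1))

def setupP (N R D Dn : ℕ) (a b c : ℕ → ℕ → ℕ → ℤ) : Prog :=
  .seq (sizesP N D) <| .seq (powP Dn) <| .seq sieveP <| .seq invP <| .seq (tabsP N R Dn a b c) <|
  .seq readP <| .seq hzP rndP

def solveP (N R D : ℕ) : Prog :=
  .seq (buildP N R D) <| .seq (nodeP N R 4 D) <| .seq (updM N R 16 (PA D) (KA D) 10) <|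
  .seq (copyM (PA D) 16 10) (nodeP N R 3 D)

def mainP (N R D Dn : ℕ) (a b c : ℕ → ℕ → ℕ → ℤ) : Prog :=
  .seq (setupP N R D Dn a b c) (solveP N R D)

theorem MEnv.only {p N R : ℕ} {a b c : ℕ → ℕ → ℕ → ZMod p} {σ σ' : State} {Rs As : List ℕ}
    (h : MEnv N R a b c σ) (ho : Only Rs As σ σ') (h5 : 5 ∉ Rs) (h6 : 6 ∉ As) (h7 : 7 ∉ As)
    (h8 : 8 ∉ As) : MEnv N R a b c σ' :=
  ⟨by rw [ho.1 5 h5, h.rp], by simpa only [Tab, ho.2.1 6 h6] using h.ta,
    by simpa only [Tab, ho.2.1 7 h7] using h.tb, by simpa only [Tab, ho.2.1 8 h8] using h.tc⟩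

theorem Rep.only {p s : ℕ} {σ σ' : State} {a : ℕ} {A : Matrix (Fin s) (Fin s) (ZMod p)}
    {Rs As : List ℕ} (h : Rep σ a A) (ho : Only Rs As σ σ') (ha : a ∉ As) : Rep σ' a A := by
  simpa only [Rep, ho.2.1 a ha] using h

theorem Col.only {p : ℕ} {σ σ' : State} {a H k : ℕ} {X : ℕ → ℕ → ℕ → ZMod p}
    {Rs As : List ℕ} (h : Col σ a H k X) (ho : Only Rs As σ σ') (ha : a ∉ As) : Col σ' a H k X := by
  simpa only [Col, ho.2.1 a ha] using h

theorem NFrame.trans {d : ℕ} {σ₁ σ₂ σ₃ : State} (h : NFrame d σ₁ σ₂) (h' : NFrame d σ₂ σ₃) :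
    NFrame d σ₁ σ₃ :=
  ⟨fun r hr => (h'.1 r hr).trans (h.1 r hr), fun a ha => (h'.2.1 a ha).trans (h.2.1 a ha),
    h'.2.2.trans h.2.2⟩

theorem NFrame.succ {d : ℕ} {σ σ' : State} (h : NFrame d σ σ') : NFrame (d + 1) σ σ' :=
  ⟨fun r hr => h.1 r fun k => hr (by unfold WR at *; rcases k with k | k; exacts [Or.inl k, Or.inr (by omega)]),
    fun a ha => h.2.1 a fun k => ha (by
      unfold WA at *; rcases k with k | k; exacts [Or.inl k, Or.inr (by omega)]), h.2.2⟩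

theorem Only.nframe {Rs As : List ℕ} {σ σ' : State} (h : Only Rs As σ σ') (d : ℕ)
    (hR : ∀ r ∈ Rs, WR d r) (hA : ∀ a ∈ As, WA d a) : NFrame d σ σ' :=
  ⟨fun r hr => h.1 r fun k => hr (hR r k), fun a ha => h.2.1 a fun k => ha (hA a k), h.2.2⟩

theorem Env.nframe {p N R g D m d : ℕ} {a b c : ℕ → ℕ → ℕ → ZMod p} {σ σ' : State}
    (h : Env N R g D m a b c σ) (hf : NFrame d σ σ') : Env N R g D m a b c σ' := by
  have r5 := hf.1 5 (by simp [WR])
  have r10 := hf.1 10 (by simp [WR])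
  have r16 := hf.1 16 (by simp [WR])
  have a5 := hf.2.1 5 (by simp [WA]; omega)
  have a6 := hf.2.1 6 (by simp [WA]; omega)
  have a7 := hf.2.1 7 (by simp [WA]; omega)
  have a8 := hf.2.1 8 (by simp [WA]; omega)
  refine ⟨⟨by rw [r5, h.me.rp], by simpa only [Tab, a6] using h.me.ta,
    by simpa only [Tab, a7] using h.me.tb, by simpa only [Tab, a8] using h.me.tc⟩,
    by rw [r10, h.rm], by rw [r16, h.rb], fun e he => ?_, fun e he => ?_,
    by simpa only [InvTab, a5] using h.inv⟩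
  · rw [hf.1 _ (by simp [WR, SZ]; omega), h.rsz e he]
  · rw [hf.1 _ (by simp [WR, BS]; omega), h.rbs e he]

end Vale.Agent.P305
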