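import Vale.Agent.P305.Setup

/-! Asymptotics. Write `m = sz N g D = N^e`, `e = 1 + g D`, `β = N^(g+1)`.
`nodeT_le`: induction on `d` using `β * β * mmT R (1 + g d) ≤ N * N * mmT R (1 + g (d+1))`
(`N^(2g) ≤ R^g`). `total_le`: `R^e ≤ m^(9/4 + δ)`; `β * β ≤ N^2 * m^(2/D) ≤ N^2 * m^δ`;
`e + 1 ≤ C * m^δ` and `k ≤ C * m^δ` (`e ≤ log₂ m`, `2^k ≤ 2 (6 m m + Dn + 3)`, use
`Real.log_le_rpow_div` or `x ≤ (2^x)^δ / (δ log 2)`); `p ≤ 2 * 2^k`, `g ≤ m`, `n ≤ m`; finally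
`m ≤ N^(D+1) * (2 n + 1)`. -/

namespace Vale.Agent.P305

open Finset

theorem nodeT_le {N R : ℕ} (hN : 2 ≤ N) (hR : N * N ≤ R) (d : ℕ) : ∃ A : ℕ, ∀ g : ℕ,
    nodeT N R g d ≤ A * (N ^ (g + 1) * N ^ (g + 1) * mmT R (1 + g * d)) := by
  have hR0 : 0 < R := lt_of_lt_of_le (by positivity) hR
  have hm : ∀ e, 1 ≤ mmT R e := fun e => Nat.succ_le_of_lt (by unfold mmT; positivity)
  have hB : ∀ g, 1 ≤ N ^ (g + 1) * N ^ (g + 1) := fun g => Nat.succ_le_of_lt (by positivity)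
  induction d with
  | zero =>
    exact ⟨3 * (N * N) + 20, fun g => Nat.le_mul_of_pos_right _ (Nat.mul_pos (hB g) (hm _))⟩
  | succ d ih =>
    obtain ⟨A, hA⟩ := ih
    refine ⟨200 + A * (N * N), fun g => ?_⟩
    have h1 : N ^ (g + 1) * N ^ (g + 1) * mmT R (1 + g * d) ≤
        N * N * mmT R (1 + g * (d + 1)) := by
      have h2 : (N * N) ^ g ≤ R ^ g := Nat.pow_le_pow_left hR g
      have h3 : 1 + g * d + 1 ≤ 1 + g * (d + 1) + 1 := by nlinarith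
      calc N ^ (g + 1) * N ^ (g + 1) * mmT R (1 + g * d)
          = N * N * ((10 * R + 100) * (1 + g * d + 1) * ((N * N) ^ g * R ^ (1 + g * d))) := by
            unfold mmT; ring
        _ ≤ N * N * ((10 * R + 100) * (1 + g * (d + 1) + 1) * (R ^ g * R ^ (1 + g * d))) := by
            gcongr
        _ = _ := by unfold mmT; ring
    have h2 := (hA g).trans (Nat.mul_le_mul_left A h1)
    have h3 := hB g
    rw [nodeT]
    generalize N ^ (g + 1) * N ^ (g + 1) = B at h2 h3 ⊢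
    generalize mmT R (1 + g * (d + 1)) = Q at h2 ⊢
    calc B * (100 * Q + nodeT N R g d) + 100 * Q
        ≤ B * (100 * Q + A * (N * N * Q)) + 100 * (B * Q) := by
          gcongr
          exact Nat.le_mul_of_pos_left _ h3
      _ = _ := by ring

theorem log_Cost {δ c : ℝ} (hδ : 0 < δ) (hc : 1 ≤ c) : ∃ C : ℝ, 0 ≤ C ∧ ∀ (x : ℝ) (j : ℕ), 1 ≤ x →
    2 ^ j ≤ c * x ^ 2 → (j : ℝ) + 1 ≤ C * x ^ δ := by
  have h2 : 0 < Real.log 2 := Real.log_pos one_lt_two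
  have hl : 0 ≤ Real.log c := Real.log_nonneg hc
  refine ⟨(Real.log c + 2 / δ) / Real.log 2 + 1, by positivity, fun x j hx h => ?_⟩
  have h1 : 1 ≤ x ^ δ := Real.one_le_rpow hx hδ.le
  have h3 := Real.log_le_log (by positivity) h
  rw [Real.log_pow, Real.log_mul (by positivity) (by positivity), Real.log_pow] at h3
  have h4 := Real.log_le_rpow_div (zero_le_one.trans hx) hδ
  have h5 : (j : ℝ) ≤ (Real.log c + 2 / δ) / Real.log 2 * x ^ δ := by
    rw [div_mul_eq_mul_div, le_div_iff₀ h2]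
    have h6 : (Real.log c + 2 / δ) * x ^ δ = Real.log c * x ^ δ + 2 * (x ^ δ / δ) := by ring
    rw [h6]
    push_cast at h3
    nlinarith
  linarith [add_mul ((Real.log c + 2 / δ) / Real.log 2) 1 (x ^ δ)]

theorem pow_Cost {N D Dn n g k p : ℕ} (h : Par N D Dn n g k p) (hN : 2 ≤ N) :
    2 ^ k ≤ 2 * (Dn + 9) * (sz N g D * sz N g D) := by
  have h1 : 1 ≤ sz N g D * sz N g D := Nat.succ_le_of_lt (by unfold sz; positivity)
  have := h.pow_le
  nlinarith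

theorem setup_Cost {N R D Dn n g k p : ℕ} (h : Par N D Dn n g k p) (hN : 2 ≤ N) (hD : 1 ≤ D) :
    setupT N R D n g k p ≤ (2 * D + 3 * (R * (N * N)) + 48 * (2 * (Dn + 9)) + 100) *
      (sz N g D * sz N g D * (k + 1)) := by
  have h1 : g ≤ sz N g D := by
    have h2 : g ≤ 1 + g * D := by nlinarith
    exact h2.trans (Nat.lt_pow_self (by omega)).le
  have h2 : 1 ≤ sz N g D := Nat.succ_le_of_lt (by unfold sz; positivity)
  have h3 := pow_Cost h hN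
  have h4 := h.p_le
  have h5 : n ≤ sz N g D := by have := h.hg; omega
  unfold setupT
  generalize sz N g D = m at *
  generalize 2 * (Dn + 9) = c at *
  generalize R * (N * N) = b
  have h6 : m ≤ m * m := Nat.le_mul_self m
  have h7 : n * n ≤ m * m := Nat.mul_le_mul h5 h5
  have e1 : n * (4 * n + 4) = 4 * (n * n) + 4 * n := by ring
  have e2 : 2 * m * m * (4 * k + 6) = 8 * (m * m * k) + 12 * (m * m) := by ring
  have h8 : 2 ^ k * (6 * k + 40) ≤ c * (m * m) * (40 * (k + 1)) := Nat.mul_le_mul h3 (by omega)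
  rw [e1, e2]
  generalize m * m = v at *
  have h9 : k ≤ v * k := Nat.le_mul_of_pos_left _ (by omega)
  have h10 : c * v ≤ c * (v * (k + 1)) := Nat.mul_le_mul_left _ (Nat.le_mul_of_pos_right _ k.succ_pos)
  have h11 : 1 ≤ v * (k + 1) := Nat.mul_pos (by omega) k.succ_pos
  have h12 : D ≤ D * (v * (k + 1)) := Nat.le_mul_of_pos_right _ h11
  have h13 : b ≤ b * (v * (k + 1)) := Nat.le_mul_of_pos_right _ h11
  have e3 : c * v * (40 * (k + 1)) = 40 * (c * (v * (k + 1))) := by ring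
  have e4 : (2 * D + 3 * b + 48 * c + 100) * (v * (k + 1)) = 2 * (D * (v * (k + 1))) +
      3 * (b * (v * (k + 1))) + 48 * (c * (v * (k + 1))) + 100 * (v * k) + 100 * v := by ring
  rw [e4]
  omega

theorem total_le {N R D Dn : ℕ} {δ : ℝ} (hδ : 0 < δ) (hN : 2 ≤ N) (hR : N * N ≤ R)
    (hRN : (R : ℝ) ≤ (N : ℝ) ^ (9 / 4 + δ)) (hD : 2 / δ ≤ (D : ℝ)) : ∃ C : ℝ, ∀ n g k p : ℕ,
    Par N D Dn n g k p →
    ((setupT N R D n g k p + (20 * mmT R (1 + g * D) + 2 * nodeT N R g D) : ℕ) : ℝ) ≤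
      C * ((n : ℝ) + 1) ^ (9 / 4 + 3 * δ) := by
  have hD' : 2 ≤ (D : ℝ) * δ := (div_le_iff₀ hδ).1 hD
  have hD1 : 1 ≤ D := Nat.pos_of_ne_zero fun h => by rw [h] at hD'; norm_num at hD'
  obtain ⟨A, hA⟩ := nodeT_le hN hR D
  obtain ⟨C, hC0, hC⟩ := log_Cost (c := (2 * (Dn + 9) : ℕ)) hδ (by
    exact_mod_cast (by omega : 1 ≤ 2 * (Dn + 9)))
  obtain ⟨K, hK⟩ : ∃ K : ℕ, K = 2 * D + 3 * (R * (N * N)) + 48 * (2 * (Dn + 9)) + 100 := ⟨_, rfl⟩
  refine ⟨(K * C + 20 * ((10 * R + 100) * C) + 2 * (A * (N * N * ((10 * R + 100) * C)))) *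
    (N ^ (D + 1) * 2) ^ (9 / 4 + 3 * δ), fun n g k p hP => ?_⟩
  have hN1 : (1 : ℝ) ≤ N := by exact_mod_cast (by omega : 1 ≤ N)
  obtain ⟨x, hx⟩ : ∃ x : ℝ, x = (N : ℝ) ^ (1 + g * D) := ⟨_, rfl⟩
  have hsz : (sz N g D : ℝ) = x := by rw [hx, sz, Nat.cast_pow]
  have hx1 : 1 ≤ x := hx ▸ one_le_pow₀ hN1
  have hx0 : 0 < x := by linarith
  have hy : 1 ≤ x ^ δ := Real.one_le_rpow hx1 hδ.le
  have hW : x * x ≤ x ^ (9 / 4 : ℝ) := by
    rw [← sq, ← Real.rpow_natCast]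
    exact Real.rpow_le_rpow_of_exponent_le hx1 (by norm_num)
  have hP3 : x ^ (9 / 4 + 3 * δ) = x ^ (9 / 4 : ℝ) * (x ^ δ * x ^ δ * x ^ δ) := by
    rw [← Real.rpow_add hx0, ← Real.rpow_add hx0, ← Real.rpow_add hx0]
    congr 1
    ring
  have h1 : (R : ℝ) ^ (1 + g * D) ≤ x ^ (9 / 4 : ℝ) * x ^ δ := by
    rw [← Real.rpow_add hx0, hx, ← Real.rpow_natCast (N : ℝ), ← Real.rpow_mul (by positivity),
      mul_comm ((1 + g * D : ℕ) : ℝ), Real.rpow_mul (by positivity), Real.rpow_natCast]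
    gcongr
  have h2 : (N : ℝ) ^ (g + 1) * N ^ (g + 1) ≤ N * N * x ^ δ := by
    have h3 : (N : ℝ) ^ (2 * g) ≤ x ^ δ := by
      rw [hx, ← Real.rpow_natCast, ← Real.rpow_natCast, ← Real.rpow_mul (by positivity)]
      refine Real.rpow_le_rpow_of_exponent_le hN1 ?_
      push_cast
      have : (0 : ℝ) ≤ g := Nat.cast_nonneg g
      nlinarith
    calc (N : ℝ) ^ (g + 1) * N ^ (g + 1) = N * N * N ^ (2 * g) := by ring
      _ ≤ _ := by gcongr
  have h3 : ((1 + g * D : ℕ) : ℝ) + 1 ≤ C * x ^ δ := by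
    refine hC x _ hx1 ?_
    have h4 : (2 : ℝ) ^ (1 + g * D) ≤ x := by
      rw [hx]
      gcongr
      exact_mod_cast hN
    have h5 : (1 : ℝ) ≤ (2 * (Dn + 9) : ℕ) := by exact_mod_cast (by omega : 1 ≤ 2 * (Dn + 9))
    nlinarith
  have h4 : (k : ℝ) + 1 ≤ C * x ^ δ := by
    refine hC x _ hx1 ?_
    rw [sq, ← hsz]
    exact_mod_cast pow_Cost hP hN
  have h5 : (setupT N R D n g k p : ℝ) ≤ K * (x * x * (k + 1)) := by
    rw [← hsz, hK]
    exact_mod_cast setup_Cost hP hN hD1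
  have h6 : (mmT R (1 + g * D) : ℝ) ≤ (10 * R + 100) * (C * x ^ δ) * (x ^ (9 / 4 : ℝ) * x ^ δ) := by
    unfold mmT
    push_cast at h3 ⊢
    gcongr
  have h7 : (nodeT N R g D : ℝ) ≤ A * (N ^ (g + 1) * N ^ (g + 1) * mmT R (1 + g * D)) := by
    exact_mod_cast hA g
  have h8 : x ^ (9 / 4 + 3 * δ) ≤
      (N ^ (D + 1) * 2) ^ (9 / 4 + 3 * δ) * ((n : ℝ) + 1) ^ (9 / 4 + 3 * δ) := by
    rw [← Real.mul_rpow (by positivity) (by positivity)]
    refine Real.rpow_le_rpow hx0.le ?_ (by positivity)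
    have h9 : x ≤ N ^ (D + 1) * (2 * n + 1) := by
      rw [← hsz]
      exact_mod_cast hP.sz_le hN
    have : (0 : ℝ) < N ^ (D + 1) := by positivity
    nlinarith
  rw [mul_assoc]
  refine le_trans ?_ (mul_le_mul_of_nonneg_left h8 (by positivity))
  rw [hP3]
  generalize x ^ (9 / 4 : ℝ) = W at *
  generalize x ^ δ = y at *
  have hW0 : 0 ≤ W := le_trans (by positivity) hW
  have hy2 : y ≤ y * y * y := by nlinarith
  have hy3 : y * y ≤ y * y * y := by nlinarith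
  have a1 : (setupT N R D n g k p : ℝ) ≤ K * C * (W * (y * y * y)) :=
    calc (setupT N R D n g k p : ℝ) ≤ K * (W * (C * (y * y * y))) := by
          refine h5.trans ?_
          gcongr
          exact h4.trans (mul_le_mul_of_nonneg_left hy2 hC0)
      _ = _ := by ring
  have a2 : (mmT R (1 + g * D) : ℝ) ≤ (10 * R + 100) * C * (W * (y * y * y)) :=
    calc (mmT R (1 + g * D) : ℝ) ≤ (10 * R + 100) * C * (W * (y * y)) := h6.trans_eq (by ring)
      _ ≤ _ := by gcongr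
  have a3 : (nodeT N R g D : ℝ) ≤ A * (N * N * ((10 * R + 100) * C)) * (W * (y * y * y)) :=
    calc (nodeT N R g D : ℝ) ≤ A * (N * N * y * ((10 * R + 100) * (C * y) * (W * y))) := by
          refine h7.trans ?_
          gcongr
      _ = _ := by ring
  push_cast
  linarith

/-- The word bound: a power of `M` fits in `c * log₂ (n + 2)` bits. -/
theorem word_le {N R D Dn : ℕ} (hN : 2 ≤ N) (hRN : R ≤ N ^ 3) (l s : ℕ) : ∃ c : ℕ, ∀ n g k p : ℕ,
    Par N D Dn n g k p →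
    (8 * 2 ^ k + R ^ (1 + g * D) + l + 2) ^ s ≤ 2 ^ (c * Nat.log 2 (n + 2)) := by
  obtain ⟨a, ha⟩ : ∃ a, a = (8 * (2 * (Dn + 9)) + 1 + l + 2) * (N ^ (D + 1)) ^ 3 := ⟨_, rfl⟩
  refine ⟨(a + 9) * s, fun n g k p hP => ?_⟩
  have h1 := pow_Cost hP hN
  have h2 : R ^ (1 + g * D) ≤ sz N g D ^ 3 := by
    rw [sz, ← pow_mul, mul_comm _ 3, pow_mul]
    exact Nat.pow_le_pow_left hRN _
  have h3 : 1 ≤ sz N g D := Nat.succ_le_of_lt (by unfold sz; positivity)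
  have h4 := hP.sz_le hN
  have hL : 1 ≤ Nat.log 2 (n + 2) := Nat.log_pos one_lt_two (by omega)
  have h5 : n + 2 < 2 ^ (Nat.log 2 (n + 2) + 1) := Nat.lt_pow_succ_log_self one_lt_two _
  generalize Nat.log 2 (n + 2) = L at *
  generalize sz N g D = m at *
  have h6 : 2 * n + 1 ≤ 2 ^ (3 * L) := by
    have h7 : 2 ^ (L + 1 + 1) ≤ 2 ^ (3 * L) := Nat.pow_le_pow_right two_pos (by omega)
    rw [pow_succ] at h7
    omega
  have h7 : a ≤ 2 ^ (a * L) :=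
    (Nat.lt_two_pow_self).le.trans (Nat.pow_le_pow_right two_pos (Nat.le_mul_of_pos_right _ hL))
  have h8 : 1 ≤ m ^ 3 := Nat.one_le_pow _ _ h3
  have h9 : m * m ≤ m ^ 3 := by rw [← sq]; exact Nat.pow_le_pow_right h3 (by norm_num)
  have h10 : 8 * 2 ^ k + R ^ (1 + g * D) + l + 2 ≤ (8 * (2 * (Dn + 9)) + 1 + l + 2) * m ^ 3 := by
    have := Nat.mul_le_mul_left (2 * (Dn + 9)) h9
    nlinarith
  rw [mul_right_comm, pow_mul]
  refine Nat.pow_le_pow_left (h10.trans ?_) s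
  calc (8 * (2 * (Dn + 9)) + 1 + l + 2) * m ^ 3
      ≤ (8 * (2 * (Dn + 9)) + 1 + l + 2) * (N ^ (D + 1) * 2 ^ (3 * L)) ^ 3 := by
        gcongr
        exact h4.trans (Nat.mul_le_mul_left _ h6)
    _ = a * 2 ^ (9 * L) := by rw [ha]; ring
    _ ≤ 2 ^ (a * L) * 2 ^ (9 * L) := Nat.mul_le_mul_right _ h7
    _ = _ := by rw [← pow_add, add_mul]

end Vale.Agent.P305
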