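import Vale.Agent.P305.Ideal1

/-! Phase 2 of the ideal process, started in `s` with `Phase1 n Γ s`; put `Z = s.X`.
Invariant along the fold: there is `μ` with `Mt Γ μ`, `X = Z ∪ cov μ` (so `zs n X = Z`,
`vs n X = cov μ`), `out u = v + 1 ↔ μ u = v ∧ v ≠ u` for `u, v < n`, `Feas n Γ X`,
`2 |hist| ≤ |X|`, every set of `hist` is `FeasE` (after `Mt.add`, `|cov μ| ≤ |Z|`, both even,
`Mt.shrink`) and lies below `2n`. At the end, if `|cov μ| < |Z|`, `Feas` gives a nonempty `μ₂`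
disjoint from `X`; take `u ∈ cov μ₂`, `v = μ₂ u`; `Mt.remove` gives `Feas n Γ (X ∪ {u, v})`.
Backward lemma: if `u, v` are outside the final `X` and `Feas (final X ∪ {u, v})` then
`Feas (s.X ∪ {u, v})` for the start of the fold (induction on the list, `Feas.back`). Hence the
pair `(u, v)` was taken when tested, a contradiction. -/

namespace Vale.Agent.P305

open Finset

/-- The invariant of phase 2. -/
def Inv_Ideal2 {m : ℕ} (n : ℕ) (Γ : SimpleGraph (Fin m)) (Z : Finset (Fin m)) (t : IState m) :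
    Prop :=
  ∃ μ, Mt Γ μ ∧ zs n t.X = Z ∧ vs n t.X = cov μ ∧
    (∀ u v : Fin m, u.val < n → v.val < n → (t.out u.val = v.val + 1 ↔ μ u = v ∧ v ≠ u)) ∧
    Feas n Γ t.X ∧ 2 * t.hist.card ≤ t.X.card ∧ (∀ x ∈ t.X, x.val < 2 * n) ∧
    ∀ Y ∈ t.hist, FeasE n Γ Y ∧ ∀ x ∈ Y, x.val < 2 * n

theorem step_Ideal2 {m n : ℕ} {Γ : SimpleGraph (Fin m)} (hΓ : Low n Γ) {Z : Finset (Fin m)}
    (h1 : Even Z.card) (h2 : ∀ μ, Mt Γ μ → (cov μ).card ≤ Z.card) {t : IState m}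
    (h : Inv_Ideal2 n Γ Z t) (e : Fin m × Fin m) : Inv_Ideal2 n Γ Z (istep n Γ Γ.Adj t e) := by
  obtain ⟨u, v⟩ := e
  unfold istep
  split_ifs with hc
  swap
  · exact h
  obtain ⟨μ, a1, a2, a3, a4, -, a6, a7, a8⟩ := h
  obtain ⟨c1, c2, c3, c4, c5⟩ := hc
  dsimp only at c1 c2 c3 c4 c5 ⊢
  have hu := hΓ u v c1
  have hv := hΓ v u c1.symm
  obtain ⟨μ', b1, b2, b3, b4, b5⟩ := a1.add c1 (fun h => c2 (mem_filter.1 (a3 ▸ h)).1)
    fun h => c3 (mem_filter.1 (a3 ▸ h)).1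
  obtain ⟨d1, d2⟩ := vs_zs_union_low c2 c3 c4 hu hv
  have d3 : vs n (t.X ∪ {u, v}) = cov μ' := by
    rw [b2, ← a3, vs, filter_union, filter_true_of_mem (s := {u, v})]
    · rfl
    · intro x hx
      rcases mem_insert.1 hx with rfl | hx
      · exact hu
      · rw [mem_singleton.1 hx]
        exact hv
  have d4 : ∀ x ∈ t.X ∪ {u, v}, x.val < 2 * n := fun x hx => by
    rcases mem_union.1 hx with hx | hx
    · exact a7 x hx
    · rcases mem_insert.1 hx with rfl | hx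
      · omega
      · rw [mem_singleton.1 hx]
        omega
  refine ⟨μ', b1, d2.trans a2, d3, fun a b ha hb => ?_, c5, ?_, d4, fun Y hY => ?_⟩
  · show mark t.out u v a = _ ↔ _
    unfold mark
    by_cases e1 : a = v
    · rw [e1, Function.update_self, b4, Nat.add_right_cancel_iff, Fin.val_inj]
      exact ⟨fun e => ⟨e, e ▸ c4⟩, fun e => e.1⟩
    rw [Function.update_of_ne (Fin.val_ne_of_ne e1)]
    by_cases e2 : a = u
    · rw [e2, Function.update_self, b3, Nat.add_right_cancel_iff, Fin.val_inj]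
      exact ⟨fun e => ⟨e, e ▸ Ne.symm c4⟩, fun e => e.1⟩
    rw [Function.update_of_ne (Fin.val_ne_of_ne e2), b5 a e2 e1]
    exact a4 a b ha hb
  · have e1 := card_insert_le (t.X ∪ {u, v}) t.hist
    have e2 := card_vs_add_zs n t.X
    have e3 := card_vs_add_zs n (t.X ∪ {u, v})
    rw [d1, d2] at e3
    show 2 * (insert (t.X ∪ {u, v}) t.hist).card ≤ (t.X ∪ {u, v}).card
    omega
  · rcases mem_insert.1 hY with rfl | hY
    swap
    · exact a8 Y hY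
    obtain ⟨ν, f1, f2, f3⟩ := c5
    obtain ⟨k, hk⟩ := h1
    obtain ⟨l, hl⟩ := b1.even_card
    have f4 := h2 μ' b1
    rw [d2, a2, d3] at f3
    obtain ⟨ν', g1, g2, g3⟩ := f1.shrink (k - l) (by omega)
    refine ⟨⟨ν', g1, f2.mono_left g2, ?_⟩, d4⟩
    rw [d2, a2, d3]
    omega

theorem fold_Ideal2 {m n : ℕ} {Γ : SimpleGraph (Fin m)} (hΓ : Low n Γ) {Z : Finset (Fin m)}
    (h1 : Even Z.card) (h2 : ∀ μ, Mt Γ μ → (cov μ).card ≤ Z.card) (L : List (Fin m × Fin m)) :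
    ∀ t, Inv_Ideal2 n Γ Z t → Inv_Ideal2 n Γ Z (L.foldl (istep n Γ Γ.Adj) t) := by
  induction L with
  | nil => exact fun _ h => h
  | cons e L ih => exact fun t h => ih _ (step_Ideal2 hΓ h1 h2 h e)

theorem back_Ideal2 {m n : ℕ} {Γ : SimpleGraph (Fin m)} (hΓ : Low n Γ) {u v : Fin m}
    (huv : Γ.Adj u v) (L : List (Fin m × Fin m)) : ∀ t, u ∉ (L.foldl (istep n Γ Γ.Adj) t).X →
      v ∉ (L.foldl (istep n Γ Γ.Adj) t).X → Feas n Γ ((L.foldl (istep n Γ Γ.Adj) t).X ∪ {u, v}) →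
      (u ∉ t.X ∧ v ∉ t.X ∧ Feas n Γ (t.X ∪ {u, v})) ∧ (u, v) ∉ L := by
  induction L with
  | nil => exact fun _ a b c => ⟨⟨a, b, c⟩, List.not_mem_nil⟩
  | cons e L ih =>
    intro t a b c
    obtain ⟨⟨a1, a2, a3⟩, a4⟩ := ih _ a b c
    unfold istep at a1 a2 a3
    split_ifs at a1 a2 a3 with hc
    · obtain ⟨c1, c2, c3, -, -⟩ := hc
      simp only [mem_union, mem_insert, mem_singleton, not_or] at a1 a2
      refine ⟨⟨a1.1, a2.1, Feas.back hΓ c1 ?_ ?_ (union_right_comm t.X _ _ ▸ a3)⟩, fun h => ?_⟩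
      · simp only [mem_union, mem_insert, mem_singleton, not_or]
        exact ⟨c2, Ne.symm a1.2.1, Ne.symm a2.2.1⟩
      · simp only [mem_union, mem_insert, mem_singleton, not_or]
        exact ⟨c3, Ne.symm a1.2.2, Ne.symm a2.2.2⟩
      · rcases List.mem_cons.1 h with rfl | h
        · exact a1.2.1 rfl
        · exact a4 h
    · refine ⟨⟨a1, a2, a3⟩, fun h => ?_⟩
      rcases List.mem_cons.1 h with rfl | h
      · exact hc ⟨huv, a1, a2, huv.ne, a3⟩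
      · exact a4 h

theorem phase2 {m n : ℕ} {Γ : SimpleGraph (Fin m)} (hΓ : Low n Γ)
    (L : List (Fin m × Fin m)) (hL : ∀ u v, (u, v) ∈ L) (s : IState m) (hs : Phase1 n Γ s) :
    (L.foldl (istep n Γ Γ.Adj) s).hist.card ≤ m ∧
    (∀ Y ∈ (L.foldl (istep n Γ Γ.Adj) s).hist, FeasE n Γ Y ∧ ∀ x ∈ Y, x.val < 2 * n) ∧
    MaxOut n Γ (L.foldl (istep n Γ Γ.Adj) s).out := by
  obtain ⟨p1, p2, p3, p4, ⟨μ₀, p5, p6⟩, p7⟩ := hs
  have z1 : zs n s.X = s.X := filter_true_of_mem fun x hx => (p1 x hx).1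
  have z2 : vs n s.X = ∅ := filter_false_of_mem fun x hx => not_lt.2 (p1 x hx).1
  obtain ⟨μ, a1, a2, a3, a4, ⟨ν, f1, f2, f3⟩, a6, -, a8⟩ := fold_Ideal2 hΓ (p6 ▸ p5.even_card) p7 L s
    ⟨fun v => v, (Mt.nil Γ).1, z1, z2.trans (Mt.nil Γ).2.symm, fun u v hu _ => by
      rw [p4 u hu]
      exact ⟨fun e => absurd e (by omega), fun e => absurd e.1.symm e.2⟩,
      ⟨μ₀, p5, disjoint_left.2 fun x hx hx' => not_lt.2 (p1 x hx').1 (p5.low hΓ hx), by
        rw [z1, p6]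
        omega⟩, p2, fun x hx => (p1 x hx).2, p3⟩
  refine ⟨?_, a8, μ, a1, fun μ' h => (p7 μ' h).trans ?_, a4⟩
  · have := card_finset_fin_le (L.foldl (istep n Γ Γ.Adj) s).X
    omega
  by_contra hlt
  rw [a2, a3] at f3
  obtain ⟨u, hu⟩ := card_pos.1 (show 0 < (cov ν).card by omega)
  have hadj := f1.2 u (mem_cov.1 hu)
  have hv := f1.mate_mem hu
  obtain ⟨ν', g1, g2, g3⟩ := f1.remove hu
  have n1 := disjoint_left.1 f2 hu
  have n2 := disjoint_left.1 f2 hv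
  obtain ⟨d1, d2⟩ := vs_zs_union_low n1 n2 hadj.ne (f1.low hΓ hu) (f1.low hΓ hv)
  refine (back_Ideal2 hΓ hadj L s n1 n2 ⟨ν', g1, ?_, ?_⟩).2 (hL _ _)
  · rw [g2]
    exact disjoint_union_right.2 ⟨f2.mono_left sdiff_subset, sdiff_disjoint⟩
  · rw [d1, d2, a2, a3]
    omega

end Vale.Agent.P305
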