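import Vale.Agent.P305.NmL

/-! Schwartz-Zippel. Let `x i = X ⟨i, _⟩` for `i < 2 m m` (else `0`) in
`MvPolynomial (Fin (2 * m * m)) F` and `P = ∏ Y ∈ 𝒳, Dm (Nm n Γ x) Y`. By `Dm_map`, `Nm_map`,
`Nm_congr` with `MvPolynomial.eval`, each factor is nonzero, and `eval y P = 0` iff some
`Dm (Nm n Γ (ext y)) Y = 0`. Entries of `Nm n Γ x` have total degree at most 3, so each `Dm` has
degree at most `3 m` (`Matrix.det_apply`, `totalDegree_finset_sum`, `totalDegree_finset_prod`),
and `P` at most `3 m m`. Use `MvPolynomial.schwartz_zippel_totalDegree`. -/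

namespace Vale.Agent.P305

open Matrix Finset

/-- Extension by zero. -/
def ext {F : Type} [Zero F] {L : ℕ} (y : Fin L → F) : ℕ → F :=
  fun i => if h : i < L then y ⟨i, h⟩ else 0

theorem deg_x_SZ {F : Type} [Field F] {L : ℕ} (i : ℕ) :
    (ext (fun j : Fin L => (MvPolynomial.X j : MvPolynomial (Fin L) F)) i).totalDegree ≤ 1 := by
  unfold ext
  split_ifs
  · exact (MvPolynomial.totalDegree_X _).le
  · simp

theorem deg_mul_SZ {F σ : Type} [Field F] {m : ℕ} (A B : Matrix (Fin m) (Fin m) (MvPolynomial σ F))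
    {d e : ℕ} (hA : ∀ a b, (A a b).totalDegree ≤ d) (hB : ∀ a b, (B a b).totalDegree ≤ e) (a b) :
    ((A * B) a b).totalDegree ≤ d + e := by
  rw [Matrix.mul_apply]
  exact MvPolynomial.totalDegree_finsetSum_le fun c _ =>
    (MvPolynomial.totalDegree_mul _ _).trans (add_le_add (hA _ _) (hB _ _))

theorem deg_Nm_SZ {F σ : Type} [Field F] {m : ℕ} (n : ℕ) (Γ : SimpleGraph (Fin m))
    (x : ℕ → MvPolynomial σ F) (hx : ∀ i, (x i).totalDegree ≤ 1) (a b : Fin m) :
    (Nm n Γ x a b).totalDegree ≤ 3 := by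
  have hW : ∀ a b, (Wm m n x a b).totalDegree ≤ 1 := by
    intro a b
    simp only [Wm, Matrix.of_apply]
    split_ifs
    · exact hx _
    · simp
  have hT : ∀ a b, (Tm Γ x a b).totalDegree ≤ 1 := by
    intro a b
    simp only [Tm, Matrix.of_apply]
    split_ifs
    · exact hx _
    · rw [MvPolynomial.totalDegree_neg]; exact hx _
    · simp
  have hWt : ∀ a b, ((Wm m n x)ᵀ a b).totalDegree ≤ 1 := fun a b => hW b a
  have h1 := deg_mul_SZ _ _ (deg_mul_SZ _ _ hW hT) hWt a b
  have h2 := hW a b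
  have h3 := hWt a b
  rw [Nm, Matrix.sub_apply, Matrix.add_apply]
  refine (MvPolynomial.totalDegree_sub _ _).trans (max_le ?_ (by omega))
  exact (MvPolynomial.totalDegree_add _ _).trans (max_le (by omega) (by omega))

theorem deg_det_SZ {F σ : Type} [Field F] {m : ℕ} (A : Matrix (Fin m) (Fin m) (MvPolynomial σ F))
    {d : ℕ} (hA : ∀ a b, (A a b).totalDegree ≤ d) : A.det.totalDegree ≤ d * m := by
  rw [Matrix.det_apply]
  refine MvPolynomial.totalDegree_finsetSum_le fun s _ => ?_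
  refine (MvPolynomial.totalDegree_smul_le _ _).trans ?_
  refine (MvPolynomial.totalDegree_finsetProd _ _).trans ?_
  refine (Finset.sum_le_sum fun i _ => hA (s i) i).trans ?_
  simp [mul_comm]

theorem deg_Dm_SZ {F σ : Type} [Field F] {m : ℕ} (A : Matrix (Fin m) (Fin m) (MvPolynomial σ F))
    {d : ℕ} (hA : ∀ a b, (A a b).totalDegree ≤ d) (Y : Finset (Fin m)) :
    (Dm A Y).totalDegree ≤ d * m := by
  unfold Dm
  refine deg_det_SZ _ fun a b => ?_
  simp only [Matrix.of_apply]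
  split_ifs
  · exact hA a b
  · simp
  · simp

theorem eval_Dm_SZ {F : Type} [Field F] {m L : ℕ} (n : ℕ) (Γ : SimpleGraph (Fin m))
    (y : Fin L → F) (Y : Finset (Fin m)) :
    MvPolynomial.eval y
      (Dm (Nm n Γ (ext fun j : Fin L => (MvPolynomial.X j : MvPolynomial (Fin L) F))) Y) =
      Dm (Nm n Γ (ext y)) Y := by
  rw [Dm_map, Nm_map]
  have : (fun i => MvPolynomial.eval y
      (ext (fun j : Fin L => (MvPolynomial.X j : MvPolynomial (Fin L) F)) i)) = ext y := by
    funext i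
    unfold ext
    split_ifs
    · exact MvPolynomial.eval_X _
    · exact map_zero _
  rw [this]

open Classical in
theorem sz_count {F : Type} [Field F] {m : ℕ} (n : ℕ) (Γ : SimpleGraph (Fin m))
    (𝒳 : Finset (Finset (Fin m))) (hcard : 𝒳.card ≤ m)
    (hw : ∀ Y ∈ 𝒳, ∃ r : ℕ → F, Dm (Nm n Γ r) Y ≠ 0) (S : Finset F) (hS : 6 * m * m < S.card) :
    2 * ((Fintype.piFinset fun _ : Fin (2 * m * m) => S).filter
      fun y => ¬ ∀ Y ∈ 𝒳, Dm (Nm n Γ (ext y)) Y ≠ 0).card ≤ S.card ^ (2 * m * m) := by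
  set x : ℕ → MvPolynomial (Fin (2 * m * m)) F := ext fun j => MvPolynomial.X j with hx
  set P : MvPolynomial (Fin (2 * m * m)) F := ∏ Y ∈ 𝒳, Dm (Nm n Γ x) Y with hP
  have hP0 : P ≠ 0 := by
    rw [hP, Finset.prod_ne_zero_iff]
    intro Y hY h0
    obtain ⟨r, hr⟩ := hw Y hY
    apply hr
    have h1 := eval_Dm_SZ n Γ (fun j : Fin (2 * m * m) => r j) Y
    rw [← hx, h0, map_zero] at h1
    rw [Nm_congr n Γ (r' := ext fun j : Fin (2 * m * m) => r j) fun i hi => by simp [ext, hi]]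
    exact h1.symm
  have hdeg : P.totalDegree ≤ 3 * m * m := by
    refine (MvPolynomial.totalDegree_finsetProd _ _).trans ?_
    refine (Finset.sum_le_sum fun Y _ =>
      deg_Dm_SZ _ (deg_Nm_SZ n Γ x fun i => deg_x_SZ i) Y).trans ?_
    rw [Finset.sum_const, smul_eq_mul, mul_comm]
    exact Nat.mul_le_mul_left _ hcard
  have hf : ((Fintype.piFinset fun _ : Fin (2 * m * m) => S).filter
      fun y => ¬ ∀ Y ∈ 𝒳, Dm (Nm n Γ (ext y)) Y ≠ 0) =
      (Fintype.piFinset fun _ : Fin (2 * m * m) => S).filter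
        fun y => MvPolynomial.eval y P = 0 := by
    refine Finset.filter_congr fun y _ => ?_
    rw [hP, map_prod, Finset.prod_eq_zero_iff]
    simp only [hx, eval_Dm_SZ, ne_eq, not_forall, not_not, exists_prop]
  rw [hf]
  have hsz := MvPolynomial.schwartz_zippel_totalDegree hP0 S
  have hS0 : 0 < S.card := by omega
  have hq : (0 : ℚ≥0) < S.card := by exact_mod_cast hS0
  rw [div_le_div_iff₀ (pow_pos hq _) hq] at hsz
  have h2 : ((Fintype.piFinset fun _ : Fin (2 * m * m) => S).filter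
      fun y => MvPolynomial.eval y P = 0).card * S.card ≤
        P.totalDegree * S.card ^ (2 * m * m) := by exact_mod_cast hsz
  have h3 : 2 * P.totalDegree ≤ S.card := by
    have : 6 * m * m = 2 * (3 * m * m) := by ring
    omega
  apply Nat.le_of_mul_le_mul_right _ hS0
  calc _ = 2 * (_ * S.card) := mul_assoc _ _ _
    _ ≤ 2 * (P.totalDegree * S.card ^ (2 * m * m)) := Nat.mul_le_mul_left _ h2
    _ = (2 * P.totalDegree) * S.card ^ (2 * m * m) := by ring
    _ ≤ S.card * S.card ^ (2 * m * m) := Nat.mul_le_mul_right _ h3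
    _ = _ := mul_comm _ _

end Vale.Agent.P305
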