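import Vale.Agent.P305.Pure

/-! From random bits to random field elements. The map sending `ρ` to
`fun i => (bitsVal (tape ρ) (i * k) k : ZMod p)` is injective (the cast is injective below `p`,
`bitsVal` determines its `k` bits, every index `< L * k` is `i * k + j`) with values in the
`piFinset`; so bad tapes are at most half of all `2 ^ (L * k)` tapes. -/

namespace Vale.Agent.P305

open Finset

theorem bitsVal_lt (ρ : ℕ → Bool) (s k : ℕ) : bitsVal ρ s k < 2 ^ k := by
  induction k with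
  | zero => simp [bitsVal]
  | succ k ih =>
    rw [bitsVal, pow_succ]
    split_ifs <;> omega

theorem bits_inj_Tape {ρ ρ' : ℕ → Bool} {s k : ℕ} (h : bitsVal ρ s k = bitsVal ρ' s k) :
    ∀ j < k, ρ (s + j) = ρ' (s + j) := by
  induction k with
  | zero => exact fun j hj => absurd hj (Nat.not_lt_zero j)
  | succ k ih =>
    rw [bitsVal, bitsVal] at h
    have h1 : bitsVal ρ s k = bitsVal ρ' s k ∧ ρ (s + k) = ρ' (s + k) := by
      cases h1 : ρ (s + k) <;> cases h2 : ρ' (s + k) <;> simp [h1, h2] at h ⊢ <;> omega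
    intro j hj
    rcases (Nat.lt_succ_iff.1 hj).eq_or_lt with rfl | hj'
    exacts [h1.2, ih h1.1 j hj']

theorem cast_inj_Tape {p a b : ℕ} (ha : a < p) (hb : b < p) (h : (a : ZMod p) = b) : a = b := by
  have := (ZMod.natCast_eq_natCast_iff' a b p).1 h
  rwa [Nat.mod_eq_of_lt ha, Nat.mod_eq_of_lt hb] at this

theorem card_image_cast (p q : ℕ) (hq : q ≤ p) :
    ((range q).image (Nat.cast : ℕ → ZMod p)).card = q := by
  rw [card_image_of_injOn fun a ha b hb h => cast_inj_Tape
    ((mem_range.1 (mem_coe.1 ha)).trans_le hq) ((mem_range.1 (mem_coe.1 hb)).trans_le hq) h,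
    card_range]

open Classical in
theorem tape_count (p L k : ℕ) (hk : 2 ^ k ≤ p) (Q : (Fin L → ZMod p) → Prop)
    (h : 2 * ((Fintype.piFinset fun _ : Fin L => (range (2 ^ k)).image (Nat.cast : ℕ → ZMod p)).filter
      fun y => ¬ Q y).card ≤ (2 ^ k) ^ L) :
    2 ^ (L * k) ≤ 2 * {ρ : Fin (L * k) → Bool |
      Q fun i => ((bitsVal (tape ρ) (i.val * k) k : ℕ) : ZMod p)}.ncard := by
  set φ : (Fin (L * k) → Bool) → Fin L → ZMod p :=
    fun ρ i => ((bitsVal (tape ρ) (i.val * k) k : ℕ) : ZMod p) with hφ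
  have h1 : Function.Injective φ := by
    intro ρ ρ' hρ
    funext x
    have k0 : 0 < k := Nat.pos_of_ne_zero fun h0 => by
      have := x.2
      simp [h0] at this
    have hx : x.val / k < L := Nat.div_lt_of_lt_mul (Nat.mul_comm L k ▸ x.2)
    have e1 := bits_inj_Tape (cast_inj_Tape ((bitsVal_lt _ _ _).trans_le hk)
      ((bitsVal_lt _ _ _).trans_le hk) (congrFun hρ ⟨_, hx⟩)) _ (Nat.mod_lt x.val k0)
    simp only [Nat.div_add_mod'] at e1
    simpa [tape] using e1
  have h2 : (univ.filter fun ρ => ¬ Q (φ ρ)).card ≤ _ :=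
    card_le_card_of_injOn (t := (Fintype.piFinset fun _ : Fin L =>
      (range (2 ^ k)).image (Nat.cast : ℕ → ZMod p)).filter fun y => ¬ Q y) φ (fun ρ hρ => by
        rw [mem_coe, mem_filter] at hρ ⊢
        exact ⟨Fintype.mem_piFinset.2 fun i =>
          mem_image_of_mem _ (mem_range.2 (bitsVal_lt _ _ _)), hρ.2⟩) h1.injOn
  have h3 := card_filter_add_card_filter_not (s := univ) fun ρ => Q (φ ρ)
  have h4 : {ρ | Q (φ ρ)}.ncard = (univ.filter fun ρ => Q (φ ρ)).card := by
    rw [← Set.ncard_coe_finset]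
    simp
  rw [card_univ, Fintype.card_fun, Fintype.card_bool, Fintype.card_fin] at h3
  rw [← pow_mul, Nat.mul_comm k L] at h
  change _ ≤ 2 * {ρ | Q (φ ρ)}.ncard
  omega

end Vale.Agent.P305
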