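import Vale.Agent.P305.MtL

/-! A witness. Take a bijection `τ` from `zs n X` onto `cov μ ∪ vs n X` (equal sizes, the union is
disjoint). Put `r (u * m + v) = 1` iff `μ u = v ≠ u`, and `r (m * m + z * m + v) = 1` iff
`z ∈ zs n X` and `τ z = v`; zero otherwise (decode `i` by `i / m`, `i % m`). Show that the matrix
inside `Dm` has trivial kernel (`Matrix.exists_mulVec_eq_zero_iff`): if it kills `x`, then `x` is
zero outside `X`; row `v ∈ vs n X` gives `x (τ⁻¹ v) = 0`; row `z` with `τ z ∈ vs n X` gives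
`x (τ z) = 0` (row `τ z` of `Tm` is zero); row `z` with `τ z ∈ cov μ` gives
`x (τ⁻¹ (μ (τ z))) = 0`. -/

namespace Vale.Agent.P305

open Matrix Finset

theorem dec_Wit {m : ℕ} {u v u' v' : Fin m} (h : u.val * m + v.val = u'.val * m + v'.val) :
    u = u' ∧ v = v' := by
  have h1 : v.val = v'.val := by
    have := congrArg (· % m) h
    simpa [Nat.mul_add_mod_of_lt, Nat.mod_eq_of_lt v.2, Nat.mod_eq_of_lt v'.2] using this
  rw [h1] at h
  exact ⟨Fin.ext (Nat.eq_of_mul_eq_mul_right u.pos (Nat.add_right_cancel h)), Fin.ext h1⟩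

theorem lt_Wit {m : ℕ} (u v : Fin m) : u.val * m + v.val < m * m := by
  have h1 : (u.val + 1) * m ≤ m * m := Nat.mul_le_mul_right m u.2
  have := v.2
  rw [add_mul, one_mul] at h1
  omega

theorem ker_Wit {F : Type} [Field F] {m : ℕ} {T W : Matrix (Fin m) (Fin m) F}
    {X V Z : Finset (Fin m)} {μ τ : Fin m → Fin m} (hμ : ∀ v, μ (μ v) = v)
    (hT : ∀ u v, T u v ≠ 0 ↔ μ u = v ∧ v ≠ u)
    (hW : ∀ z v, W z v = if z ∈ Z ∧ τ z = v then 1 else 0)
    (hτ : Set.BijOn τ Z (cov μ ∪ V : Finset (Fin m))) (hd : Disjoint (cov μ) X)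
    (hX : ∀ a, a ∈ X ↔ a ∈ V ∨ a ∈ Z) (hVZ : ∀ a ∈ V, a ∉ Z) :
    Dm (W * T * Wᵀ + W - Wᵀ) X ≠ 0 := by
  classical
  intro h0
  obtain ⟨x, hx, h1⟩ := Matrix.exists_mulVec_eq_zero_iff.2 h0
  have h2 : ∀ a, a ∉ X → x a = 0 := fun a ha => by
    have := congrFun h1 a
    simpa [mulVec, dotProduct, ha] using this
  have h3 : ∀ a ∈ X, ((W * T * Wᵀ + W - Wᵀ) *ᵥ x) a = 0 := fun a ha => by
    refine Eq.trans ?_ (congrFun h1 a)
    rw [mulVec, mulVec, dotProduct, dotProduct]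
    refine Finset.sum_congr rfl fun b _ => ?_
    by_cases hb : b ∈ X
    · simp [ha, hb]
    · simp [h2 b hb]
  have w1 : ∀ (y : Fin m → F) z, (W *ᵥ y) z = if z ∈ Z then y (τ z) else 0 := fun y z => by
    by_cases hz : z ∈ Z <;> simp [mulVec, dotProduct, hW, hz]
  have w2 : ∀ z ∈ Z, (Wᵀ *ᵥ x) (τ z) = x z := fun z hz => by
    rw [mulVec, dotProduct, Finset.sum_eq_single z (fun b _ hb => ?_) (by simp)]
    · simp [hW, hz]
    · rw [transpose_apply, hW, if_neg fun h => hb (hτ.injOn h.1 hz h.2), zero_mul]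
  have w3 : ∀ z ∈ Z, (Wᵀ *ᵥ x) z = 0 := fun z hz => by
    rw [mulVec, dotProduct]
    refine Finset.sum_eq_zero fun b _ => ?_
    rw [transpose_apply, hW, if_neg, zero_mul]
    rintro ⟨hb, e⟩
    rcases mem_union.1 (mem_coe.1 (hτ.mapsTo hb)) with h | h
    · exact disjoint_left.1 hd (e ▸ h) ((hX z).2 (Or.inr hz))
    · exact hVZ z (e ▸ h) hz
  have t1 : ∀ (y : Fin m → F) u, (T *ᵥ y) u = T u (μ u) * y (μ u) := fun y u => by
    rw [mulVec, dotProduct]
    refine Finset.sum_eq_single (μ u) (fun b _ hb => ?_) (by simp)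
    rw [not_not.1 fun h => hb ((hT u b).1 h).1.symm, zero_mul]
  have h4 : ∀ a ∈ X, (if a ∈ Z then T (τ a) (μ (τ a)) * (Wᵀ *ᵥ x) (μ (τ a)) + x (τ a) else 0) =
      (Wᵀ *ᵥ x) a := fun a ha => by
    have := h3 a ha
    rw [sub_mulVec, add_mulVec, ← mulVec_mulVec, ← mulVec_mulVec, Pi.sub_apply, Pi.add_apply,
      w1, w1, t1, sub_eq_zero] at this
    rw [← this]
    split_ifs <;> simp
  have h5 : ∀ u ∈ cov μ ∪ V, T u (μ u) * (Wᵀ *ᵥ x) (μ u) + x u = 0 := fun u hu => by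
    obtain ⟨z, hz, rfl⟩ := hτ.surjOn (mem_coe.2 hu)
    have := h4 z ((hX z).2 (Or.inr hz))
    rwa [if_pos (mem_coe.1 hz), w3 z hz] at this
  have h6 : ∀ u ∈ cov μ ∪ V, (Wᵀ *ᵥ x) u = 0 := fun u hu => by
    rcases mem_union.1 hu with h | h
    · have h7 : μ (μ u) ≠ μ u := by rw [hμ]; exact (mem_cov.1 h).symm
      have h8 := h5 (μ u) (mem_union_left _ (mem_cov.2 h7))
      rw [h2 _ (disjoint_left.1 hd (mem_cov.2 h7)), add_zero] at h8
      have h9 := (mul_eq_zero.1 h8).resolve_left ((hT _ _).2 ⟨rfl, h7⟩)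
      rwa [hμ] at h9
    · have := h4 u ((hX u).2 (Or.inl h))
      rw [if_neg (hVZ u h)] at this
      exact this.symm
  refine hx (funext fun a => ?_)
  by_cases ha : a ∈ X
  · rcases (hX a).1 ha with h | h
    · have h7 := h5 a (mem_union_right _ h)
      have h8 : T a (μ a) = 0 := not_not.1 fun e =>
        disjoint_left.1 hd (mem_cov.2 ((hT _ _).1 e).2) ha
      rwa [h8, zero_mul, zero_add] at h7
    · rw [← w2 a h]
      exact h6 _ (mem_coe.1 (hτ.mapsTo h))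
  · exact h2 a ha

theorem exists_witness {F : Type} [Field F] {m n : ℕ} {Γ : SimpleGraph (Fin m)} (hΓ : Low n Γ)
    {X : Finset (Fin m)} (hX : ∀ x ∈ X, x.val < 2 * n) (h : FeasE n Γ X) :
    ∃ r : ℕ → F, Dm (Nm n Γ r) X ≠ 0 := by
  classical
  obtain ⟨μ, hμ, hd, hc⟩ := h
  have hd' : Disjoint (cov μ) (vs n X) := hd.mono_right (filter_subset _ _)
  rw [← card_union_of_disjoint hd'] at hc
  obtain ⟨τ, hτ⟩ : ∃ τ : Fin m → Fin m,
      Set.BijOn τ (zs n X) (cov μ ∪ vs n X : Finset (Fin m)) := by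
    let e := Finset.equivOfCardEq hc
    refine ⟨fun z => if h : z ∈ zs n X then (e ⟨z, h⟩).1 else z, fun z hz => ?_,
      fun z hz z' hz' he => ?_, fun v hv => ?_⟩
    · simp only [dif_pos (mem_coe.1 hz)]
      exact (e _).2
    · simp only [dif_pos (mem_coe.1 hz), dif_pos (mem_coe.1 hz')] at he
      exact congrArg Subtype.val (e.injective (Subtype.ext he))
    · refine ⟨(e.symm ⟨v, hv⟩).1, (e.symm ⟨v, hv⟩).2, ?_⟩
      simp only [dif_pos (e.symm ⟨v, hv⟩).2, Subtype.coe_eta, Equiv.apply_symm_apply]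
  obtain ⟨r, r1, r2⟩ : ∃ r : ℕ → F,
      (∀ u v : Fin m, r (u.val * m + v.val) = if μ u = v ∧ v ≠ u then 1 else 0) ∧
      ∀ z v : Fin m, r (m * m + z.val * m + v.val) = if z ∈ zs n X ∧ τ z = v then 1 else 0 := by
    refine ⟨fun i => if (∃ u v : Fin m, i = u.val * m + v.val ∧ μ u = v ∧ v ≠ u) ∨
      ∃ z v : Fin m, i = m * m + z.val * m + v.val ∧ z ∈ zs n X ∧ τ z = v then 1 else 0,
      fun u v => if_congr ⟨?_, fun h => Or.inl ⟨u, v, rfl, h⟩⟩ rfl rfl,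
      fun z v => if_congr ⟨?_, fun h => Or.inr ⟨z, v, rfl, h⟩⟩ rfl rfl⟩
    · rintro (⟨u', v', e, h⟩ | ⟨z, v', e, -⟩)
      · obtain ⟨rfl, rfl⟩ := dec_Wit e
        exact h
      · have := lt_Wit u v
        omega
    · rintro (⟨u', v', e, -⟩ | ⟨z', v', e, h⟩)
      · have := lt_Wit u' v'
        omega
      · obtain ⟨rfl, rfl⟩ := dec_Wit (u := z) (v := v) (u' := z') (v' := v') (by omega)
        exact h
  refine ⟨r, ker_Wit (V := vs n X) hμ.1 (fun u v => ?_) (fun z v => ?_) hτ hd (fun a => ?_)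
    fun a ha ha' => ?_⟩
  · have e : μ v = u ∧ u ≠ v ↔ μ u = v ∧ v ≠ u :=
      ⟨fun h => ⟨by rw [← h.1, hμ.1], h.2.symm⟩, fun h => ⟨by rw [← h.1, hμ.1], h.2.symm⟩⟩
    rw [Tm, of_apply, r1, r1]
    by_cases h1 : μ u = v ∧ v ≠ u
    · have h2 : Γ.Adj u v := h1.1 ▸ hμ.2 u (h1.1 ▸ h1.2)
      rw [if_pos h2, if_pos h1, if_pos (e.2 h1)]
      refine ⟨fun _ => h1, fun _ => ?_⟩
      split_ifs <;> simp
    · rw [if_neg h1, if_neg (mt e.1 h1)]
      refine ⟨fun h => absurd ?_ h, fun h => absurd h h1⟩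
      split_ifs <;> simp
  · rw [Wm, of_apply, r2]
    by_cases h1 : z ∈ zs n X ∧ τ z = v
    · have h2 := mem_filter.1 h1.1
      have h3 : v.val < n := by
        rcases mem_union.1 (mem_coe.1 (hτ.mapsTo h1.1)) with h | h
        · exact h1.2 ▸ hμ.low hΓ h
        · exact h1.2 ▸ (mem_filter.1 h).2
      rw [if_pos ⟨h2.2, hX z h2.1, h3⟩]
    · rw [if_neg h1, ite_self]
  · simp only [vs, zs, mem_filter]
    have := lt_or_ge a.val n
    tauto
  · exact absurd (mem_filter.1 ha).2 (not_lt.2 (mem_filter.1 ha').2)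

end Vale.Agent.P305
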