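import Vale.Agent.P305.Sim
import Vale.Agent.P305.Wit
import Vale.Agent.P305.Ideal2
import Vale.Agent.P305.SZ
import Vale.Agent.P305.Tape

/-! At least half of the tapes give a maximum matching. Put `𝒳 = (ifinal n Γ L).hist`;
`phase1`, `phase2`, `exists_witness` give the hypotheses of `sz_count` with
`S = (range (2^k)).image cast` (`card_image_cast`); `tape_count` with
`Q y := ∀ Y ∈ 𝒳, Dm (Nm n Γ (ext y)) Y ≠ 0`; for a good tape `Nm_congr`, `sim`, `phase2` give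
`MaxOut`; `Set.ncard_le_ncard`. Nonvanishing of casts: `ZMod.natCast_eq_zero_iff`. -/

namespace Vale.Agent.P305

open Finset

theorem cast_Good {p c : ℕ} (h0 : 0 < c) (h : c < p) : (c : ZMod p) ≠ 0 := fun e =>
  absurd (Nat.le_of_dvd h0 ((ZMod.natCast_eq_zero_iff c p).1 e)) (not_le.2 h)

theorem good_count {m n k p : ℕ} [Fact p.Prime] {Γ : SimpleGraph (Fin m)} (hΓ : Low n Γ)
    (hm : 2 * n ≤ m) (hk : 6 * m * m + 3 ≤ 2 ^ k) (hp : 2 ^ k < p)
    (L : List (Fin m × Fin m)) (hL : ∀ u v, (u, v) ∈ L) :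
    2 ^ (2 * m * m * k) ≤ 2 * {ρ : Fin (2 * m * m * k) → Bool |
      MaxOut n Γ (nfinal n Γ
        (Nm n Γ fun i => ((bitsVal (tape ρ) (i * k) k : ℕ) : ZMod p)) L).2}.ncard := by
  obtain ⟨a1, a2, a3⟩ := phase2 hΓ L hL _ (phase1 hΓ hm L hL)
  have h2 : (2 : ZMod p) ≠ 0 := by
    have := cast_Good (p := p) two_pos (by omega)
    exact_mod_cast this
  have hmm : m ≤ 6 * m * m := (Nat.le_mul_self m).trans (by rw [mul_assoc]; omega)
  have hc : ∀ c : ℕ, 0 < c → c ≤ m → (c : ZMod p) ≠ 0 := fun c h0 h => cast_Good h0 (by omega)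
  have hS := card_image_cast p (2 ^ k) hp.le
  have h3 := sz_count (F := ZMod p) n Γ (ifinal n Γ L).hist a1
    (fun Y hY => exists_witness hΓ (a2 Y hY).2 (a2 Y hY).1)
    ((range (2 ^ k)).image (Nat.cast : ℕ → ZMod p)) (by rw [hS]; omega)
  rw [hS] at h3
  have h4 := tape_count p (2 * m * m) k hp.le
    (fun y => ∀ Y ∈ (ifinal n Γ L).hist, Dm (Nm n Γ (ext y)) Y ≠ 0)
    (le_trans (Nat.mul_le_mul_left 2 (card_le_card fun y hy => by
      simpa only [mem_filter] using hy)) h3)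
  refine h4.trans (Nat.mul_le_mul_left 2 (Set.ncard_le_ncard (fun ρ hρ => ?_) (Set.toFinite _)))
  have e : (Nm n Γ fun i => ((bitsVal (tape ρ) (i * k) k : ℕ) : ZMod p)) =
      Nm n Γ (ext fun i : Fin (2 * m * m) => ((bitsVal (tape ρ) (i.val * k) k : ℕ) : ZMod p)) :=
    Nm_congr n Γ fun i hi => by simp [ext, hi]
  rw [Set.mem_ofPred_eq, e, sim hΓ h2 hc L hρ]
  exact a3

end Vale.Agent.P305
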