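import Vale.Agent.P305.MtL

/-! Phase 1 of the ideal process. Invariant along the fold: `X` consists of high indices
(`n ≤ x < 2n`), `|X|` is even, `2 |hist| ≤ |X|`, `Feas n Γ X`, every set of `hist` is `FeasE`
(use `Mt.shrink`; `vs` is empty) and lies below `2n`, `out u = 0` for `u < n`. At the end
`|X| = |cov μ₀|` for a maximum `μ₀`: `≤` by `Feas`; if `<`, then `|X| + 2 ≤ |cov μ₀| ≤ n`, so two
indices `z ≠ z'` of `[n, 2n)` are outside the final `X`; by induction on the list (with `X`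
increasing along the fold), when `(z, z')` was tested the condition held, so it was taken. -/

namespace Vale.Agent.P305

open Finset

/-- What phase 1 delivers. -/
def Phase1 {m : ℕ} (n : ℕ) (Γ : SimpleGraph (Fin m)) (s : IState m) : Prop :=
  (∀ x ∈ s.X, n ≤ x.val ∧ x.val < 2 * n) ∧ 2 * s.hist.card ≤ s.X.card ∧
  (∀ Y ∈ s.hist, FeasE n Γ Y ∧ ∀ x ∈ Y, x.val < 2 * n) ∧ (∀ u < n, s.out u = 0) ∧
  (∃ μ, Mt Γ μ ∧ (cov μ).card = s.X.card) ∧ ∀ μ, Mt Γ μ → (cov μ).card ≤ s.X.card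

section

variable {m n : ℕ} {Γ : SimpleGraph (Fin m)}

theorem high_Ideal1 (hΓ : Low n Γ) {X : Finset (Fin m)} (hX : ∀ x ∈ X, n ≤ x.val)
    {μ : Fin m → Fin m} (hμ : Mt Γ μ) : Disjoint (cov μ) X ∧ zs n X = X ∧ vs n X = ∅ := by
  refine ⟨disjoint_left.2 fun x hx hx' => ?_, filter_true_of_mem hX,
    filter_false_of_mem fun x hx => not_lt.2 (hX x hx)⟩
  exact absurd (hμ.low hΓ hx) (not_lt.2 (hX x hx'))

theorem feas_Ideal1 (hΓ : Low n Γ) {X : Finset (Fin m)} (hX : ∀ x ∈ X, n ≤ x.val) :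
    Feas n Γ X ↔ ∃ μ, Mt Γ μ ∧ X.card ≤ (cov μ).card := by
  constructor
  · rintro ⟨μ, hμ, -, h⟩
    obtain ⟨-, h2, h3⟩ := high_Ideal1 hΓ hX hμ
    rw [h2, h3, card_empty, add_zero] at h
    exact ⟨μ, hμ, h⟩
  · rintro ⟨μ, hμ, h⟩
    obtain ⟨h1, h2, h3⟩ := high_Ideal1 hΓ hX hμ
    exact ⟨μ, hμ, h1, by rw [h2, h3, card_empty, add_zero]; exact h⟩

/-- The invariant. -/
def Iv_Ideal1 (n : ℕ) (Γ : SimpleGraph (Fin m)) (s : IState m) : Prop :=
  (∀ x ∈ s.X, n ≤ x.val ∧ x.val < 2 * n) ∧ 2 * s.hist.card ≤ s.X.card ∧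
  (∀ Y ∈ s.hist, FeasE n Γ Y ∧ ∀ x ∈ Y, x.val < 2 * n) ∧ (∀ u < n, s.out u = 0) ∧
  (∃ μ, Mt Γ μ ∧ (cov μ).card = s.X.card)

theorem sub_Ideal1 (H : Fin m → Fin m → Prop) (s : IState m) (e : Fin m × Fin m) :
    s.X ⊆ (istep n Γ H s e).X := by
  unfold istep
  split_ifs
  · exact subset_union_left
  · exact Subset.rfl

theorem fold_sub_Ideal1 (H : Fin m → Fin m → Prop) (L : List (Fin m × Fin m)) (s : IState m) :
    s.X ⊆ (L.foldl (istep n Γ H) s).X := by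
  induction L generalizing s with
  | nil => exact Subset.rfl
  | cons e L ih => exact (sub_Ideal1 H s e).trans (ih _)

theorem step_Ideal1 (hΓ : Low n Γ) {s : IState m} (h : Iv_Ideal1 n Γ s) (e : Fin m × Fin m) :
    Iv_Ideal1 n Γ (istep n Γ (HZ m n) s e) := by
  unfold istep
  split_ifs with hc
  swap
  · exact h
  obtain ⟨⟨a1, a2, a3, a4⟩, b1, b2, b3, b4⟩ := hc
  obtain ⟨h1, h2, h3, h4, μ₀, h5, h6⟩ := h
  have hX : ∀ x ∈ s.X ∪ {e.1, e.2}, n ≤ x.val ∧ x.val < 2 * n := by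
    intro x hx
    rcases mem_union.1 hx with hx | hx
    · exact h1 x hx
    · rcases mem_insert.1 hx with rfl | hx
      · exact ⟨a1, a2⟩
      · rw [mem_singleton.1 hx]
        exact ⟨a3, a4⟩
  have hc : (s.X ∪ {e.1, e.2}).card = s.X.card + 2 := by
    rw [card_union_of_disjoint, card_pair b3]
    exact disjoint_insert_right.2 ⟨b1, disjoint_singleton_right.2 b2⟩
  obtain ⟨μ, hμ, h7⟩ := (feas_Ideal1 hΓ fun x hx => (hX x hx).1).1 b4
  obtain ⟨k, hk⟩ := h5.even_card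
  obtain ⟨μ', hμ', -, h8⟩ := hμ.shrink (k + 1) (by omega)
  have h9 : (cov μ').card = (s.X ∪ {e.1, e.2}).card := by omega
  refine ⟨hX, ?_, ?_, fun u hu => ?_, μ', hμ', h9⟩
  · have := card_insert_le (s.X ∪ {e.1, e.2}) s.hist
    change 2 * (insert (s.X ∪ {e.1, e.2}) s.hist).card ≤ (s.X ∪ {e.1, e.2}).card
    omega
  · intro Y hY
    rcases mem_insert.1 hY with rfl | hY
    · obtain ⟨c1, c2, c3⟩ := high_Ideal1 hΓ (fun x hx => (hX x hx).1) hμ'
      exact ⟨⟨μ', hμ', c1, by rw [c2, c3, card_empty, add_zero, h9]⟩, fun x hx => (hX x hx).2⟩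
    · exact h3 Y hY
  · change mark s.out e.1 e.2 u = 0
    unfold mark
    rw [Function.update_of_ne (by omega), Function.update_of_ne (by omega)]
    exact h4 u hu

theorem fold_Ideal1 (hΓ : Low n Γ) (L : List (Fin m × Fin m)) {s : IState m}
    (h : Iv_Ideal1 n Γ s) : Iv_Ideal1 n Γ (L.foldl (istep n Γ (HZ m n)) s) := by
  induction L generalizing s with
  | nil => exact h
  | cons e L ih => exact ih (step_Ideal1 hΓ h e)

theorem max_Ideal1 (hΓ : Low n Γ) {z z' : Fin m} (hz : HZ m n z z') (hne : z ≠ z')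
    {μ : Fin m → Fin m} (hμ : Mt Γ μ) (L : List (Fin m × Fin m)) (hL : (z, z') ∈ L) {s : IState m}
    (h : Iv_Ideal1 n Γ s) (h1 : z ∉ (L.foldl (istep n Γ (HZ m n)) s).X)
    (h2 : z' ∉ (L.foldl (istep n Γ (HZ m n)) s).X)
    (h3 : (L.foldl (istep n Γ (HZ m n)) s).X.card + 2 ≤ (cov μ).card) : False := by
  induction L generalizing s with
  | nil => exact absurd hL List.not_mem_nil
  | cons e L ih =>
    rcases List.mem_cons.1 hL with rfl | hL'
    swap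
    · exact ih hL' (step_Ideal1 hΓ h e) h1 h2 h3
    have h4 := fold_sub_Ideal1 (n := n) (Γ := Γ) (HZ m n) ((z, z') :: L) s
    have h5 : Feas n Γ (s.X ∪ {z, z'}) := by
      refine (feas_Ideal1 hΓ fun x hx => ?_).2 ⟨μ, hμ, ?_⟩
      · rcases mem_union.1 hx with hx | hx
        · exact (h.1 x hx).1
        · rcases mem_insert.1 hx with rfl | hx
          · exact hz.1
          · rw [mem_singleton.1 hx]
            exact hz.2.2.1
      · have h6 := card_union_le s.X {z, z'}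
        have h7 := card_le_card h4
        rw [card_pair hne] at h6
        omega
    refine h1 (fold_sub_Ideal1 (HZ m n) L _ ?_)
    unfold istep
    rw [if_pos ⟨hz, fun hx => h1 (h4 hx), fun hx => h2 (h4 hx), hne, h5⟩]
    exact mem_union_right _ (mem_insert_self _ _)

theorem card_Ideal1 (hm : 2 * n ≤ m) :
    n ≤ (univ.filter fun x : Fin m => n ≤ x.val ∧ x.val < 2 * n).card := by
  have h1 : Ico n (2 * n) ⊆ (univ.filter fun x : Fin m => n ≤ x.val ∧ x.val < 2 * n).image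
      Fin.val := by
    intro x hx
    have h2 := mem_Ico.1 hx
    exact mem_image.2 ⟨⟨x, by omega⟩, mem_filter.2 ⟨mem_univ _, h2⟩, rfl⟩
  have h2 := (card_le_card h1).trans card_image_le
  rw [Nat.card_Ico] at h2
  omega

end

theorem phase1 {m n : ℕ} {Γ : SimpleGraph (Fin m)} (hΓ : Low n Γ) (hm : 2 * n ≤ m)
    (L : List (Fin m × Fin m)) (hL : ∀ u v, (u, v) ∈ L) :
    Phase1 n Γ (L.foldl (istep n Γ (HZ m n)) ⟨∅, ∅, fun _ => 0⟩) := by
  have h0 : Iv_Ideal1 n Γ ⟨∅, ∅, fun _ => 0⟩ :=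
    ⟨fun x hx => absurd hx (notMem_empty x), le_rfl, fun x hx => absurd hx (notMem_empty x),
      fun _ _ => rfl, _, (Mt.nil Γ).1, by rw [(Mt.nil Γ).2]⟩
  obtain ⟨h1, h2, h3, h4, μ₀, h5, h6⟩ := fold_Ideal1 hΓ L h0
  refine ⟨h1, h2, h3, h4, ⟨μ₀, h5, h6⟩, fun μ hμ => ?_⟩
  by_contra hlt
  obtain ⟨k, hk⟩ := h5.even_card
  obtain ⟨k', hk'⟩ := hμ.even_card
  have h7 := hμ.card_le hΓ
  have h8 := card_Ideal1 hm
  have h9 := le_card_sdiff (L.foldl (istep n Γ (HZ m n)) ⟨∅, ∅, fun _ => 0⟩).X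
    (univ.filter fun x : Fin m => n ≤ x.val ∧ x.val < 2 * n)
  obtain ⟨z, hz, z', hz', hne⟩ := one_lt_card.1 (lt_of_lt_of_le (by omega) h9)
  have a1 := mem_sdiff.1 hz
  have a2 := mem_sdiff.1 hz'
  have a3 := (mem_filter.1 a1.1).2
  have a4 := (mem_filter.1 a2.1).2
  exact max_Ideal1 hΓ ⟨a3.1, a3.2, a4.1, a4.2⟩ hne hμ L (hL z z') h0 a1.2 a2.2 (by omega)

end Vale.Agent.P305
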