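import Vale.Agent.P305.Defs

/-! Working semantics `Run` (only written values are checked against the bound `M`),
total-correctness predicate `Ok`, syntactic read and write sets, loop combinators. -/

namespace Vale.Agent.P305

def State.setReg (σ : State) (r v : ℕ) : State := { σ with reg := Function.update σ.reg r v }

def State.setArr (σ : State) (a i v : ℕ) : State :=
  { σ with arr := Function.update σ.arr a (Function.update (σ.arr a) i v) }

@[simp] theorem setReg_reg (σ : State) (r v r' : ℕ) :
    (σ.setReg r v).reg r' = if r' = r then v else σ.reg r' := by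
  simp [State.setReg, Function.update_apply]
@[simp] theorem setReg_arr (σ : State) (r v : ℕ) : (σ.setReg r v).arr = σ.arr := rfl
@[simp] theorem setReg_coins (σ : State) (r v : ℕ) : (σ.setReg r v).coins = σ.coins := rfl
@[simp] theorem setArr_reg (σ : State) (a i v : ℕ) : (σ.setArr a i v).reg = σ.reg := rfl
@[simp] theorem setArr_coins (σ : State) (a i v : ℕ) : (σ.setArr a i v).coins = σ.coins := rfl
theorem setArr_arr (σ : State) (a i v a' : ℕ) :
    (σ.setArr a i v).arr a' = if a' = a then Function.update (σ.arr a) i v else σ.arr a' := by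
  simp [State.setArr, Function.update_apply]
@[simp] theorem setArr_arr_apply (σ : State) (a i v a' i' : ℕ) :
    (σ.setArr a i v).arr a' i' = if a' = a ∧ i' = i then v else σ.arr a' i' := by
  rw [setArr_arr]
  by_cases h : a' = a
  · subst h; simp [Function.update_apply]
  · simp [h]

inductive Run (M : ℕ) (ρ : ℕ → Bool) : Prog → State → State → ℕ → Prop where
  | set {r e σ} : e.val σ < M → Run M ρ (.set r e) σ (σ.setReg r (e.val σ)) 1
  | store {a i e σ} : e.val σ < M → Run M ρ (.store a i e) σ (σ.setArr a (i.val σ) (e.val σ)) 1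
  | coin {r σ} : Run M ρ (.coin r) σ
      { σ with reg := Function.update σ.reg r (if ρ σ.coins then 1 else 0),
               coins := σ.coins + 1 } 1
  | seq {p q σ σ₁ σ₂ s t} : Run M ρ p σ σ₁ s → Run M ρ q σ₁ σ₂ t → Run M ρ (.seq p q) σ σ₂ (s + t)
  | iteT {e p q σ σ₁ t} : e.val σ ≠ 0 → Run M ρ p σ σ₁ t → Run M ρ (.ite e p q) σ σ₁ (t + 1)
  | iteF {e p q σ σ₁ t} : e.val σ = 0 → Run M ρ q σ σ₁ t → Run M ρ (.ite e p q) σ σ₁ (t + 1)
  | loopF {e p σ} : e.val σ = 0 → Run M ρ (.loop e p) σ σ 1
  | loopT {e p σ σ₁ σ₂ s t} : e.val σ ≠ 0 → Run M ρ p σ σ₁ s →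
      Run M ρ (.loop e p) σ₁ σ₂ t → Run M ρ (.loop e p) σ σ₂ (s + t + 1)

/-- `p` started in `σ` halts within `T` steps in a state satisfying `Q`. -/
def Ok (M : ℕ) (ρ : ℕ → Bool) (p : Prog) (σ : State) (Q : State → Prop) (T : ℕ) : Prop :=
  ∃ σ' t, Run M ρ p σ σ' t ∧ Q σ' ∧ t ≤ T

def Expr.regs : Expr → List ℕ
  | .lit _ => []
  | .reg r => [r]
  | .load _ i => i.regs
  | .add x y | .sub x y | .mul x y | .div x y | .mod x y | .lt x y => x.regs ++ y.regs

def Expr.arrs : Expr → List ℕ
  | .lit _ => []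
  | .reg _ => []
  | .load a i => a :: i.arrs
  | .add x y | .sub x y | .mul x y | .div x y | .mod x y | .lt x y => x.arrs ++ y.arrs

def Expr.size : Expr → ℕ
  | .lit _ => 1
  | .reg _ => 1
  | .load _ i => i.size + 1
  | .add x y | .sub x y | .mul x y | .div x y | .mod x y | .lt x y => x.size + y.size + 1

def Expr.maxLit : Expr → ℕ
  | .lit c => c
  | .reg _ => 0
  | .load _ i => i.maxLit
  | .add x y | .sub x y | .mul x y | .div x y | .mod x y | .lt x y => max x.maxLit y.maxLit

def Prog.esize : Prog → ℕ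
  | .set _ e => e.size
  | .store _ i e => max i.size e.size
  | .coin _ => 1
  | .seq p q => max p.esize q.esize
  | .ite e p q => max e.size (max p.esize q.esize)
  | .loop e p => max e.size p.esize

def Prog.maxLit : Prog → ℕ
  | .set _ e => e.maxLit
  | .store _ i e => max i.maxLit e.maxLit
  | .coin _ => 0
  | .seq p q => max p.maxLit q.maxLit
  | .ite e p q => max e.maxLit (max p.maxLit q.maxLit)
  | .loop e p => max e.maxLit p.maxLit

/-- Registers written. -/
def Prog.wr : Prog → List ℕ
  | .set r _ => [r]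
  | .store _ _ _ => []
  | .coin r => [r]
  | .seq p q => p.wr ++ q.wr
  | .ite _ p q => p.wr ++ q.wr
  | .loop _ p => p.wr

/-- Arrays written. -/
def Prog.wa : Prog → List ℕ
  | .set _ _ => []
  | .store a _ _ => [a]
  | .coin _ => []
  | .seq p q => p.wa ++ q.wa
  | .ite _ p q => p.wa ++ q.wa
  | .loop _ p => p.wa

def Prog.noCoin : Prog → Bool
  | .set _ _ => true
  | .store _ _ _ => true
  | .coin _ => false
  | .seq p q => p.noCoin && q.noCoin
  | .ite _ p q => p.noCoin && q.noCoin
  | .loop _ p => p.noCoin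

/-- Only registers in `R` and arrays in `A` may differ; no random bit was drawn. -/
def Only (R A : List ℕ) (σ σ' : State) : Prop :=
  (∀ r, r ∉ R → σ'.reg r = σ.reg r) ∧ (∀ a, a ∉ A → σ'.arr a = σ.arr a) ∧ σ'.coins = σ.coins

/-- All registers and cells are below `M`. -/
def Bnd (M : ℕ) (σ : State) : Prop := (∀ r, σ.reg r < M) ∧ ∀ a i, σ.arr a i < M

instance : Add Expr := ⟨Expr.add⟩
instance : Sub Expr := ⟨Expr.sub⟩
instance : Mul Expr := ⟨Expr.mul⟩
instance : Div Expr := ⟨Expr.div⟩
instance : Mod Expr := ⟨Expr.mod⟩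

@[simp] theorem val_lit (σ : State) (c : ℕ) : (Expr.lit c).val σ = c := rfl
@[simp] theorem val_reg (σ : State) (r : ℕ) : (Expr.reg r).val σ = σ.reg r := rfl
@[simp] theorem val_load (σ : State) (a : ℕ) (i : Expr) :
    (Expr.load a i).val σ = σ.arr a (i.val σ) := rfl
@[simp] theorem val_add (σ : State) (x y : Expr) : (x + y).val σ = x.val σ + y.val σ := rfl
@[simp] theorem val_sub (σ : State) (x y : Expr) : (x - y).val σ = x.val σ - y.val σ := rfl
@[simp] theorem val_mul (σ : State) (x y : Expr) : (x * y).val σ = x.val σ * y.val σ := rfl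
@[simp] theorem val_div (σ : State) (x y : Expr) : (x / y).val σ = x.val σ / y.val σ := rfl
@[simp] theorem val_mod (σ : State) (x y : Expr) : (x % y).val σ = x.val σ % y.val σ := rfl
@[simp] theorem val_lt (σ : State) (x y : Expr) :
    (Expr.lt x y).val σ = if x.val σ < y.val σ then 1 else 0 := rfl
@[simp] theorem regs_lit (c : ℕ) : (Expr.lit c).regs = [] := rfl
@[simp] theorem regs_reg (r : ℕ) : (Expr.reg r).regs = [r] := rfl
@[simp] theorem regs_load (a : ℕ) (i : Expr) : (Expr.load a i).regs = i.regs := rfl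
@[simp] theorem regs_add (x y : Expr) : (x + y).regs = x.regs ++ y.regs := rfl
@[simp] theorem regs_sub (x y : Expr) : (x - y).regs = x.regs ++ y.regs := rfl
@[simp] theorem regs_mul (x y : Expr) : (x * y).regs = x.regs ++ y.regs := rfl
@[simp] theorem regs_div (x y : Expr) : (x / y).regs = x.regs ++ y.regs := rfl
@[simp] theorem regs_mod (x y : Expr) : (x % y).regs = x.regs ++ y.regs := rfl
@[simp] theorem regs_lt (x y : Expr) : (Expr.lt x y).regs = x.regs ++ y.regs := rfl
@[simp] theorem arrs_lit (c : ℕ) : (Expr.lit c).arrs = [] := rfl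
@[simp] theorem arrs_reg (r : ℕ) : (Expr.reg r).arrs = [] := rfl
@[simp] theorem arrs_load (a : ℕ) (i : Expr) : (Expr.load a i).arrs = a :: i.arrs := rfl
@[simp] theorem arrs_add (x y : Expr) : (x + y).arrs = x.arrs ++ y.arrs := rfl
@[simp] theorem arrs_sub (x y : Expr) : (x - y).arrs = x.arrs ++ y.arrs := rfl
@[simp] theorem arrs_mul (x y : Expr) : (x * y).arrs = x.arrs ++ y.arrs := rfl
@[simp] theorem arrs_div (x y : Expr) : (x / y).arrs = x.arrs ++ y.arrs := rfl
@[simp] theorem arrs_mod (x y : Expr) : (x % y).arrs = x.arrs ++ y.arrs := rfl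
@[simp] theorem arrs_lt (x y : Expr) : (Expr.lt x y).arrs = x.arrs ++ y.arrs := rfl

/-- `for r := 0 while r < N do body`. -/
def forL (r : ℕ) (N : Expr) (body : Prog) : Prog :=
  .seq (.set r (.lit 0)) (.loop (.lt (.reg r) N) (.seq body (.set r (.reg r + .lit 1))))

/-- `a[i] := e` for all `i < N`; the index `i` is register 1. -/
def fillE (a : ℕ) (N e : Expr) : Prog := forL 1 N (.store a (.reg 1) e)

/-- `a[i] := (∑ j < J, e) mod p` for all `i < N`; `i` is register 1, `j` register 2,
the accumulator register 3, the modulus `p` register 5. -/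
def fillS (a : ℕ) (N J e : Expr) : Prog :=
  forL 1 N (.seq (.set 3 (.lit 0))
    (.seq (forL 2 J (.set 3 ((.reg 3 + e) % .reg 5))) (.store a (.reg 1) (.reg 3))))

/-- Sequence of a list of programs (the empty list costs one step and clears register 1). -/
def seqs : List Prog → Prog
  | [] => .set 1 (.lit 0)
  | p :: l => .seq p (seqs l)

end Vale.Agent.P305
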