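import Vale.Agent.P305.Pure

/-! Simple facts on `Tm`, `Wm`, `Nm`, `Dm`, and the composition identity for pivots. -/

namespace Vale.Agent.P305

open Matrix Finset

theorem Tm_skew {R : Type} [CommRing R] {m : ℕ} (Γ : SimpleGraph (Fin m)) (r : ℕ → R) :
    (Tm Γ r)ᵀ = -Tm Γ r := by
  ext u v
  simp only [Tm, transpose_apply, Matrix.neg_apply, of_apply]
  by_cases h : Γ.Adj u v
  · have hne : u.val ≠ v.val := fun e => h.ne (Fin.ext e)
    rw [if_pos h, if_pos h.symm]
    by_cases k : u.val < v.val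
    · rw [if_pos k, if_neg (by omega)]
    · rw [if_neg k, if_pos (by omega), neg_neg]
  · rw [if_neg h, if_neg fun k => h k.symm, neg_zero]

theorem Nm_skew {R : Type} [CommRing R] {m : ℕ} (n : ℕ) (Γ : SimpleGraph (Fin m)) (r : ℕ → R) :
    (Nm n Γ r)ᵀ = -Nm n Γ r := by
  rw [Nm, transpose_sub, transpose_add, transpose_mul, transpose_mul, transpose_transpose, Tm_skew,
    Matrix.neg_mul, Matrix.mul_neg, Matrix.mul_assoc]
  abel

theorem Dm_map {R S : Type} [CommRing R] [CommRing S] (φ : R →+* S) {m : ℕ}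
    (N : Matrix (Fin m) (Fin m) R) (X : Finset (Fin m)) : φ (Dm N X) = Dm (N.map φ) X := by
  rw [Dm, Dm, RingHom.map_det]
  refine congrArg det (Matrix.ext fun a b => ?_)
  simp only [RingHom.mapMatrix_apply, map_apply, of_apply, apply_ite φ, map_one, map_zero]

theorem Tm_map_NmL {R S : Type} [CommRing R] [CommRing S] (φ : R →+* S) {m : ℕ}
    (Γ : SimpleGraph (Fin m)) (r : ℕ → R) : (Tm Γ r).map φ = Tm Γ (fun i => φ (r i)) := by
  ext u v
  simp only [Tm, map_apply, of_apply, apply_ite φ, map_neg, map_zero]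

theorem Wm_map_NmL {R S : Type} [CommRing R] [CommRing S] (φ : R →+* S) (m n : ℕ) (r : ℕ → R) :
    (Wm m n r).map φ = Wm m n (fun i => φ (r i)) := by
  ext u v
  simp only [Wm, map_apply, of_apply, apply_ite φ, map_zero]

theorem Nm_map {R S : Type} [CommRing R] [CommRing S] (φ : R →+* S) {m : ℕ} (n : ℕ)
    (Γ : SimpleGraph (Fin m)) (r : ℕ → R) : (Nm n Γ r).map φ = Nm n Γ (fun i => φ (r i)) := by
  rw [Nm, Nm, Matrix.map_sub _ (map_sub φ), Matrix.map_add _ (map_add φ), Matrix.map_mul,
    Matrix.map_mul, transpose_map, Tm_map_NmL, Wm_map_NmL]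

theorem idx_NmL {m : ℕ} (u v : Fin m) : u.val * m + v.val < m * m := by
  have h1 : (u.val + 1) * m ≤ m * m := Nat.mul_le_mul_right m u.2
  have h2 := v.2
  rw [add_mul, one_mul] at h1
  omega

theorem Nm_congr {R : Type} [CommRing R] {m : ℕ} (n : ℕ) (Γ : SimpleGraph (Fin m)) {r r' : ℕ → R}
    (h : ∀ i < 2 * m * m, r i = r' i) : Nm n Γ r = Nm n Γ r' := by
  have e : 2 * m * m = m * m + m * m := by ring
  have h1 : Tm Γ r = Tm Γ r' := by
    ext u v
    have a := idx_NmL u v
    have b := idx_NmL v u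
    simp only [Tm, of_apply]
    rw [h (u.val * m + v.val) (by omega), h (v.val * m + u.val) (by omega)]
  have h2 : Wm m n r = Wm m n r' := by
    ext u v
    have a := idx_NmL u v
    simp only [Wm, of_apply]
    rw [h (m * m + u.val * m + v.val) (by omega)]
  rw [Nm, Nm, h1, h2]

theorem low_lift {n : ℕ} (G : SimpleGraph (Fin n)) (m : ℕ) : Low n (lift G m) :=
  fun _ _ h => h.1

theorem sub_mul3_NmL {F : Type} [Field F] {m m' s s' a b : ℕ} (A : Matrix (Fin m) (Fin s) F)
    (K : Matrix (Fin s) (Fin s') F) (B : Matrix (Fin s') (Fin m') F) (f : Fin a → Fin m)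
    (g : Fin b → Fin m') :
    (A * K * B).submatrix f g = A.submatrix f id * K * B.submatrix id g := by
  ext i j
  simp only [submatrix_apply, mul_apply, id]

/-- The local matrix after an update. -/
theorem sub_update {F : Type} [Field F] {m s : ℕ} (G : Matrix (Fin m) (Fin m) F) (ι : Fin s → Fin m)
    (K : Matrix (Fin s) (Fin s) F) :
    (G - G.submatrix id ι * K * G.submatrix ι id).submatrix ι ι =
      G.submatrix ι ι - G.submatrix ι ι * (K * G.submatrix ι ι) := by
  rw [← Matrix.mul_assoc]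
  ext i j
  simp only [submatrix_apply, mul_apply, id, Matrix.sub_apply]

/-- Composition of an update by `K` with an update by `K'` on a child with index map `ι ∘ f`. -/
theorem comp_update {F : Type} [Field F] {m s s' : ℕ} (G G₁ : Matrix (Fin m) (Fin m) F)
    (ι : Fin s → Fin m) (f : Fin s' → Fin s) (K : Matrix (Fin s) (Fin s) F)
    (K' : Matrix (Fin s') (Fin s') F) (h : G₁ = G - G.submatrix id ι * K * G.submatrix ι id) :
    G₁ - G₁.submatrix id (ι ∘ f) * K' * G₁.submatrix (ι ∘ f) id =
      G - G.submatrix id ι *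
        (K + (1 - K * G.submatrix ι ι).submatrix id f * K' * (1 - G.submatrix ι ι * K).submatrix f id) *
        G.submatrix ι id := by
  have a1 : G₁.submatrix id ι = G.submatrix id ι * (1 - K * G.submatrix ι ι) := by
    rw [Matrix.mul_sub, Matrix.mul_one, ← Matrix.mul_assoc, h]
    ext i j
    simp only [submatrix_apply, mul_apply, id, Matrix.sub_apply]
  have a2 : G₁.submatrix ι id = (1 - G.submatrix ι ι * K) * G.submatrix ι id := by
    rw [Matrix.sub_mul, Matrix.one_mul, h]
    ext i j
    simp only [submatrix_apply, mul_apply, id, Matrix.sub_apply]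
  have b1 : G₁.submatrix id (ι ∘ f) =
      G.submatrix id ι * (1 - K * G.submatrix ι ι).submatrix id f := by
    have e : G₁.submatrix id (ι ∘ f) = (G₁.submatrix id ι).submatrix id f := rfl
    rw [e, a1]
    ext i j
    simp only [submatrix_apply, mul_apply, id]
  have b2 : G₁.submatrix (ι ∘ f) id =
      (1 - G.submatrix ι ι * K).submatrix f id * G.submatrix ι id := by
    have e : G₁.submatrix (ι ∘ f) id = (G₁.submatrix ι id).submatrix f id := rfl
    rw [e, a2]
    ext i j
    simp only [submatrix_apply, mul_apply, id]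
  rw [b1, b2, h, Matrix.mul_add, Matrix.add_mul, sub_sub]
  simp only [Matrix.mul_assoc]

theorem single3_NmL {F : Type} [Field F] {m m' s s' : ℕ} (A : Matrix (Fin m) (Fin s) F)
    (B : Matrix (Fin s') (Fin m') F) (u : Fin s) (v : Fin s') (c : F) (i : Fin m) (j : Fin m') :
    (A * Matrix.single u v c * B) i j = A i u * c * B v j := by
  rw [mul_apply, Finset.sum_eq_single v]
  · rw [Matrix.mul_single_apply_same]
  · intro b _ hb
    rw [Matrix.mul_single_apply_of_ne _ _ _ _ _ hb, zero_mul]
  · intro hv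
    exact absurd (Finset.mem_univ v) hv

/-- The pivot in local coordinates. -/
theorem piv_local {F : Type} [Field F] {m s : ℕ} (G : Matrix (Fin m) (Fin m) F) (ι : Fin s → Fin m)
    (a b : Fin s) :
    G * piv G (ι a) (ι b) * G = G.submatrix id ι * piv (G.submatrix ι ι) a b * G.submatrix ι id := by
  ext i j
  simp only [piv, Matrix.mul_add, Matrix.add_mul, Matrix.add_apply, single3_NmL, submatrix_apply, id]

theorem pad_sum_NmL {F : Type} [Field F] {s s' : ℕ} (hs : s' ≤ s) (g : Fin s → F)
    (hg : ∀ t : Fin s, ¬ t.val < s' → g t = 0) : ∑ t, g t = ∑ t : Fin s', g (Fin.castLE hs t) := by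
  symm
  refine Finset.sum_of_injOn (Fin.castLE hs) (Fin.castLE_injective hs).injOn
    (fun _ _ => Finset.mem_univ _) (fun t _ ht => hg t fun h => ht ?_) fun _ _ => rfl
  exact ⟨⟨t.val, h⟩, Finset.mem_coe.2 (Finset.mem_univ _), Fin.ext rfl⟩

/-- A rectangular triple product as a product of square matrices padded with zeros. -/
theorem pad_prod {F : Type} [Field F] {s s' : ℕ} (hs : s' ≤ s) (f : Fin s' → Fin s)
    (A B A' B' K'' : Matrix (Fin s) (Fin s) F) (K' : Matrix (Fin s') (Fin s') F)
    (hA : ∀ a t, A' a t = if h : t.val < s' then A a (f ⟨t.val, h⟩) else 0)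
    (hB : ∀ t b, B' t b = if h : t.val < s' then B (f ⟨t.val, h⟩) b else 0)
    (hK : ∀ t t', K'' t t' =
      if h : t.val < s' ∧ t'.val < s' then K' ⟨t.val, h.1⟩ ⟨t'.val, h.2⟩ else 0) :
    A' * K'' * B' = A.submatrix id f * K' * B.submatrix f id := by
  ext i j
  rw [mul_apply, mul_apply, pad_sum_NmL hs _ fun t ht => by rw [hB, dif_neg ht, mul_zero]]
  refine Finset.sum_congr rfl fun t' _ => ?_
  rw [mul_apply, mul_apply, pad_sum_NmL hs _ fun t ht => by rw [hA, dif_neg ht, zero_mul], hB,
    dif_pos (show (Fin.castLE hs t').val < s' from t'.2)]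
  refine congrArg (· * _) (Finset.sum_congr rfl fun t _ => ?_)
  rw [hA, dif_pos (show (Fin.castLE hs t).val < s' from t.2), hK,
    dif_pos (show (Fin.castLE hs t).val < s' ∧ (Fin.castLE hs t').val < s' from ⟨t.2, t'.2⟩)]
  rfl

end Vale.Agent.P305
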