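import Vale.Agent.P305.Elem
import Vale.Agent.P305.NmL

/-! The leaf. `sz N g 0 = N`, `pos N g 0 0` and `pos N g 0 1` have values 0 and 1. If the test
succeeds take `K = piv (G.submatrix ι ι) (pos N g 0 0) (pos N g 0 1)` and use `piv_local`;
its entry `(0,1)` sits in cell 1 and its entry `(1,0)` in cell `sz N g 0`. Otherwise `K = 0`. -/

namespace Vale.Agent.P305

open Finset Matrix

/-- The postcondition of a node: `L` is its list of pairs, `ka` the array of its result. -/
def NodePost {p s m : ℕ} [Fact p.Prime] (H : Fin m → Fin m → Prop)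
    (G : Matrix (Fin m) (Fin m) (ZMod p)) (ι : Fin s → Fin m) (L : List (Fin m × Fin m))
    (ka : ℕ) (σ σ' : State) : Prop :=
  ∃ K : Matrix (Fin s) (Fin s) (ZMod p), Rep σ' ka K ∧
    (L.foldl (nstep H) (G, σ.arr 2)).1 = G - G.submatrix id ι * K * G.submatrix ι id ∧
    σ'.arr 2 = (L.foldl (nstep H) (G, σ.arr 2)).2

variable {M : ℕ} {ρ : ℕ → Bool} {p : ℕ} [Fact p.Prime] {σ : State} {N R g D m h : ℕ} [NeZero N]
  {a b c : ℕ → ℕ → ℕ → ZMod p}

theorem cell_Leaf {s : ℕ} (i j a b : Fin s) (h : i.val * s + j.val = a.val * s + b.val) :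
    i = a ∧ j = b := by
  have hs : 0 < s := i.pos
  have h1 : (i.val * s + j.val) / s = i.val := by
    rw [mul_comm, Nat.mul_add_div hs, Nat.div_eq_of_lt j.isLt, add_zero]
  have h2 : (a.val * s + b.val) / s = a.val := by
    rw [mul_comm, Nat.mul_add_div hs, Nat.div_eq_of_lt b.isLt, add_zero]
  have h3 : i.val = a.val := by rw [← h1, h, h2]
  rw [h3] at h
  exact ⟨Fin.ext h3, Fin.ext (by omega)⟩

theorem negval_Leaf (y : ZMod p) : (p - y.val) % p = (-y).val := by
  rw [ZMod.neg_val']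

theorem leafP_ok (hN : 2 ≤ N) (hE : Env N R g D m a b c σ) (hpM : p ≤ M) (hM : N * N < M)
    (hm : m < M) (hh : h = 3 ∨ h = 4) {H : Fin m → Fin m → Prop}
    (hH : ∀ u v : Fin m, σ.arr h (u.val * m + v.val) ≠ 0 ↔ H u v)
    {G : Matrix (Fin m) (Fin m) (ZMod p)} {ι : Fin (sz N g 0) → Fin m}
    (hP : Rep σ (PA 0) (G.submatrix ι ι)) (hι : ∀ t, σ.arr (IA 0) t.val = (ι t).val) :
    Ok M ρ (leafP h) σ
      (fun σ' => NodePost H G ι (pairs N g 0 ι) (KA 0) σ σ' ∧ NFrame 0 σ σ') (nodeT N R g 0) := by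
  have hs : sz N g 0 = N := by simp [sz]
  set p0 := pos N g 0 0 with hp0
  set p1 := pos N g 0 1 with hp1
  have v0 : p0.val = 0 := by simp [hp0, pos]
  have v1 : p1.val = 1 := by
    simp only [hp1, pos, hs]
    exact Nat.mod_eq_of_lt (by omega)
  set u := ι p0 with hu
  set v := ι p1 with hv
  have au : σ.arr 22 0 = u.val := by have := hι p0; rwa [v0] at this
  have av : σ.arr 22 1 = v.val := by have := hι p1; rwa [v1] at this
  have ax : σ.arr 20 1 = (G u v).val := by
    have := hP p0 p1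
    rw [v0, v1, zero_mul, zero_add] at this
    exact this
  have hum := u.isLt
  have hvm := v.isLt
  have hpp : 0 < p := (Fact.out : p.Prime).pos
  have hxp : (G u v).val < p := ZMod.val_lt _
  have r20 : σ.reg 20 = sz N g 0 := hE.rsz 0 (Nat.zero_le _)
  have main : Ok M ρ (leafP h) σ (fun σ' => NodePost H G ι (pairs N g 0 ι) (KA 0) σ σ')
      (nodeT N R g 0) := by
    refine Ok.seq' (T := 8) (zeroM_ok (p := p) (s := sz N g 0) (by simp) r20 (by rw [hs]; exact hM))
      (fun σ₁ ⟨hZ, hO⟩ => ?_) (by rw [hs]; simp only [nodeT]; omega)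
    have b22 : σ₁.arr 22 = σ.arr 22 := hO.2.1 _ (by simp)
    have b20 : σ₁.arr 20 = σ.arr 20 := hO.2.1 _ (by simp)
    have b5 : σ₁.arr 5 = σ.arr 5 := hO.2.1 _ (by simp)
    have b2 : σ₁.arr 2 = σ.arr 2 := hO.2.1 _ (by simp)
    have bh : σ₁.arr h = σ.arr h := hO.2.1 _ (by rcases hh with rfl | rfl <;> simp)
    have c10 : σ₁.reg 10 = m := (hO.1 _ (by simp)).trans hE.rm
    have c5 : σ₁.reg 5 = p := (hO.1 _ (by simp)).trans hE.me.rp
    have c20 : σ₁.reg 20 = sz N g 0 := (hO.1 _ (by simp)).trans r20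
    set σ₂ := ((σ₁.setReg 13 u.val).setReg 14 v.val).setReg 15 (G u v).val with hσ₂
    refine Ok.seq' (S := 1) (T := 7) (Q := fun τ => τ = σ₁.setReg 13 u.val)
      (Ok.set (by simp [b22, au]; omega) (by simp [b22, au])) ?_ le_rfl
    rintro _ rfl
    refine Ok.seq' (S := 1) (T := 6) (Q := fun τ => τ = (σ₁.setReg 13 u.val).setReg 14 v.val)
      (Ok.set (by simp [b22, av]; omega) (by simp [b22, av])) ?_ le_rfl
    rintro _ rfl
    refine Ok.seq' (S := 1) (T := 5) (Q := fun τ => τ = σ₂)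
      (Ok.set (by simp [b20, ax]; omega) (by simp [b20, ax, hσ₂])) ?_ le_rfl
    rintro _ rfl
    have htest : (Expr.load h (Expr.reg 13 * Expr.reg 10 + Expr.reg 14) * Expr.reg 15).val σ₂ =
        σ.arr h (u.val * m + v.val) * (G u v).val := by simp [hσ₂, bh, c10]
    by_cases hc : H u v ∧ G u v ≠ 0
    · have hx0 : 0 < (G u v).val := by
        rw [Nat.pos_iff_ne_zero, ne_eq, ZMod.val_eq_zero]; exact hc.2
      have hinv : σ.arr 5 (G u v).val = ((G u v)⁻¹).val := by
        rw [hE.inv _ hx0 hxp, ZMod.natCast_zmod_val]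
      have hip : ((G u v)⁻¹).val < p := ZMod.val_lt _
      have hnp : (-(G u v)⁻¹).val < p := ZMod.val_lt _
      refine Ok.iteT (T := 4) (by
        rw [htest]; exact mul_ne_zero ((hH u v).2 hc.1) hx0.ne') ?_
      set σ₃ := σ₂.setArr 21 1 (-(G u v)⁻¹).val with hσ₃
      set σ₄ := σ₃.setArr 21 (sz N g 0) ((G u v)⁻¹).val with hσ₄
      set σ₅ := σ₄.setArr 2 u.val (v.val + 1) with hσ₅
      refine Ok.seq' (S := 1) (T := 3) (Q := fun τ => τ = σ₃)
        (Ok.store (by simp [hσ₂, b5, c5, hinv, negval_Leaf]; omega)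
          (by simp [hσ₃, hσ₂, b5, c5, hinv, negval_Leaf])) ?_ le_rfl
      rintro _ rfl
      refine Ok.seq' (S := 1) (T := 2) (Q := fun τ => τ = σ₄)
        (Ok.store (by simp [hσ₃, hσ₂, b5, hinv]; omega)
          (by simp [hσ₄, hσ₃, hσ₂, b5, c20, hinv, SZ, KA])) ?_ le_rfl
      rintro _ rfl
      refine Ok.seq' (S := 1) (T := 1) (Q := fun τ => τ = σ₅)
        (Ok.store (by simp [hσ₄, hσ₃, hσ₂]; omega) (by simp [hσ₅, hσ₄, hσ₃, hσ₂])) ?_ le_rfl
      rintro _ rfl
      refine Ok.store (by simp [hσ₅, hσ₄, hσ₃, hσ₂]; omega) ?_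
      have e13 : (Expr.reg 13 + Expr.lit 1).val σ₅ = u.val + 1 := by simp [hσ₅, hσ₄, hσ₃, hσ₂]
      have e14 : (Expr.reg 14).val σ₅ = v.val := by simp [hσ₅, hσ₄, hσ₃, hσ₂]
      rw [e13, e14]
      have hn : (pairs N g 0 ι).foldl (nstep H) (G, σ.arr 2) =
          (G - G * piv G u v * G, mark (σ.arr 2) u v) := by
        simp only [pairs, List.foldl_cons, List.foldl_nil, nstep]
        exact if_pos hc
      have h01 : p0 ≠ p1 := fun e => by rw [e, v1] at v0; omega
      refine ⟨piv (G.submatrix ι ι) p0 p1, fun i j => ?_, by rw [hn, ← piv_local], ?_⟩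
      · have hz := hZ i j
        have k1 : i.val * sz N g 0 + j.val = 1 ↔ i = p0 ∧ j = p1 :=
          ⟨fun e => cell_Leaf i j p0 p1 (by rw [e, v0, v1]; simp),
            fun e => by rw [e.1, e.2, v0, v1]; simp⟩
        have k2 : i.val * sz N g 0 + j.val = sz N g 0 ↔ i = p1 ∧ j = p0 :=
          ⟨fun e => cell_Leaf i j p1 p0 (by rw [e, v0, v1]; simp),
            fun e => by rw [e.1, e.2, v0, v1]; simp⟩
        simp only [hσ₅, hσ₄, hσ₃, hσ₂, setArr_arr_apply, setReg_arr, k1, k2, hz, piv,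
          Matrix.add_apply, Matrix.single_apply, Matrix.submatrix_apply, ← hu, ← hv]
        by_cases e1 : i = p1 ∧ j = p0
        · obtain ⟨rfl, rfl⟩ := e1
          simp [h01, KA]
        · by_cases e2 : i = p0 ∧ j = p1
          · obtain ⟨rfl, rfl⟩ := e2
            simp [h01, h01.symm, KA]
          · have e1' : ¬ (p1 = i ∧ p0 = j) := fun e => e1 ⟨e.1.symm, e.2.symm⟩
            have e2' : ¬ (p0 = i ∧ p1 = j) := fun e => e2 ⟨e.1.symm, e.2.symm⟩
            simp [e1, e2, e1', e2', KA]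
      · rw [hn]
        simp [hσ₅, hσ₄, hσ₃, hσ₂, setArr_arr, b2, mark]
    · refine (Ok.iteF (T := 1) ?_ (Ok.set (by simp; omega) ?_)).mono (fun _ h => h) (by omega)
      · rw [htest]
        by_cases h1 : H u v
        · have : G u v = 0 := by
            by_contra h2
            exact hc ⟨h1, h2⟩
          simp [this]
        · have : σ.arr h (u.val * m + v.val) = 0 := by
            by_contra h2
            exact h1 ((hH u v).1 h2)
          simp [this]
      · have hn : (pairs N g 0 ι).foldl (nstep H) (G, σ.arr 2) = (G, σ.arr 2) := by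
          simp only [pairs, List.foldl_cons, List.foldl_nil, nstep]
          exact if_neg hc
        refine ⟨0, fun i j => ?_, by rw [hn]; simp, by rw [hn]; simp [hσ₂, b2]⟩
        simpa [hσ₂] using hZ i j
  refine (main.frame [1, 13, 14, 15] [21, 2] ?_ ?_ ?_).mono
    (fun σ' h => ⟨h.1, h.2.nframe 0 (by simp [WR]) (by simp [WA])⟩) le_rfl
  · simp [leafP, zeroM, Prog.wr, forL, fillE]
  · simp [leafP, zeroM, Prog.wa, forL, fillE]
  · simp [leafP, zeroM, Prog.noCoin, forL, fillE]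

end Vale.Agent.P305
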