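import Vale.Agent.P305.Lang

/-! Proof rules for `Ok`. -/

namespace Vale.Agent.P305

variable {M : ℕ} {ρ : ℕ → Bool}

theorem Ok.mono {p σ Q Q' T T'} (h : Ok M ρ p σ Q T) (hQ : ∀ σ', Q σ' → Q' σ') (hT : T ≤ T') :
    Ok M ρ p σ Q' T' := by
  obtain ⟨σ', t, h1, h2, h3⟩ := h
  exact ⟨σ', t, h1, hQ _ h2, h3.trans hT⟩

theorem Ok.set {r e σ} {Q : State → Prop} (h : e.val σ < M) (hQ : Q (σ.setReg r (e.val σ))) :
    Ok M ρ (.set r e) σ Q 1 := ⟨_, _, Run.set h, hQ, le_rfl⟩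

theorem Ok.store {a i e σ} {Q : State → Prop} (h : e.val σ < M)
    (hQ : Q (σ.setArr a (i.val σ) (e.val σ))) : Ok M ρ (.store a i e) σ Q 1 :=
  ⟨_, _, Run.store h, hQ, le_rfl⟩

theorem Ok.coin {r σ} {Q : State → Prop}
    (hQ : Q { σ with reg := Function.update σ.reg r (if ρ σ.coins then 1 else 0),
                     coins := σ.coins + 1 }) : Ok M ρ (.coin r) σ Q 1 :=
  ⟨_, _, Run.coin, hQ, le_rfl⟩

theorem Ok.seq {p q σ Q R S T} (h : Ok M ρ p σ Q S) (h' : ∀ σ', Q σ' → Ok M ρ q σ' R T) :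
    Ok M ρ (.seq p q) σ R (S + T) := by
  obtain ⟨σ₁, s, h1, h2, h3⟩ := h
  obtain ⟨σ₂, t, k1, k2, k3⟩ := h' _ h2
  exact ⟨σ₂, s + t, Run.seq h1 k1, k2, by omega⟩

/-- Sequence rule with a free total budget. -/
theorem Ok.seq' {p q σ Q R S T U} (h : Ok M ρ p σ Q S) (h' : ∀ σ', Q σ' → Ok M ρ q σ' R T)
    (hU : S + T ≤ U) : Ok M ρ (.seq p q) σ R U := (h.seq h').mono (fun _ h => h) hU

theorem Ok.iteT {e p q σ Q T} (he : e.val σ ≠ 0) (h : Ok M ρ p σ Q T) :
    Ok M ρ (.ite e p q) σ Q (T + 1) := by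
  obtain ⟨σ₁, s, h1, h2, h3⟩ := h
  exact ⟨σ₁, s + 1, Run.iteT he h1, h2, by omega⟩

theorem Ok.iteF {e p q σ Q T} (he : e.val σ = 0) (h : Ok M ρ q σ Q T) :
    Ok M ρ (.ite e p q) σ Q (T + 1) := by
  obtain ⟨σ₁, s, h1, h2, h3⟩ := h
  exact ⟨σ₁, s + 1, Run.iteF he h1, h2, by omega⟩

/-- Loop running exactly `k` rounds. -/
theorem Ok.loopN {e p} (I : ℕ → State → Prop) (k T : ℕ)
    (hstep : ∀ i < k, ∀ σ, I i σ → e.val σ ≠ 0 ∧ Ok M ρ p σ (I (i + 1)) T)
    (hend : ∀ σ, I k σ → e.val σ = 0) {σ} (h0 : I 0 σ) :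
    Ok M ρ (.loop e p) σ (I k) (k * (T + 1) + 1) := by
  have key : ∀ j, j ≤ k → ∀ σ, I (k - j) σ → Ok M ρ (.loop e p) σ (I k) (j * (T + 1) + 1) := by
    intro j
    induction j with
    | zero => intro _ σ h; exact ⟨σ, 1, Run.loopF (hend σ (by simpa using h)), by simpa using h, by simp⟩
    | succ j ih =>
      intro hj σ h
      obtain ⟨he, σ₁, s, h1, h2, h3⟩ := hstep (k - (j + 1)) (by omega) σ h
      have e1 : k - (j + 1) + 1 = k - j := by omega
      rw [e1] at h2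
      obtain ⟨σ₂, t, k1, k2, k3⟩ := ih (by omega) σ₁ h2
      exact ⟨σ₂, s + t + 1, Run.loopT he h1 k1, k2, by nlinarith⟩
  exact key k le_rfl σ (by simpa using h0)

/-- Loop with a decreasing measure. -/
theorem Ok.loopV {e p} (I : State → Prop) (v : State → ℕ) (T : ℕ)
    (hstep : ∀ σ, I σ → e.val σ ≠ 0 → Ok M ρ p σ (fun σ' => I σ' ∧ v σ' < v σ) T) {σ} (h0 : I σ) :
    Ok M ρ (.loop e p) σ (fun σ' => I σ' ∧ e.val σ' = 0) (v σ * (T + 1) + 1) := by
  have key : ∀ j σ, v σ ≤ j → I σ →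
      Ok M ρ (.loop e p) σ (fun σ' => I σ' ∧ e.val σ' = 0) (j * (T + 1) + 1) := by
    intro j
    induction j with
    | zero =>
      intro σ hv h
      by_cases he : e.val σ = 0
      · exact ⟨σ, 1, Run.loopF he, ⟨h, he⟩, by simp⟩
      · obtain ⟨σ₁, s, _, h2, _⟩ := hstep σ h he
        omega
    | succ j ih =>
      intro σ hv h
      by_cases he : e.val σ = 0
      · exact ⟨σ, 1, Run.loopF he, ⟨h, he⟩, by omega⟩
      · obtain ⟨σ₁, s, h1, h2, h3⟩ := hstep σ h he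
        obtain ⟨σ₂, t, k1, k2, k3⟩ := ih σ₁ (by omega) h2.1
        exact ⟨σ₂, s + t + 1, Run.loopT he h1 k1, k2, by nlinarith⟩
  exact key _ σ le_rfl h0

theorem Run.frame {p σ σ' t} (h : Run M ρ p σ σ' t) :
    (∀ r, r ∉ p.wr → σ'.reg r = σ.reg r) ∧ (∀ a, a ∉ p.wa → σ'.arr a = σ.arr a) ∧
      (p.noCoin = true → σ'.coins = σ.coins) := by
  induction h with
  | set _ => refine ⟨fun r hr => ?_, fun a _ => rfl, fun _ => rfl⟩; simp_all [Prog.wr]
  | store _ =>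
    refine ⟨fun r _ => rfl, fun a ha => ?_, fun _ => rfl⟩
    rw [setArr_arr]; simp_all [Prog.wa]
  | coin =>
    refine ⟨fun r hr => ?_, fun a _ => rfl, fun h => by simp [Prog.noCoin] at h⟩
    simp_all [Prog.wr, Function.update_apply]
  | seq _ _ ih1 ih2 =>
    refine ⟨fun r hr => ?_, fun a ha => ?_, fun h => ?_⟩
    · simp only [Prog.wr, List.mem_append, not_or] at hr
      rw [ih2.1 r hr.2, ih1.1 r hr.1]
    · simp only [Prog.wa, List.mem_append, not_or] at ha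
      rw [ih2.2.1 a ha.2, ih1.2.1 a ha.1]
    · simp only [Prog.noCoin, Bool.and_eq_true] at h
      rw [ih2.2.2 h.2, ih1.2.2 h.1]
  | iteT _ _ ih =>
    refine ⟨fun r hr => ih.1 r ?_, fun a ha => ih.2.1 a ?_, fun h => ih.2.2 ?_⟩
    · simp only [Prog.wr, List.mem_append, not_or] at hr; exact hr.1
    · simp only [Prog.wa, List.mem_append, not_or] at ha; exact ha.1
    · simp only [Prog.noCoin, Bool.and_eq_true] at h; exact h.1
  | iteF _ _ ih =>
    refine ⟨fun r hr => ih.1 r ?_, fun a ha => ih.2.1 a ?_, fun h => ih.2.2 ?_⟩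
    · simp only [Prog.wr, List.mem_append, not_or] at hr; exact hr.2
    · simp only [Prog.wa, List.mem_append, not_or] at ha; exact ha.2
    · simp only [Prog.noCoin, Bool.and_eq_true] at h; exact h.2
  | loopF _ => exact ⟨fun _ _ => rfl, fun _ _ => rfl, fun _ => rfl⟩
  | loopT _ _ _ ih1 ih2 =>
    refine ⟨fun r hr => ?_, fun a ha => ?_, fun h => ?_⟩
    · rw [ih2.1 r hr, ih1.1 r hr]
    · rw [ih2.2.1 a ha, ih1.2.1 a ha]
    · rw [ih2.2.2 h, ih1.2.2 h]

/-- Frame rule: a coin-free program changes only what it writes. The side goals usually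
close by `simp [Prog.wr, Prog.wa, Prog.noCoin, forL, fillE, fillS, seqs]` or `decide`. -/
theorem Ok.frame {p σ Q T} (h : Ok M ρ p σ Q T) (R A : List ℕ) (hR : ∀ r ∈ p.wr, r ∈ R)
    (hA : ∀ a ∈ p.wa, a ∈ A) (hc : p.noCoin = true) :
    Ok M ρ p σ (fun σ' => Q σ' ∧ Only R A σ σ') T := by
  obtain ⟨σ', t, h1, h2, h3⟩ := h
  have := h1.frame
  exact ⟨σ', t, h1, ⟨h2, fun r hr => this.1 r fun h => hr (hR r h),
    fun a ha => this.2.1 a fun h => ha (hA a h), this.2.2 hc⟩, h3⟩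

theorem Only.refl (R A : List ℕ) (σ : State) : Only R A σ σ := ⟨fun _ _ => rfl, fun _ _ => rfl, rfl⟩

theorem Only.trans {R A σ₁ σ₂ σ₃} (h : Only R A σ₁ σ₂) (h' : Only R A σ₂ σ₃) : Only R A σ₁ σ₃ :=
  ⟨fun r hr => (h'.1 r hr).trans (h.1 r hr), fun a ha => (h'.2.1 a ha).trans (h.2.1 a ha),
    h'.2.2.trans h.2.2⟩

theorem Only.mono {R A R' A' σ σ'} (h : Only R A σ σ') (hR : ∀ r ∈ R, r ∈ R') (hA : ∀ a ∈ A, a ∈ A') :
    Only R' A' σ σ' :=
  ⟨fun r hr => h.1 r fun k => hr (hR r k), fun a ha => h.2.1 a fun k => ha (hA a k), h.2.2⟩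

theorem val_congr (e : Expr) {σ σ' : State} (hr : ∀ r ∈ e.regs, σ'.reg r = σ.reg r)
    (ha : ∀ a ∈ e.arrs, σ'.arr a = σ.arr a) : e.val σ' = e.val σ := by
  induction e with
  | lit c => rfl
  | reg r => exact hr r (by simp [Expr.regs])
  | load a i ih =>
    simp only [Expr.val]
    rw [ih (fun r h => hr r h) (fun b h => ha b (by simp [Expr.arrs, h])), ha a (by simp [Expr.arrs])]
  | add x y ihx ihy | sub x y ihx ihy | mul x y ihx ihy | div x y ihx ihy | mod x y ihx ihy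
  | lt x y ihx ihy =>
    simp only [Expr.val]
    rw [ihx (fun r h => hr r (by simp [Expr.regs, h])) (fun b h => ha b (by simp [Expr.arrs, h])),
      ihy (fun r h => hr r (by simp [Expr.regs, h])) (fun b h => ha b (by simp [Expr.arrs, h]))]

/-- For loop. `I i` is the invariant at the loop test with counter `i`. -/
theorem Ok.forL {r N body} (n T : ℕ) (I : ℕ → State → Prop) (hn : n < M) {σ}
    (h0 : I 0 (σ.setReg r 0))
    (hN : ∀ i σ, I i σ → σ.reg r = i → N.val σ = n)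
    (hstep : ∀ i < n, ∀ σ, I i σ → σ.reg r = i →
      Ok M ρ body σ (fun σ' => σ'.reg r = i ∧ I (i + 1) (σ'.setReg r (i + 1))) T) :
    Ok M ρ (forL r N body) σ (fun σ' => I n σ' ∧ σ'.reg r = n) (n * (T + 2) + 2) := by
  refine Ok.seq' (Q := fun σ' => I 0 σ' ∧ σ'.reg r = 0) (S := 1)
    (Ok.set (by simp; omega) (by simpa using h0)) (fun σ₁ h1 =>
      Ok.loopN (fun i σ => I i σ ∧ σ.reg r = i) n (T + 1) ?_ ?_ h1) (by nlinarith)
  · intro i hi σ ⟨hI, hr⟩
    refine ⟨by simp [hN i σ hI hr, hr, hi], Ok.seq (hstep i hi σ hI hr) ?_⟩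
    intro σ' ⟨h2, h3⟩
    exact Ok.set (by simp [h2]; omega) (by simp [h2, h3])
  · intro σ ⟨hI, hr⟩
    simp [hN n σ hI hr, hr]

theorem Ok.fillE {a N e σ} (n : ℕ) (f : ℕ → ℕ) (hN : N.val σ = n) (h1 : 1 ∉ N.regs)
    (h2 : a ∉ N.arrs) (h3 : a ∉ e.arrs) (hn : n < M)
    (hf : ∀ i < n, e.val (σ.setReg 1 i) = f i ∧ f i < M) :
    Ok M ρ (fillE a N e) σ (fun σ' => (∀ i < n, σ'.arr a i = f i) ∧
      (∀ i, n ≤ i → σ'.arr a i = σ.arr a i) ∧ Only [1] [a] σ σ') (3 * n + 2) := by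
  have := Ok.forL (M := M) (ρ := ρ) (r := 1) (N := N) (body := .store a (.reg 1) e) n 1
    (fun i σ' => (∀ j < i, σ'.arr a j = f j) ∧ (∀ j, i ≤ j → σ'.arr a j = σ.arr a j) ∧
      Only [1] [a] σ σ') hn (σ := σ)
    ⟨by simp, by simp, fun r hr => by simp at hr; simp [hr], fun _ _ => rfl, rfl⟩
    (fun i σ' hI _ => by
      rw [← hN]
      exact val_congr N (fun r hr => hI.2.2.1 r (by simp; rintro rfl; exact h1 hr))
        (fun b hb => hI.2.2.2.1 b (by simp; rintro rfl; exact h2 hb)))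
    (fun i hi σ' hI hr => by
      have hv : e.val σ' = f i := by
        rw [← (hf i hi).1]
        refine val_congr e (fun r _ => ?_) (fun b hb => hI.2.2.2.1 b (by simp; rintro rfl; exact h3 hb))
        by_cases h : r = 1
        · simp [h, hr]
        · simp [h, hI.2.2.1 r (by simpa using h)]
      refine Ok.store (by rw [hv]; exact (hf i hi).2) ⟨by simpa using hr, ?_, ?_, ?_, ?_, ?_⟩
      · intro j hj
        by_cases h : j = i
        · simp [h, hr, hv]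
        · simp [h, hr, hI.1 j (by omega)]
      · intro j hj
        have : j ≠ i := by omega
        simp [this, hr, hI.2.1 j (by omega)]
      · intro r h; simp at h; simp [h, hI.2.2.1 r (by simpa using h)]
      · intro b h; simp at h; simp [setArr_arr, h, hI.2.2.2.1 b (by simpa using h)]
      · simpa using hI.2.2.2.2)
  exact this.mono (fun σ' h => h.1) (by omega)

/-- Loop running exactly `k` rounds, round `i` taking at most `T i` steps. -/
theorem Ok.loopS {e p} (I : ℕ → State → Prop) (k : ℕ) (T : ℕ → ℕ)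
    (hstep : ∀ i < k, ∀ σ, I i σ → e.val σ ≠ 0 ∧ Ok M ρ p σ (I (i + 1)) (T i))
    (hend : ∀ σ, I k σ → e.val σ = 0) {σ} (h0 : I 0 σ) :
    Ok M ρ (.loop e p) σ (I k) (∑ i ∈ Finset.range k, (T i + 1) + 1) := by
  have key : ∀ j, j ≤ k → ∀ σ, I (k - j) σ →
      Ok M ρ (.loop e p) σ (I k) (∑ i ∈ Finset.Ico (k - j) k, (T i + 1) + 1) := by
    intro j
    induction j with
    | zero => intro _ σ h; exact ⟨σ, 1, Run.loopF (hend σ (by simpa using h)), by simpa using h, by simp⟩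
    | succ j ih =>
      intro hj σ h
      obtain ⟨he, σ₁, s, h1, h2, h3⟩ := hstep (k - (j + 1)) (by omega) σ h
      have e1 : k - (j + 1) + 1 = k - j := by omega
      rw [e1] at h2
      obtain ⟨σ₂, t, k1, k2, k3⟩ := ih (by omega) σ₁ h2
      refine ⟨σ₂, s + t + 1, Run.loopT he h1 k1, k2, ?_⟩
      rw [Finset.sum_eq_sum_Ico_succ_bot (by omega : k - (j + 1) < k), e1]
      omega
  simpa using key k le_rfl σ (by simpa using h0)

/-- For loop with round dependent time. -/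
theorem Ok.forS {r N body} (n : ℕ) (T : ℕ → ℕ) (I : ℕ → State → Prop) (hn : n < M) {σ}
    (h0 : I 0 (σ.setReg r 0))
    (hN : ∀ i σ, I i σ → σ.reg r = i → N.val σ = n)
    (hstep : ∀ i < n, ∀ σ, I i σ → σ.reg r = i →
      Ok M ρ body σ (fun σ' => σ'.reg r = i ∧ I (i + 1) (σ'.setReg r (i + 1))) (T i)) :
    Ok M ρ (P305.forL r N body) σ (fun σ' => I n σ' ∧ σ'.reg r = n)
      (∑ i ∈ Finset.range n, (T i + 2) + 2) := by
  refine Ok.seq' (Q := fun σ' => I 0 σ' ∧ σ'.reg r = 0) (S := 1)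
    (Ok.set (by simp; omega) (by simpa using h0)) (fun σ₁ h1 =>
      Ok.loopS (fun i σ => I i σ ∧ σ.reg r = i) n (fun i => T i + 1) ?_ ?_ h1) (by simp only [add_assoc, one_add_one_eq_two]; omega)
  · intro i hi σ ⟨hI, hr⟩
    refine ⟨by simp [hN i σ hI hr, hr, hi], Ok.seq (hstep i hi σ hI hr) ?_⟩
    intro σ' ⟨h2, h3⟩
    exact Ok.set (by simp [h2]; omega) (by simp [h2, h3])
  · intro σ ⟨hI, hr⟩
    simp [hN n σ hI hr, hr]

end Vale.Agent.P305
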