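import Vale.Agent.P305.MMLoop

/-! The product routine: chain `Ok.seq'`. View `A` as the collection
`fun _ x y => if h : x < s ∧ y < s then A ⟨x, h.1⟩ ⟨y, h.2⟩ else 0`. -/

namespace Vale.Agent.P305

open Finset

variable {M : ℕ} {ρ : ℕ → Bool} {p : ℕ} [NeZero p] {σ : State}

theorem sq_MM {N R : ℕ} (hR : N * N ≤ R) (e : ℕ) : N ^ e * N ^ e ≤ R ^ e := by
  rw [← mul_pow]
  exact Nat.pow_le_pow_left hR e

theorem sq_le_mmT {N R e : ℕ} (hR : N * N ≤ R) : 100 * (N ^ e * N ^ e) ≤ mmT R e := by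
  have h := sq_MM hR e
  have h2 : 100 * 1 ≤ (10 * R + 100) * (e + 1) := Nat.mul_le_mul (by omega) (by omega)
  exact Nat.mul_le_mul h2 h

omit [NeZero p] in
theorem copy_MM {a x n : ℕ} {E : Expr} (hE : E.val σ = n) (h1 : 1 ∉ E.regs) (h2 : E.arrs = [])
    (hax : a ≠ x) (hn : n < M) (hb : ∀ i < n, σ.arr x i < M) :
    Ok M ρ (fillE a E (.load x (.reg 1))) σ
      (fun σ' => (∀ i < n, σ'.arr a i = σ.arr x i) ∧ Only [1] [a] σ σ') (3 * n + 2) :=
  (Ok.fillE n (σ.arr x) hE h1 (by simp [h2]) (by simpa using hax) hn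
    fun i hi => ⟨by simp, hb i hi⟩).mono (fun _ h => ⟨h.1, h.2.2⟩) le_rfl

theorem idx_MM {s i j : ℕ} (hi : i < s) (hj : j < s) : i * s + j < s * s := by nlinarith

theorem col_lt_MM {s a : ℕ} {X : ℕ → ℕ → ℕ → ZMod p} (h : Col σ a 1 s X) (hpM : p ≤ M) (i : ℕ)
    (hi : i < s * s) : σ.arr a i < M := by
  have hs : 0 < s := Nat.pos_of_mul_pos_left (Nat.zero_lt_of_lt hi)
  have := h 0 one_pos (i / s) (Nat.div_lt_of_lt_mul hi) (i % s) (Nat.mod_lt _ hs)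
  rw [zero_mul, zero_add, Nat.div_add_mod' i s] at this
  exact this ▸ (ZMod.val_lt _).trans_le hpM

/-- A matrix as a collection. -/
def coll_MM {s : ℕ} (A : Matrix (Fin s) (Fin s) (ZMod p)) : ℕ → ℕ → ℕ → ZMod p :=
  fun _ x y => if h : x < s ∧ y < s then A ⟨x, h.1⟩ ⟨y, h.2⟩ else 0

theorem rep_col_MM {s a : ℕ} {A : Matrix (Fin s) (Fin s) (ZMod p)} (h : Rep σ a A) :
    Col σ a 1 s (coll_MM A) := fun g hg x hx y hy => by
  obtain rfl : g = 0 := by omega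
  rw [zero_mul, zero_add, coll_MM, dif_pos ⟨hx, hy⟩]
  exact h ⟨x, hx⟩ ⟨y, hy⟩

theorem col_copy_MM {s a a' : ℕ} {X : ℕ → ℕ → ℕ → ZMod p} {σ' : State} (h : Col σ a 1 s X)
    (h' : ∀ i < s * s, σ'.arr a' i = σ.arr a i) : Col σ' a' 1 s X := fun g hg x hx y hy => by
  obtain rfl : g = 0 := by omega
  rw [← h 0 hg x hx y hy, zero_mul, zero_add]
  exact h' _ (idx_MM hx hy)

theorem col_rep_MM {s a : ℕ} {A B : Matrix (Fin s) (Fin s) (ZMod p)}
    (h : Col σ a 1 s (cprod s (coll_MM A) (coll_MM B))) : Rep σ a (A * B) := fun i j => by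
  have := h 0 one_pos i i.2 j j.2
  rw [zero_mul, zero_add] at this
  rw [this, Matrix.mul_apply, cprod, Finset.sum_range]
  simp [coll_MM]

theorem mm_ok {N R e s x y z sr : ℕ} {a b c : ℕ → ℕ → ℕ → ZMod p} (hN : 2 ≤ N) (hR : N * N ≤ R)
    (hB : BilAlg N R a b c) (hE : MEnv N R a b c σ) (hpM : p ≤ M) (hM : R ^ e < M)
    (hse : s = N ^ e) (hsr : 9 ≤ sr) (hs : σ.reg sr = s) (hx : 14 ≤ x) (hy : 14 ≤ y) (hz : 14 ≤ z)
    {A B : Matrix (Fin s) (Fin s) (ZMod p)} (hA : Rep σ x A) (hB' : Rep σ y B) :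
    Ok M ρ (mm N R x y z sr) σ
      (fun σ' => Rep σ' z (A * B) ∧ Only [1, 2, 3, 6, 7, 8] [11, 12, 13, z] σ σ') (mmT R e) := by
  subst hse
  have hq : N ^ e * N ^ e ≤ R ^ e := sq_MM hR e
  have hs0 : 0 < N ^ e := by positivity
  have hs1 : N ^ e ≤ N ^ e * N ^ e := Nat.le_mul_self _
  have cA := rep_col_MM hA
  have cB := rep_col_MM hB'
  have hsz : ∀ τ : State, τ.reg sr = N ^ e → (Expr.reg sr * Expr.reg sr).val τ = N ^ e * N ^ e :=
    fun τ h => by simp [h]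
  have hrg : 1 ∉ (Expr.reg sr * Expr.reg sr).regs := by simp; omega
  have hnot : sr ∉ [1, 2, 3, 6, 7, 8] := by simp; omega
  refine Ok.mono (T := (3 * (N ^ e * N ^ e) + 2) + ((3 * (N ^ e * N ^ e) + 2) + (1 + (1 +
    ((e * (R ^ e * (6 * R + 18) + 12) + 1) + ((3 * R ^ e + 2) + ((3 * R ^ e + 2) +
    ((e * (R ^ e * (3 * R + 9) + 8) + 1) + (3 * (N ^ e * N ^ e) + 2))))))))) ?_ (fun _ h => h) ?_
  swap
  · have h1 : 1 ≤ R ^ e := by omega
    have h2 : e ≤ e * R ^ e := Nat.le_mul_of_pos_right _ h1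
    unfold mmT
    nlinarith [Nat.zero_le (R * R ^ e), Nat.zero_le (e * R * R ^ e)]
  refine Ok.seq (copy_MM (hsz σ hs) hrg rfl (by omega) (by omega) (col_lt_MM cA hpM))
    fun σ1 ⟨k1, o1⟩ => ?_
  have c1 := col_copy_MM cA k1
  have cB1 := cB.only o1 (by simp; omega)
  have O1 : Only [1, 2, 3, 6, 7, 8] [11, 12, 13] σ σ1 := o1.mono (by simp) (by simp)
  refine Ok.seq (copy_MM (hsz σ1 ((O1.1 sr hnot).trans hs)) hrg rfl (by omega) (by omega)
    (col_lt_MM cB1 hpM)) fun σ2 ⟨k2, o2⟩ => ?_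
  have c2 := col_copy_MM cB1 k2
  have c1' := c1.only o2 (by simp)
  have O2 : Only [1, 2, 3, 6, 7, 8] [11, 12, 13] σ σ2 := O1.trans (o2.mono (by simp) (by simp))
  have r2 : σ2.reg sr = N ^ e := (O2.1 sr hnot).trans hs
  refine Ok.seq (Q := fun τ => τ = σ2.setReg 6 (N ^ e))
    (Ok.set (by simp only [val_reg, r2]; omega) (by simp only [val_reg, r2])) ?_
  rintro _ rfl
  refine Ok.seq (Q := fun τ => τ = (σ2.setReg 6 (N ^ e)).setReg 7 1)
    (Ok.set (by simp only [val_lit]; omega) rfl) ?_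
  rintro _ rfl
  have O4 : Only [1, 2, 3, 6, 7, 8] [11, 12, 13] σ ((σ2.setReg 6 (N ^ e)).setReg 7 1) :=
    O2.trans ⟨fun r hr => by simp at hr; simp [hr], fun _ _ => rfl, rfl⟩
  refine Ok.seq (downLoop_ok hN hR (hE.only O4 (by simp) (by simp) (by simp) (by simp)) hpM hM
    (by simp) (by simp) c1' c2) fun σ5 ⟨r6, r7, d1, d2, o5⟩ => ?_
  have O5 := O4.trans o5
  have p5 : σ5.reg 5 = p := (O5.1 5 (by simp)).trans hE.rp
  have hp0 : 0 < p := Nat.pos_of_ne_zero (NeZero.ne p)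
  refine Ok.seq (Ok.fillE (R ^ e) (fun i => σ5.arr 11 i * σ5.arr 12 i % p) r7 (by simp) (by simp)
    (by simp) hM fun i _ => ⟨by simp [p5], (Nat.mod_lt _ hp0).trans_le hpM⟩)
    fun σ6 ⟨k6, _, o6⟩ => ?_
  refine Ok.seq (copy_MM (n := R ^ e) ((o6.1 7 (by simp)).trans r7) (by simp) rfl (by simp) hM
    fun i hi => by rw [k6 i hi]; exact (Nat.mod_lt _ hp0).trans_le hpM) fun σ7 ⟨k7, o7⟩ => ?_
  have o57 : Only [1] [11, 12, 13] σ5 σ7 :=
    (o6.mono (by simp) (by simp)).trans (o7.mono (by simp) (by simp))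
  have O7 : Only [1, 2, 3, 6, 7, 8] [11, 12, 13] σ σ7 := O5.trans (o57.mono (by simp) (by simp))
  have c7 : Col σ7 11 (R ^ e) 1 (cprod 1 (downs N R e a (coll_MM A) e)
      (downs N R e b (coll_MM B) e)) := fun g hg u hu v hv => by
    obtain rfl : u = 0 := by omega
    obtain rfl : v = 0 := by omega
    have e1 := d1 g hg 0 hu 0 hu
    have e2 := d2 g hg 0 hu 0 hu
    simp only [mul_one, add_zero] at e1 e2 ⊢
    rw [k7 g hg, k6 g hg, e1, e2, cprod, Finset.sum_range_one, ZMod.val_mul]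
  refine Ok.seq (upLoop_ok hN hR hB (hE.only O7 (by simp) (by simp) (by simp) (by simp)) hpM hM
    hsr ((O7.1 sr hnot).trans hs) ((o57.1 6 (by simp)).trans r6) ((o57.1 7 (by simp)).trans r7) c7)
    fun σ8 ⟨c8, o8⟩ => ?_
  have O8 := O7.trans o8
  refine (copy_MM (hsz σ8 ((O8.1 sr hnot).trans hs)) hrg rfl (by omega) (by omega)
    (col_lt_MM c8 hpM)).mono (fun σ9 ⟨k9, o9⟩ => ⟨col_rep_MM (col_copy_MM c8 k9), ?_⟩) le_rfl
  exact (O8.mono (by simp) (by simp)).trans (o9.mono (by simp) (by simp))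

end Vale.Agent.P305
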