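import Vale.Agent.P305.Pure

/-! The stage identity. Unfold; `(h * R + l) % R = l`, `(h * R + l) / R = h`; reindex
`range (N * N)` by pairs and `range (N * k)` by `(j, z)` with `j * k + z`
(`Finset.sum_range` / `Nat.sum_range_mul`-style lemma, prove one: 
`∑ t ∈ range (A * B), f t = ∑ i ∈ range A, ∑ j ∈ range B, f (i * B + j)`), exchange sums and use
`BilAlg` with `i' = x / k`, `k' = y / k`. -/

namespace Vale.Agent.P305

open Finset

theorem sum_range_mul' {F : Type} [AddCommMonoid F] (A B : ℕ) (f : ℕ → F) :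
    ∑ t ∈ range (A * B), f t = ∑ i ∈ range A, ∑ j ∈ range B, f (i * B + j) := by
  induction A with
  | zero => simp
  | succ A ih => rw [Nat.succ_mul, sum_range_add, ih, sum_range_succ]

theorem bil_MMath {F : Type} [CommRing F] {N R : ℕ} {a b c : ℕ → ℕ → ℕ → F} (h : BilAlg N R a b c)
    (P Q : ℕ → ℕ → F) {i₀ k₀ : ℕ} (hi : i₀ < N) (hk : k₀ < N) :
    ∑ l ∈ range R, c l i₀ k₀ * ((∑ i ∈ range N, ∑ j ∈ range N, a l i j * P i j) *
      ∑ j ∈ range N, ∑ k ∈ range N, b l j k * Q j k) = ∑ j ∈ range N, P i₀ j * Q j k₀ := by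
  calc _ = ∑ l ∈ range R, ∑ i ∈ range N, ∑ j ∈ range N, ∑ j' ∈ range N, ∑ k ∈ range N,
        a l i j * b l j' k * c l i₀ k₀ * (P i j * Q j' k) := by
        refine sum_congr rfl fun l _ => ?_
        rw [sum_mul, mul_sum]
        refine sum_congr rfl fun i _ => ?_
        rw [sum_mul, mul_sum]
        refine sum_congr rfl fun j _ => ?_
        rw [mul_sum, mul_sum]
        refine sum_congr rfl fun j' _ => ?_
        rw [mul_sum, mul_sum]
        exact sum_congr rfl fun k _ => by ring
    _ = ∑ i ∈ range N, ∑ j ∈ range N, ∑ j' ∈ range N, ∑ k ∈ range N,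
        (if j = j' ∧ k = k₀ ∧ i = i₀ then 1 else 0) * (P i j * Q j' k) := by
        rw [sum_comm]
        refine sum_congr rfl fun i hi' => ?_
        rw [sum_comm]
        refine sum_congr rfl fun j hj => ?_
        rw [sum_comm]
        refine sum_congr rfl fun j' hj' => ?_
        rw [sum_comm]
        refine sum_congr rfl fun k hk' => ?_
        rw [← sum_mul, h i (mem_range.1 hi') j (mem_range.1 hj) j' (mem_range.1 hj') k
          (mem_range.1 hk') i₀ hi k₀ hk]
    _ = _ := by
        rw [sum_eq_single i₀ (fun i _ hne => by simp [hne])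
          (fun hn => absurd (mem_range.2 hi) hn)]
        refine sum_congr rfl fun j hj => ?_
        rw [sum_eq_single j (fun j' _ hne => by simp [hne.symm]) (fun hn => absurd hj hn),
          sum_eq_single k₀ (fun k _ hne => by simp [hne]) (fun hn => absurd (mem_range.2 hk) hn)]
        simp

theorem down_MMath {F : Type} [CommRing F] (N : ℕ) {R : ℕ} (k : ℕ) (a X : ℕ → ℕ → ℕ → F) (g : ℕ)
    {l : ℕ} (hl : l < R) (x y : ℕ) : down N R k a X (g * R + l) x y =
      ∑ i ∈ range N, ∑ j ∈ range N, a l i j * X g (i * k + x) (j * k + y) := by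
  have e : ∀ {B j : ℕ} (i : ℕ), j < B → (i * B + j) / B = i ∧ (i * B + j) % B = j :=
    fun {B j} i hj => by
      rw [add_comm, Nat.add_mul_div_right _ _ (by omega), Nat.add_mul_mod_self_right,
        Nat.div_eq_of_lt hj, Nat.mod_eq_of_lt hj, zero_add]
      exact ⟨rfl, rfl⟩
  rw [down, sum_range_mul', (e g hl).1, (e g hl).2]
  refine sum_congr rfl fun i _ => sum_congr rfl fun j hj => ?_
  rw [(e i (mem_range.1 hj)).1, (e i (mem_range.1 hj)).2]

theorem up_down {F : Type} [CommRing F] {N R : ℕ} {a b c : ℕ → ℕ → ℕ → F} (h : BilAlg N R a b c)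
    (k : ℕ) (X Y : ℕ → ℕ → ℕ → F) (g x y : ℕ) (hx : x < N * k) (hy : y < N * k) :
    up R k c (cprod k (down N R k a X) (down N R k b Y)) g x y = cprod (N * k) X Y g x y := by
  have h1 : x / k < N := Nat.div_lt_of_lt_mul (mul_comm N k ▸ hx)
  have h2 : y / k < N := Nat.div_lt_of_lt_mul (mul_comm N k ▸ hy)
  calc _ = ∑ l ∈ range R, ∑ z ∈ range k, c l (x / k) (y / k) *
        ((∑ i ∈ range N, ∑ j ∈ range N, a l i j * X g (i * k + x % k) (j * k + z)) *
          ∑ i ∈ range N, ∑ j ∈ range N, b l i j * Y g (i * k + z) (j * k + y % k)) := by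
        refine sum_congr rfl fun l hl => ?_
        rw [cprod, mul_sum]
        refine sum_congr rfl fun z _ => ?_
        rw [down_MMath N k a X g (mem_range.1 hl), down_MMath N k b Y g (mem_range.1 hl)]
    _ = ∑ z ∈ range k, ∑ j ∈ range N, X g x (j * k + z) * Y g (j * k + z) y := by
        rw [sum_comm]
        refine sum_congr rfl fun z _ => ?_
        rw [bil_MMath h (fun i j => X g (i * k + x % k) (j * k + z))
          (fun i j => Y g (i * k + z) (j * k + y % k)) h1 h2, Nat.div_add_mod', Nat.div_add_mod']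
    _ = _ := by rw [cprod, sum_range_mul', sum_comm]

end Vale.Agent.P305
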