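import Vale.Agent.P305.MMStage
import Vale.Agent.P305.MMath

/-! The two loops of `mm`, by `Ok.loopN` with `e` rounds. Down invariant at round `j`:
register 6 is `N^(e-j)`, register 7 is `R^j`, arrays 11, 12 hold `downs … j`, and
`Only [1,2,3,6,7,8] [11,12,13] σ σ'`. Up invariant at round `i`: register 6 is `N^i`, register 7
is `R^(e-i)`, array 11 holds `cprod (N^i) (downs a X (e-i)) (downs b Y (e-i))`; use `up_down`.
Sizes: `R^(j+1) * N^(e-j-1) * N^(e-j-1) ≤ R^e` because `N * N ≤ R`. -/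

namespace Vale.Agent.P305

open Finset

variable {M : ℕ} {ρ : ℕ → Bool} {p : ℕ} [NeZero p] {σ : State}

theorem sz_MMLoop {N R : ℕ} (hR : N * N ≤ R) (i j : ℕ) : R ^ i * N ^ j * N ^ j ≤ R ^ (i + j) := by
  rw [mul_assoc, ← mul_pow, pow_add]
  exact Nat.mul_le_mul_left _ (Nat.pow_le_pow_left hR j)

omit [NeZero p] in
theorem col_MMLoop {τ : State} {a H k : ℕ} {X : ℕ → ℕ → ℕ → ZMod p} (h : Col σ a H k X)
    (e : τ.arr a = σ.arr a) : Col τ a H k X := fun g hg x hx y hy => e ▸ h g hg x hx y hy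

omit [NeZero p] in
theorem tab_MMLoop {τ : State} {a N R : ℕ} {X : ℕ → ℕ → ℕ → ZMod p} (h : Tab σ a N R X)
    (e : τ.arr a = σ.arr a) : Tab τ a N R X := fun g hg x hx y hy => e ▸ h g hg x hx y hy

theorem only_MMLoop {τ : State} {A B : List ℕ} (h : Only A B σ τ) {r : ℕ} (hr : r ∈ A) (v : ℕ) :
    Only A B σ (τ.setReg r v) :=
  ⟨fun r' h' => by
    rw [setReg_reg, if_neg (by rintro rfl; exact h' hr), h.1 r' h'], h.2.1, h.2.2⟩

theorem downLoop_ok {N R e : ℕ} {a b c X Y : ℕ → ℕ → ℕ → ZMod p} (hN : 2 ≤ N) (hR : N * N ≤ R)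
    (hE : MEnv N R a b c σ) (hpM : p ≤ M) (hM : R ^ e < M)
    (h6 : σ.reg 6 = N ^ e) (h7 : σ.reg 7 = 1) (hX : Col σ 11 1 (N ^ e) X) (hY : Col σ 12 1 (N ^ e) Y) :
    Ok M ρ (downLoop N R) σ
      (fun σ' => σ'.reg 6 = 1 ∧ σ'.reg 7 = R ^ e ∧ Col σ' 11 (R ^ e) 1 (downs N R e a X e) ∧
        Col σ' 12 (R ^ e) 1 (downs N R e b Y e) ∧ Only [1, 2, 3, 6, 7, 8] [11, 12, 13] σ σ')
      (e * (R ^ e * (6 * R + 18) + 12) + 1) := by
  have N0 : 0 < N := by omega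
  have NR : N ≤ R := (Nat.le_mul_self N).trans hR
  have R0 : 0 < R := by omega
  refine (Ok.loopN (fun j τ => τ.reg 6 = N ^ (e - j) ∧ τ.reg 7 = R ^ j ∧
    Col τ 11 (R ^ j) (N ^ (e - j)) (downs N R e a X j) ∧
    Col τ 12 (R ^ j) (N ^ (e - j)) (downs N R e b Y j) ∧
    Only [1, 2, 3, 6, 7, 8] [11, 12, 13] σ τ) e (R ^ e * (6 * R + 18) + 11) ?_ ?_
    ⟨h6, h7, hX, hY, Only.refl _ _ _⟩).mono (fun τ h => by simpa using h) le_rfl
  · rintro j hj τ ⟨r6, r7, c1, c2, ho⟩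
    have ek : N ^ (e - j) = N * N ^ (e - (j + 1)) := by
      rw [← pow_succ', show e - (j + 1) + 1 = e - j by omega]
    have s1 : R ^ j * R * N ^ (e - (j + 1)) * N ^ (e - (j + 1)) ≤ R ^ e := by
      have := sz_MMLoop hR (j + 1) (e - (j + 1))
      rwa [show j + 1 + (e - (j + 1)) = e by omega, pow_succ] at this
    have s2 : N * N < M := (hR.trans (Nat.le_self_pow (by omega) R)).trans_lt hM
    have s3 : N ^ (e - (j + 1)) < M := ((Nat.pow_le_pow_left NR _).trans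
      (Nat.pow_le_pow_right R0 (Nat.sub_le _ _))).trans_lt hM
    have s4 : R ^ (j + 1) < M := (Nat.pow_le_pow_right R0 hj).trans_lt hM
    have s5 : R ^ j * R * N ^ (e - (j + 1)) * N ^ (e - (j + 1)) * (3 * (N * N) + 9) ≤
        R ^ e * (3 * R + 9) := Nat.mul_le_mul s1 (by omega)
    have v8 : (Expr.reg 6 / Expr.lit N).val τ = N ^ (e - (j + 1)) := by
      simp [r6, ek, Nat.mul_div_cancel_left _ N0]
    rw [ek] at r6 c1 c2
    refine ⟨by
      have : 1 < N * N ^ (e - (j + 1)) := ek ▸ Nat.one_lt_pow (by omega) (by omega)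
      simp [r6, this], ?_⟩
    refine Ok.seq' (Q := fun τ₁ => τ₁ = τ.setReg 8 (N ^ (e - (j + 1))))
      (T := R ^ e * (6 * R + 18) + 10) (Ok.set (v8 ▸ s3) (by rw [v8])) ?_ (by omega)
    rintro _ rfl
    have rp : τ.reg 5 = p := (ho.1 5 (by simp)).trans hE.rp
    refine Ok.seq' (T := R ^ e * (3 * R + 9) + 6) (downP_ok (H := R ^ j) (by simpa using rp) hpM
      (by simpa using r6) (by simpa using r7) (by simp)
      (tab_MMLoop hE.ta (ho.2.1 6 (by simp))) (col_MMLoop c1 rfl) (by omega) (by omega)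
      (s1.trans_lt hM) s2) ?_ (by linarith)
    rintro τ₂ ⟨d1, o2⟩
    have q : ∀ r, r ∉ [1, 2, 3] → τ₂.reg r = (τ.setReg 8 (N ^ (e - (j + 1)))).reg r := o2.1
    refine Ok.seq' (T := 2) (downP_ok (H := R ^ j) (by simpa [q] using rp) hpM
      (by simpa [q] using r6) (by simpa [q] using r7) (by simp [q])
      (tab_MMLoop hE.tb ((o2.2.1 7 (by simp)).trans (ho.2.1 7 (by simp))))
      (col_MMLoop c2 (o2.2.1 12 (by simp))) (by omega) (by omega)
      (s1.trans_lt hM) s2) ?_ (by linarith)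
    rintro τ₃ ⟨d2, o3⟩
    have v7 : (Expr.reg 7 * Expr.lit R).val τ₃ = R ^ (j + 1) := by
      simp [o3.1 7 (by simp), q, r7, pow_succ]
    have w8 : τ₃.reg 8 = N ^ (e - (j + 1)) := by simp [o3.1 8 (by simp), q]
    refine Ok.seq' (Q := fun τ₁ => τ₁ = τ₃.setReg 7 (R ^ (j + 1))) (T := 1)
      (Ok.set (v7 ▸ s4) (by rw [v7])) ?_ le_rfl
    rintro _ rfl
    refine Ok.set (by simpa [w8] using s3) ⟨by simp [w8], by simp,
      col_MMLoop (pow_succ R j ▸ d1) (o3.2.1 11 (by simp)), col_MMLoop (pow_succ R j ▸ d2) rfl,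
      only_MMLoop (only_MMLoop (((only_MMLoop ho (by simp) _).trans
        (o2.mono (by simp) (by simp))).trans (o3.mono (by simp) (by simp))) (by simp) _) (by simp) _⟩
  · rintro τ ⟨r6, -⟩
    simp [r6]

theorem upLoop_ok {N R e sr : ℕ} {a b c X Y : ℕ → ℕ → ℕ → ZMod p} (hN : 2 ≤ N) (hR : N * N ≤ R)
    (hB : BilAlg N R a b c) (hE : MEnv N R a b c σ) (hpM : p ≤ M) (hM : R ^ e < M)
    (hsr : 9 ≤ sr) (hs : σ.reg sr = N ^ e) (h6 : σ.reg 6 = 1) (h7 : σ.reg 7 = R ^ e)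
    (hZ : Col σ 11 (R ^ e) 1 (cprod 1 (downs N R e a X e) (downs N R e b Y e))) :
    Ok M ρ (upLoop N R sr) σ
      (fun σ' => Col σ' 11 1 (N ^ e) (cprod (N ^ e) X Y) ∧
        Only [1, 2, 3, 6, 7, 8] [11, 12, 13] σ σ')
      (e * (R ^ e * (3 * R + 9) + 8) + 1) := by
  have N0 : 0 < N := by omega
  have NR : N ≤ R := (Nat.le_mul_self N).trans hR
  have R0 : 0 < R := by omega
  have hsr' : sr ∉ [1, 2, 3, 6, 7, 8] := by
    simp only [List.mem_cons, List.not_mem_nil, or_false]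
    omega
  refine (Ok.loopN (fun i τ => τ.reg 6 = N ^ i ∧ τ.reg 7 = R ^ (e - i) ∧
    Col τ 11 (R ^ (e - i)) (N ^ i)
      (cprod (N ^ i) (downs N R e a X (e - i)) (downs N R e b Y (e - i))) ∧
    Only [1, 2, 3, 6, 7, 8] [11, 12, 13] σ τ) e (R ^ e * (3 * R + 9) + 7) ?_ ?_
    ⟨h6, h7, hZ, Only.refl _ _ _⟩).mono (fun τ h => ⟨by simpa [downs] using h.2.2.1, h.2.2.2⟩) le_rfl
  · rintro i hi τ ⟨r6, r7, c1, ho⟩
    have e1 : e - i = e - (i + 1) + 1 := by omega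
    have e2 : e - (e - (i + 1) + 1) = i := by omega
    have s1 : R ^ (e - (i + 1)) * (N * N ^ i) * (N * N ^ i) ≤ R ^ e := by
      have := sz_MMLoop hR (e - (i + 1)) (i + 1)
      rwa [show e - (i + 1) + (i + 1) = e by omega, pow_succ'] at this
    have s2 : R < M := (Nat.le_self_pow (by omega) R).trans_lt hM
    have s3 : ∀ j ≤ e, N ^ j < M := fun j hj => ((Nat.pow_le_pow_left NR _).trans
      (Nat.pow_le_pow_right R0 hj)).trans_lt hM
    have s4 : R ^ (e - (i + 1)) < M := (Nat.pow_le_pow_right R0 (Nat.sub_le _ _)).trans_lt hM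
    rw [e1, pow_succ] at r7 c1
    rw [downs, downs, e2] at c1
    refine ⟨by simp [r6, ho.1 sr hsr', hs, Nat.pow_lt_pow_right (by omega : 1 < N) hi], ?_⟩
    refine Ok.seq' (Q := fun τ₁ => τ₁ = τ.setReg 8 (N ^ i)) (T := R ^ e * (3 * R + 9) + 6)
      (Ok.set (by simpa [r6] using s3 i hi.le) (by simp [r6])) ?_ (by omega)
    rintro _ rfl
    refine Ok.seq' (Q := fun τ₁ => τ₁ = (τ.setReg 8 (N ^ i)).setReg 6 (N * N ^ i))
      (T := R ^ e * (3 * R + 9) + 5)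
      (Ok.set (by simpa [r6, pow_succ] using s3 (i + 1) hi) (by simp [r6, mul_comm])) ?_ (by omega)
    rintro _ rfl
    refine Ok.seq' (Q := fun τ₁ => τ₁ =
      ((τ.setReg 8 (N ^ i)).setReg 6 (N * N ^ i)).setReg 7 (R ^ (e - (i + 1))))
      (T := R ^ e * (3 * R + 9) + 4)
      (Ok.set (by simpa [r7, Nat.mul_div_cancel _ R0] using s4)
        (by simp [r7, Nat.mul_div_cancel _ R0])) ?_ (by omega)
    rintro _ rfl
    have rp : τ.reg 5 = p := (ho.1 5 (by simp)).trans hE.rp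
    refine (upP_ok (σ := ((τ.setReg 8 (N ^ i)).setReg 6 (N * N ^ i)).setReg 7 (R ^ (e - (i + 1))))
      (H := R ^ (e - (i + 1))) (k := N ^ i) (by simpa using rp) hpM (by simp)
      (by simp) (by simp) (tab_MMLoop hE.tc (ho.2.1 8 (by simp))) (col_MMLoop c1 rfl)
      (s1.trans_lt hM) s2).mono ?_ (Nat.add_le_add_right (Nat.mul_le_mul_right _ s1) 4)
    rintro τ₂ ⟨d1, o2⟩
    refine ⟨by simp [o2.1 6 (by simp), pow_succ'], by simp [o2.1 7 (by simp)], ?_,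
      (only_MMLoop (only_MMLoop (only_MMLoop ho (by simp) _) (by simp) _) (by simp) _).trans
        (o2.mono (by simp) (by simp))⟩
    rw [pow_succ']
    intro g hg x hx y hy
    rw [d1 g hg x hx y hy, up_down hB _ _ _ g x y hx hy]
  · rintro τ ⟨r6, -, -, ho⟩
    simp [r6, ho.1 sr hsr', hs]

end Vale.Agent.P305
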