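import Vale.Agent.P305.Logic

/-! From `Run` to `Exec`, and the rule for `fillS`. `val_lt_pow`: induction on `e`
(`Nat.pow_le_pow_right`, `pow_add`; `a + b < M^s + M^t ≤ M^(s+t+1)`). `Run.exec`: induction on
the run; `setReg`, `setArr` unfold to the states in `Exec`. For `Ok.fillS` imitate `Ok.fillE`
in Logic.lean with two nested `Ok.forL`; the accumulator after `j` rounds is
`(∑ t ∈ range j, g i t) % p` (`Nat.mod_add_mod`). -/

namespace Vale.Agent.P305

open Finset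

variable {M : ℕ} {ρ : ℕ → Bool}

theorem key_Xfer (hM : 2 ≤ M) {a b s t : ℕ} (ha : a < M ^ s) (hb : b < M ^ t) :
    a + b < M ^ (s + t + 1) ∧ a * b < M ^ (s + t + 1) ∧ 1 < M ^ (s + t + 1) := by
  rw [pow_succ, pow_add]
  obtain ⟨u, hu⟩ := Nat.exists_eq_add_of_lt ha
  obtain ⟨v, hv⟩ := Nat.exists_eq_add_of_lt hb
  have h := Nat.mul_le_mul_left ((a + u + 1) * (b + v + 1)) hM
  rw [hu, hv]
  refine ⟨lt_of_lt_of_le ?_ h, lt_of_lt_of_le ?_ h, lt_of_lt_of_le ?_ h⟩ <;>
    nlinarith [Nat.zero_le (a * b), Nat.zero_le (a * v), Nat.zero_le (u * b), Nat.zero_le (u * v)]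

theorem le_Xfer (hM : 2 ≤ M) {s t B : ℕ} (h : s ≤ t) (hB : M ^ t ≤ B) : M ^ s ≤ B :=
  (Nat.pow_le_pow_right (by omega) h).trans hB

theorem val_lt_pow (hM : 2 ≤ M) {σ : State} (hσ : Bnd M σ) (e : Expr) (he : e.maxLit < M) :
    e.val σ < M ^ e.size := by
  induction e with
  | lit c => simpa [Expr.size, Expr.maxLit] using he
  | reg r => simpa [Expr.size] using hσ.1 r
  | load a i _ => exact (hσ.2 _ _).trans_le (Nat.le_self_pow (Nat.succ_ne_zero _) M)
  | add x y ihx ihy => exact (key_Xfer hM (ihx (max_lt_iff.1 he).1) (ihy (max_lt_iff.1 he).2)).1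
  | mul x y ihx ihy => exact (key_Xfer hM (ihx (max_lt_iff.1 he).1) (ihy (max_lt_iff.1 he).2)).2.1
  | sub x y ihx ihy =>
    exact ((Nat.sub_le _ _).trans (Nat.le_add_right _ _)).trans_lt
      (key_Xfer hM (ihx (max_lt_iff.1 he).1) (ihy (max_lt_iff.1 he).2)).1
  | div x y ihx ihy =>
    exact ((Nat.div_le_self _ _).trans (Nat.le_add_right _ _)).trans_lt
      (key_Xfer hM (ihx (max_lt_iff.1 he).1) (ihy (max_lt_iff.1 he).2)).1
  | mod x y ihx ihy =>
    exact ((Nat.mod_le _ _).trans (Nat.le_add_right _ _)).trans_lt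
      (key_Xfer hM (ihx (max_lt_iff.1 he).1) (ihy (max_lt_iff.1 he).2)).1
  | lt x y ihx ihy =>
    refine lt_of_le_of_lt ?_ (key_Xfer hM (ihx (max_lt_iff.1 he).1) (ihy (max_lt_iff.1 he).2)).2.2
    simp only [Expr.val]
    split_ifs <;> omega

theorem fits_of_bnd (hM : 2 ≤ M) {σ : State} (hσ : Bnd M σ) (e : Expr) (he : e.maxLit < M)
    {B : ℕ} (hB : M ^ e.size ≤ B) : e.Fits B σ := by
  have v := (val_lt_pow hM hσ e he).trans_le hB
  induction e with
  | lit c => exact v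
  | reg r => exact v
  | load a i ih =>
    have b := le_Xfer hM (Nat.le_succ i.size) hB
    exact ⟨ih he b ((val_lt_pow hM hσ i he).trans_le b), v⟩
  | add x y ihx ihy | sub x y ihx ihy | mul x y ihx ihy | div x y ihx ihy | mod x y ihx ihy
  | lt x y ihx ihy =>
    obtain ⟨e1, e2⟩ := max_lt_iff.1 he
    have b1 := le_Xfer hM (show x.size ≤ x.size + y.size + 1 by omega) hB
    have b2 := le_Xfer hM (show y.size ≤ x.size + y.size + 1 by omega) hB
    have c1 := ihx e1 b1 ((val_lt_pow hM hσ x e1).trans_le b1)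
    have c2 := ihy e2 b2 ((val_lt_pow hM hσ y e2).trans_le b2)
    first | exact ⟨c1, c2, v⟩ | exact ⟨c1, c2⟩

theorem Run.exec (hM : 2 ≤ M) {p σ σ' t} (h : Run M ρ p σ σ' t) (hσ : Bnd M σ)
    (hp : p.maxLit < M) {B : ℕ} (hB : M ^ p.esize ≤ B) : Exec B ρ p σ σ' t ∧ Bnd M σ' := by
  induction h with
  | set h =>
    refine ⟨Exec.set (fits_of_bnd hM hσ _ hp hB), fun r => ?_, hσ.2⟩
    rw [setReg_reg]
    split_ifs
    exacts [h, hσ.1 r]
  | store h =>
    obtain ⟨e1, e2⟩ := max_lt_iff.1 hp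
    refine ⟨Exec.store (fits_of_bnd hM hσ _ e1 (le_Xfer hM (le_max_left _ _) hB))
      (fits_of_bnd hM hσ _ e2 (le_Xfer hM (le_max_right _ _) hB)), hσ.1, fun a i => ?_⟩
    rw [setArr_arr_apply]
    split_ifs
    exacts [h, hσ.2 a i]
  | coin =>
    refine ⟨Exec.coin, fun r => ?_, hσ.2⟩
    have := hσ.1 r
    simp only [Function.update_apply]
    split_ifs <;> omega
  | seq _ _ ih1 ih2 =>
    obtain ⟨e1, e2⟩ := max_lt_iff.1 hp
    obtain ⟨a, b⟩ := ih1 hσ e1 (le_Xfer hM (le_max_left _ _) hB)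
    obtain ⟨c, d⟩ := ih2 b e2 (le_Xfer hM (le_max_right _ _) hB)
    exact ⟨a.seq c, d⟩
  | iteT he _ ih =>
    obtain ⟨e1, e2⟩ := max_lt_iff.1 hp
    obtain ⟨a, b⟩ := ih hσ (max_lt_iff.1 e2).1
      (le_Xfer hM ((le_max_left _ _).trans (le_max_right _ _)) hB)
    exact ⟨Exec.iteT (fits_of_bnd hM hσ _ e1 (le_Xfer hM (le_max_left _ _) hB)) he a, b⟩
  | iteF he _ ih =>
    obtain ⟨e1, e2⟩ := max_lt_iff.1 hp
    obtain ⟨a, b⟩ := ih hσ (max_lt_iff.1 e2).2
      (le_Xfer hM ((le_max_right _ _).trans (le_max_right _ _)) hB)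
    exact ⟨Exec.iteF (fits_of_bnd hM hσ _ e1 (le_Xfer hM (le_max_left _ _) hB)) he a, b⟩
  | loopF he =>
    exact ⟨Exec.loopF (fits_of_bnd hM hσ _ (max_lt_iff.1 hp).1
      (le_Xfer hM (le_max_left _ _) hB)) he, hσ⟩
  | loopT he _ _ ih1 ih2 =>
    obtain ⟨e1, e2⟩ := max_lt_iff.1 hp
    obtain ⟨a, b⟩ := ih1 hσ e2 (le_Xfer hM (le_max_right _ _) hB)
    obtain ⟨c, d⟩ := ih2 b hp hB
    exact ⟨Exec.loopT (fits_of_bnd hM hσ _ e1 (le_Xfer hM (le_max_left _ _) hB)) he a c, d⟩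

theorem Ok.fillS {a N J e σ} (n k p : ℕ) (g : ℕ → ℕ → ℕ) (hN : N.val σ = n) (hJ : J.val σ = k)
    (hp : σ.reg 5 = p) (hp0 : 0 < p) (hpM : p ≤ M) (hn : n < M) (hk : k < M)
    (h1 : ∀ r ∈ N.regs, r ≠ 1 ∧ r ≠ 2 ∧ r ≠ 3) (h2 : ∀ r ∈ J.regs, r ≠ 1 ∧ r ≠ 2 ∧ r ≠ 3)
    (h3 : 3 ∉ e.regs) (h4 : a ∉ N.arrs) (h5 : a ∉ J.arrs) (h6 : a ∉ e.arrs)
    (hg : ∀ i < n, ∀ j < k, e.val ((σ.setReg 1 i).setReg 2 j) = g i j) :
    Ok M ρ (fillS a N J e) σ (fun σ' => (∀ i < n, σ'.arr a i = (∑ j ∈ range k, g i j) % p) ∧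
      (∀ i, n ≤ i → σ'.arr a i = σ.arr a i) ∧ Only [1, 2, 3] [a] σ σ') (n * (3 * k + 6) + 2) := by
  have := Ok.forL (M := M) (ρ := ρ) (r := 1) (N := N) (body := .seq (.set 3 (.lit 0))
      (.seq (P305.forL 2 J (.set 3 ((.reg 3 + e) % .reg 5))) (.store a (.reg 1) (.reg 3))))
    n (3 * k + 4) (fun i σ' => (∀ j < i, σ'.arr a j = (∑ t ∈ range k, g j t) % p) ∧
      (∀ j, i ≤ j → σ'.arr a j = σ.arr a j) ∧ Only [1, 2, 3] [a] σ σ') hn (σ := σ)
    ⟨by simp, by simp, fun r hr => by simp at hr; simp [hr], fun _ _ => rfl, rfl⟩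
    (fun i σ' hI _ => by
      rw [← hN]
      exact val_congr N (fun r hr => hI.2.2.1 r (by simpa using h1 r hr))
        (fun b hb => hI.2.2.2.1 b (by simp; rintro rfl; exact h4 hb)))
    (fun i hi σ' hI hr => by
      have o : ∀ τ, Only [2, 3] [] σ' τ → Only [1, 2, 3] [a] σ τ := fun τ h =>
        hI.2.2.trans (h.mono (by simp) (by simp))
      have inner := Ok.forL (M := M) (ρ := ρ) (r := 2) (N := J)
        (body := .set 3 ((.reg 3 + e) % .reg 5)) k 1
        (fun j τ => τ.reg 3 = (∑ t ∈ range j, g i t) % p ∧ Only [2, 3] [] σ' τ) hk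
        (σ := σ'.setReg 3 0)
        ⟨by simp, fun r hr => by simp at hr; simp [hr], fun _ _ => rfl, rfl⟩
        (fun j τ hτ _ => by
          rw [← hJ]
          exact val_congr J (fun r hr => (o τ hτ.2).1 r (by simpa using h2 r hr))
            (fun b hb => (o τ hτ.2).2.1 b (by simp; rintro rfl; exact h5 hb)))
        (fun j hj τ hτ hr2 => by
          have hv : e.val τ = g i j := by
            rw [← hg i hi j hj]
            refine val_congr e (fun r hr3 => ?_)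
              (fun b hb => (o τ hτ.2).2.1 b (by simp; rintro rfl; exact h6 hb))
            by_cases q2 : r = 2
            · simp [q2, hr2]
            by_cases q1 : r = 1
            · simp [q1, hτ.2.1 1 (by simp), hr]
            have q3 : r ≠ 3 := fun q => h3 (q ▸ hr3)
            simp [q1, q2, (o τ hτ.2).1 r (by simp [q1, q2, q3])]
          have h5' : τ.reg 5 = p := by rw [(o τ hτ.2).1 5 (by simp), hp]
          have w : ((Expr.reg 3 + e) % Expr.reg 5).val τ = (∑ t ∈ range (j + 1), g i t) % p := by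
            rw [val_mod, val_add, val_reg, val_reg, hv, h5', hτ.1, sum_range_succ, Nat.mod_add_mod]
          refine Ok.set (by rw [w]; exact (Nat.mod_lt _ hp0).trans_le hpM)
            ⟨by simpa using hr2, by rw [w]; simp, fun r h => ?_, fun b h => hτ.2.2.1 b h, hτ.2.2.2⟩
          have h' := hτ.2.1 r h
          simp at h
          simp [h, h'])
      refine Ok.seq' (Q := fun τ => τ = σ'.setReg 3 0) (T := k * (1 + 2) + 2 + 1)
        (Ok.set (by simp; omega) rfl) (fun τ hτ => ?_) (by omega)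
      subst hτ
      refine inner.seq fun τ' h' => ?_
      have r1 : τ'.reg 1 = i := by rw [h'.1.2.1 1 (by simp), hr]
      have ea : τ'.arr a = σ'.arr a := h'.1.2.2.1 a (by simp)
      have ot := o τ' h'.1.2
      refine Ok.store (by rw [val_reg, h'.1.1]; exact (Nat.mod_lt _ hp0).trans_le hpM)
        ⟨by simpa using r1, ?_, ?_, ?_, ?_, ?_⟩
      · intro j hj
        by_cases h : j = i
        · simp [h, r1, h'.1.1]
        · simp [h, r1, ea, hI.1 j (by omega)]
      · intro j hj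
        have : j ≠ i := by omega
        simp [this, r1, ea, hI.2.1 j (by omega)]
      · intro r h
        have h' := ot.1 r h
        simp at h
        simp [h, h']
      · intro b h
        have h' := ot.2.1 b h
        simp at h
        simp [setArr_arr, h, h']
      · simpa using ot.2.2)
  exact this.mono (fun σ' h => h.1) le_rfl

end Vale.Agent.P305
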