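import Vale.Agent.P305.Code
import Vale.Agent.P305.Xfer

/-! One down stage and one up stage. Use `Ok.seq'` with `Ok.fillS` (take `g i j` to be the value of
the expression in `σ`) and `Ok.fillE`. For the cell `i = (h * k + x) * k + y` compute `i % k = y`,
`i / k % k = x`, `i / k / k = h`. Useful lemma: for `[NeZero p]`, if `(g j : ZMod p) = f j` for all
`j < J` then `(∑ j ∈ range J, g j) % p = (∑ j ∈ range J, f j).val` (`ZMod.val_natCast`,
`Nat.cast_sum`, `ZMod.natCast_zmod_val`). Side goals on `regs`, `arrs` close by `simp`. -/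

namespace Vale.Agent.P305

open Finset

variable {M : ℕ} {ρ : ℕ → Bool} {p : ℕ} [NeZero p] {σ : State}

theorem both_MMStage {src : ℕ} {N J e : Expr} (n k : ℕ) (g : ℕ → ℕ → ℕ) (hN : N.val σ = n)
    (hJ : J.val σ = k) (hp : σ.reg 5 = p) (hpM : p ≤ M) (hn : n < M) (hk : k < M)
    (h1 : ∀ r ∈ N.regs, r ≠ 1 ∧ r ≠ 2 ∧ r ≠ 3) (h2 : J.regs = []) (h3 : 3 ∉ e.regs)
    (h4 : N.arrs = []) (h5 : J.arrs = []) (h6 : 13 ∉ e.arrs) (hs : src ≠ 13)
    (hg : ∀ i < n, ∀ j < k, e.val ((σ.setReg 1 i).setReg 2 j) = g i j) :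
    Ok M ρ (.seq (fillS 13 N J e) (fillE src N (.load 13 (.reg 1)))) σ
      (fun σ' => (∀ i < n, σ'.arr src i = (∑ j ∈ range k, g i j) % p) ∧
        Only [1, 2, 3] [13, src] σ σ') (n * (3 * k + 9) + 4) := by
  have hp0 : 0 < p := Nat.pos_of_ne_zero (NeZero.ne p)
  refine Ok.seq' (T := 3 * n + 2) (Ok.fillS n k p g hN hJ hp hp0 hpM hn hk h1 (by simp [h2]) h3
    (by simp [h4]) (by simp [h5]) h6 hg) (fun σ₁ h => ?_) (le_of_eq (by ring))
  refine (Ok.fillE n (fun i => (∑ j ∈ range k, g i j) % p) ?_ (fun h' => (h1 1 h').1 rfl)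
    (by simp [h4]) (by simpa using hs) hn fun i hi => ⟨?_, ?_⟩).mono (fun σ₂ h' => ⟨h'.1, ?_⟩) le_rfl
  · rw [← hN]
    exact val_congr N (fun r hr => h.2.2.1 r (by simpa using h1 r hr)) (by simp [h4])
  · simpa using h.1 i hi
  · exact (Nat.mod_lt _ hp0).trans_le hpM
  · exact (h.2.2.mono (by simp) (by simp)).trans (h'.2.2.mono (by simp) (by simp))

theorem sum_MMStage {k : ℕ} {g : ℕ → ℕ} {f f' : ℕ → ZMod p}
    (h : ∀ j < k, g j = (f j).val * (f' j).val) :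
    (∑ j ∈ range k, g j) % p = (∑ j ∈ range k, f j * f' j).val := by
  rw [← ZMod.val_natCast, Nat.cast_sum]
  refine congrArg ZMod.val (sum_congr rfl fun j hj => ?_)
  rw [h j (mem_range.1 hj), Nat.cast_mul, ZMod.natCast_zmod_val, ZMod.natCast_zmod_val]

theorem lt_MMStage {a b A B : ℕ} (ha : a < A) (hb : b < B) : a * B + b < A * B := by
  have := Nat.mul_le_mul_right B (Nat.succ_le_of_lt ha)
  rw [Nat.succ_mul] at this
  omega

theorem div_MMStage {a b B : ℕ} (hb : b < B) : (a * B + b) / B = a := by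
  rw [add_comm, Nat.add_mul_div_right _ _ (Nat.zero_lt_of_lt hb), Nat.div_eq_of_lt hb, zero_add]

theorem mod_MMStage {a b B : ℕ} (hb : b < B) : (a * B + b) % B = b := by
  rw [add_comm, Nat.add_mul_mod_self_right, Nat.mod_eq_of_lt hb]

theorem downP_ok {N R tab src H k : ℕ} {a X : ℕ → ℕ → ℕ → ZMod p} (hp : σ.reg 5 = p) (hpM : p ≤ M)
    (h6 : σ.reg 6 = N * k) (h7 : σ.reg 7 = H) (h8 : σ.reg 8 = k)
    (ht : Tab σ tab N R a) (hX : Col σ src H (N * k) X) (htab : tab ≠ 13) (hsrc : src ≠ 13)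
    (hM : H * R * k * k < M) (hM' : N * N < M) :
    Ok M ρ (downP N R tab src) σ
      (fun σ' => Col σ' src (H * R) k (down N R k a X) ∧ Only [1, 2, 3] [13, src] σ σ')
      (H * R * k * k * (3 * (N * N) + 9) + 4) := by
  refine (both_MMStage (H * R * k * k) (N * N)
    (fun i j => σ.arr tab (i / k / k % R * (N * N) + j) *
      σ.arr src ((i / k / k / R * (N * k) + (j / N * k + i / k % k)) * (N * k) +
        (j % N * k + i % k)))
    (by simp [h7, h8]) rfl hp hpM hM hM' (by simp) rfl (by simp) rfl rfl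
    (by simp [htab.symm, hsrc.symm]) hsrc fun i _ j _ => by simp [h6, h8]).mono
    (fun σ' h' => ⟨fun h hh x hx y hy => ?_, h'.2⟩) le_rfl
  rw [h'.1 _ (lt_MMStage (lt_MMStage hh hx) hy), down]
  refine sum_MMStage fun j hj => ?_
  have hR : 0 < R := Nat.pos_of_mul_pos_left (Nat.zero_lt_of_lt hh)
  have hN : 0 < N := Nat.pos_of_mul_pos_left (Nat.zero_lt_of_lt hj)
  have j1 : j / N < N := Nat.div_lt_of_lt_mul hj
  have j2 : j % N < N := Nat.mod_lt _ hN
  rw [div_MMStage hy, mod_MMStage hy, div_MMStage hx, mod_MMStage hx,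
    hX _ (Nat.div_lt_of_lt_mul (by rwa [mul_comm])) _ (lt_MMStage j1 hx) _ (lt_MMStage j2 hy),
    ← ht _ (Nat.mod_lt _ hR) _ j1 _ j2, Nat.div_add_mod']

theorem upP_ok {N R H k : ℕ} {c Z : ℕ → ℕ → ℕ → ZMod p} (hp : σ.reg 5 = p) (hpM : p ≤ M)
    (h6 : σ.reg 6 = N * k) (h7 : σ.reg 7 = H) (h8 : σ.reg 8 = k)
    (ht : Tab σ 8 N R c) (hZ : Col σ 11 (H * R) k Z)
    (hM : H * (N * k) * (N * k) < M) (hM' : R < M) :
    Ok M ρ (upP N R) σ
      (fun σ' => Col σ' 11 H (N * k) (up R k c Z) ∧ Only [1, 2, 3] [13, 11] σ σ')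
      (H * (N * k) * (N * k) * (3 * R + 9) + 4) := by
  refine (both_MMStage (H * (N * k) * (N * k)) R
    (fun i j => σ.arr 8 (j * (N * N) + (i / (N * k) % (N * k) / k * N + i % (N * k) / k)) *
      σ.arr 11 (((i / (N * k) / (N * k) * R + j) * k + i / (N * k) % (N * k) % k) * k +
        i % (N * k) % k))
    (by simp [h6, h7]) rfl hp hpM hM hM' (by simp) rfl (by simp) rfl rfl
    (by simp) (by simp) fun i _ j _ => by simp [h6, h8]).mono
    (fun σ' h' => ⟨fun h hh x hx y hy => ?_, h'.2⟩) le_rfl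
  rw [h'.1 _ (lt_MMStage (lt_MMStage hh hx) hy), up]
  refine sum_MMStage fun j hj => ?_
  have hk : 0 < k := Nat.pos_of_mul_pos_left (Nat.zero_lt_of_lt hx)
  rw [div_MMStage hy, mod_MMStage hy, div_MMStage hx, mod_MMStage hx,
    hZ _ (lt_MMStage hh hj) _ (Nat.mod_lt _ hk) _ (Nat.mod_lt _ hk),
    ht _ hj _ (Nat.div_lt_of_lt_mul (by rwa [mul_comm])) _
      (Nat.div_lt_of_lt_mul (by rwa [mul_comm]))]

end Vale.Agent.P305
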