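import Vale.Agent.P305.Pure

/-! Matchings as involutions. -/

namespace Vale.Agent.P305

open Finset

variable {m : ℕ} {Γ : SimpleGraph (Fin m)} {μ μ' : Fin m → Fin m}

theorem mem_cov {v : Fin m} : v ∈ cov μ ↔ μ v ≠ v := by
  simp [cov]

theorem Mt.nil (Γ : SimpleGraph (Fin m)) : Mt Γ (fun v => v) ∧ cov (fun v : Fin m => v) = ∅ := by
  exact ⟨⟨fun _ => rfl, fun _ h => absurd rfl h⟩, by simp [cov]⟩

theorem Mt.mate_mem (h : Mt Γ μ) {v : Fin m} (hv : v ∈ cov μ) : μ v ∈ cov μ := by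
  rw [mem_cov] at hv ⊢
  rw [h.1]
  exact hv.symm

theorem Mt.low {n : ℕ} (hΓ : Low n Γ) (h : Mt Γ μ) {v : Fin m} (hv : v ∈ cov μ) : v.val < n := by
  exact hΓ _ _ (h.2 v (mem_cov.1 hv))

theorem Mt.card_le {n : ℕ} (hΓ : Low n Γ) (h : Mt Γ μ) : (cov μ).card ≤ n := by
  have h1 : (cov μ).card ≤ (range n).card :=
    card_le_card_of_injOn (fun v => v.val) (fun v hv => mem_coe.2 (mem_range.2 (h.low hΓ hv)))
      fun _ _ _ _ e => Fin.ext e
  rwa [card_range] at h1

theorem Mt.add (h : Mt Γ μ) {u v : Fin m} (huv : Γ.Adj u v) (hu : u ∉ cov μ) (hv : v ∉ cov μ) :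
    ∃ μ', Mt Γ μ' ∧ cov μ' = cov μ ∪ {u, v} ∧ μ' u = v ∧ μ' v = u ∧
      ∀ w, w ≠ u → w ≠ v → μ' w = μ w := by
  rw [mem_cov, not_not] at hu hv
  have hne := huv.ne
  have k1 : ∀ w, w ≠ u → μ w ≠ u := fun w hw e => hw (by rw [← h.1 w, e, hu])
  have k2 : ∀ w, w ≠ v → μ w ≠ v := fun w hw e => hw (by rw [← h.1 w, e, hv])
  refine ⟨fun w => if w = u then v else if w = v then u else μ w, ⟨fun w => ?_, fun w => ?_⟩, ?_,
    by simp, by simp [hne.symm], fun w h1 h2 => by simp [h1, h2]⟩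
  · by_cases h1 : w = u
    · simp [h1, hne.symm]
    · by_cases h2 : w = v
      · simp [h2, hne.symm]
      · simp [h1, h2, k1 w h1, k2 w h2, h.1 w]
  · by_cases h1 : w = u
    · simp [h1, huv]
    · by_cases h2 : w = v
      · simp [h2, hne.symm, huv.symm]
      · simpa [h1, h2] using h.2 w
  · ext w
    rw [mem_union, mem_cov, mem_cov]
    by_cases h1 : w = u
    · simp [h1, hne.symm]
    · by_cases h2 : w = v
      · simp [h2, hne.symm, hne]
      · simp [h1, h2]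

theorem Mt.remove (h : Mt Γ μ) {u : Fin m} (hu : u ∈ cov μ) :
    ∃ μ', Mt Γ μ' ∧ cov μ' = cov μ \ {u, μ u} ∧ (cov μ').card + 2 = (cov μ).card := by
  have hu' := h.mate_mem hu
  have hne := mem_cov.1 hu
  have k1 : ∀ w, w ≠ μ u → μ w ≠ u := fun w hw e => hw (by rw [← e, h.1 w])
  have k2 : ∀ w, w ≠ u → μ w ≠ μ u := fun w hw e => hw (by rw [← h.1 w, e, h.1 u])
  have e : cov (fun w => if w = u ∨ w = μ u then w else μ w) = cov μ \ {u, μ u} := by
    ext w
    rw [mem_sdiff, mem_cov, mem_cov]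
    by_cases h1 : w = u ∨ w = μ u
    · rw [if_pos h1]
      simpa using fun _ h2 => h1.resolve_left h2
    · rw [if_neg h1]
      simpa using fun _ => not_or.1 h1
  refine ⟨fun w => if w = u ∨ w = μ u then w else μ w, ⟨fun w => ?_, fun w => ?_⟩, e, ?_⟩
  · by_cases h1 : w = u ∨ w = μ u
    · simp only [if_pos h1]
    · have h2 : ¬(μ w = u ∨ μ w = μ u) :=
        not_or.2 ⟨k1 w (not_or.1 h1).2, k2 w (not_or.1 h1).1⟩
      simp only [if_neg h1, if_neg h2, h.1 w]
  · by_cases h1 : w = u ∨ w = μ u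
    · simp only [if_pos h1]
      exact fun h2 => absurd rfl h2
    · simp only [if_neg h1]
      exact h.2 w
  · have hs : ({u, μ u} : Finset (Fin m)) ⊆ cov μ := by
      intro w hw
      rcases mem_insert.1 hw with rfl | hw
      · exact hu
      · rw [mem_singleton.1 hw]
        exact hu'
    have h3 := card_sdiff_add_card_eq_card hs
    rw [card_pair hne.symm] at h3
    rw [e, h3]

theorem Mt.shr_MtL (k j : ℕ) : ∀ {μ : Fin m → Fin m}, Mt Γ μ → (cov μ).card ≤ j →
    Even (cov μ).card ∧ (2 * k ≤ (cov μ).card →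
      ∃ μ', Mt Γ μ' ∧ cov μ' ⊆ cov μ ∧ (cov μ').card = 2 * k) := by
  induction j with
  | zero =>
    intro μ h hj
    have h0 : (cov μ).card = 0 := by omega
    exact ⟨h0 ▸ Even.zero, fun hk => ⟨μ, h, Subset.refl _, by omega⟩⟩
  | succ j ih =>
    intro μ h hj
    rcases (cov μ).eq_empty_or_nonempty with h0 | ⟨u, hu⟩
    · have h1 : (cov μ).card = 0 := by rw [h0, card_empty]
      exact ⟨h1 ▸ Even.zero, fun hk => ⟨μ, h, Subset.refl _, by omega⟩⟩
    · obtain ⟨μ₁, h1, h2, h3⟩ := h.remove hu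
      obtain ⟨⟨r, hr⟩, h4⟩ := ih h1 (by omega)
      refine ⟨⟨r + 1, by omega⟩, fun hk => ?_⟩
      by_cases h5 : (cov μ).card = 2 * k
      · exact ⟨μ, h, Subset.refl _, h5⟩
      · obtain ⟨μ₂, h6, h7, h8⟩ := h4 (by omega)
        exact ⟨μ₂, h6, h7.trans (h2 ▸ sdiff_subset), h8⟩

theorem Mt.even_card (h : Mt Γ μ) : Even (cov μ).card := by
  exact (Mt.shr_MtL 0 _ h le_rfl).1

theorem Mt.shrink (h : Mt Γ μ) (k : ℕ) (hk : 2 * k ≤ (cov μ).card) :
    ∃ μ', Mt Γ μ' ∧ cov μ' ⊆ cov μ ∧ (cov μ').card = 2 * k := by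
  exact (Mt.shr_MtL k _ h le_rfl).2 hk

theorem Mt.exists_max (Γ : SimpleGraph (Fin m)) :
    ∃ μ, Mt Γ μ ∧ ∀ μ', Mt Γ μ' → (cov μ').card ≤ (cov μ).card := by
  obtain ⟨μ, h1, h2⟩ := Set.exists_max_image {μ : Fin m → Fin m | Mt Γ μ} (fun μ => (cov μ).card)
    (Set.toFinite _) ⟨_, (Mt.nil Γ).1⟩
  exact ⟨μ, h1, h2⟩

theorem card_vs_add_zs (n : ℕ) (X : Finset (Fin m)) : (vs n X).card + (zs n X).card = X.card := by
  have h := card_filter_add_card_filter_not (s := X) (fun v => v.val < n)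
  simpa only [vs, zs, not_lt] using h

/-- Adding two low vertices. -/
theorem vs_zs_union_low {n : ℕ} {X : Finset (Fin m)} {u v : Fin m} (hu : u ∉ X) (hv : v ∉ X)
    (huv : u ≠ v) (hun : u.val < n) (hvn : v.val < n) :
    (vs n (X ∪ {u, v})).card = (vs n X).card + 2 ∧ zs n (X ∪ {u, v}) = zs n X := by
  constructor
  · have e : vs n (X ∪ {u, v}) = insert u (insert v (vs n X)) := by
      ext w
      simp only [vs, mem_filter, mem_union, mem_insert, mem_singleton]
      constructor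
      · rintro ⟨h | h | h, h'⟩
        · exact Or.inr (Or.inr ⟨h, h'⟩)
        · exact Or.inl h
        · exact Or.inr (Or.inl h)
      · rintro (rfl | rfl | ⟨h, h'⟩)
        · exact ⟨Or.inr (Or.inl rfl), hun⟩
        · exact ⟨Or.inr (Or.inr rfl), hvn⟩
        · exact ⟨Or.inl h, h'⟩
    rw [e, card_insert_of_notMem (by simp [vs, huv, hu]), card_insert_of_notMem (by simp [vs, hv])]
  · ext w
    simp only [zs, mem_filter, mem_union, mem_insert, mem_singleton]
    constructor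
    · rintro ⟨h | rfl | rfl, h'⟩
      · exact ⟨h, h'⟩
      · omega
      · omega
    · exact fun h => ⟨Or.inl h.1, h.2⟩

/-- Adding two high vertices. -/
theorem vs_zs_union_high {n : ℕ} {X : Finset (Fin m)} {u v : Fin m} (hu : u ∉ X) (hv : v ∉ X)
    (huv : u ≠ v) (hun : n ≤ u.val) (hvn : n ≤ v.val) :
    (zs n (X ∪ {u, v})).card = (zs n X).card + 2 ∧ vs n (X ∪ {u, v}) = vs n X := by
  constructor
  · have e : zs n (X ∪ {u, v}) = insert u (insert v (zs n X)) := by
      ext w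
      simp only [zs, mem_filter, mem_union, mem_insert, mem_singleton]
      constructor
      · rintro ⟨h | h | h, h'⟩
        · exact Or.inr (Or.inr ⟨h, h'⟩)
        · exact Or.inl h
        · exact Or.inr (Or.inl h)
      · rintro (rfl | rfl | ⟨h, h'⟩)
        · exact ⟨Or.inr (Or.inl rfl), hun⟩
        · exact ⟨Or.inr (Or.inr rfl), hvn⟩
        · exact ⟨Or.inl h, h'⟩
    rw [e, card_insert_of_notMem (by simp [zs, huv, hu]), card_insert_of_notMem (by simp [zs, hv])]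
  · ext w
    simp only [vs, mem_filter, mem_union, mem_insert, mem_singleton]
    constructor
    · rintro ⟨h | rfl | rfl, h'⟩
      · exact ⟨h, h'⟩
      · omega
      · omega
    · exact fun h => ⟨Or.inl h.1, h.2⟩

/-- Giving an edge back keeps feasibility. -/
theorem Feas.back {n : ℕ} (hΓ : Low n Γ) {X : Finset (Fin m)} {u v : Fin m} (huv : Γ.Adj u v)
    (hu : u ∉ X) (hv : v ∉ X) (h : Feas n Γ (X ∪ {u, v})) : Feas n Γ X := by
  obtain ⟨μ, h1, h2, h3⟩ := h
  have hd := disjoint_left.1 h2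
  have hu' : u ∉ cov μ := fun h => hd h (by simp)
  have hv' : v ∉ cov μ := fun h => hd h (by simp)
  obtain ⟨μ', k1, k2, -⟩ := h1.add huv hu' hv'
  obtain ⟨a1, a2⟩ := vs_zs_union_low hu hv huv.ne (hΓ _ _ huv) (hΓ _ _ huv.symm)
  refine ⟨μ', k1, ?_, ?_⟩
  · rw [k2, disjoint_union_left]
    refine ⟨h2.mono_right subset_union_left, disjoint_left.2 fun w hw => ?_⟩
    rcases mem_insert.1 hw with rfl | hw
    · exact hu
    · rw [mem_singleton.1 hw]
      exact hv
  · have b : (cov μ').card = (cov μ).card + 2 := by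
      rw [k2, card_union_of_disjoint (h2.mono_right subset_union_right), card_pair huv.ne]
    rw [a1, a2] at h3
    omega

end Vale.Agent.P305
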