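import Vale.Agent.P305.PrePost
import Vale.Agent.P305.Leaf

/-! Induction on `d`, for all `σ`, `G`, `ι`. For `d + 1`: `zeroM_ok`, then `Ok.forL` with invariant
`I k σ' := NodePost H G ι ((List.range k).flatMap fun c => pairs N g d (ι ∘ fc N g d c)) (KA (d+1)) σ σ' ∧ NFrame (d+1) σ σ'`.
Arrays `PA (d+1)`, `IA (d+1)`, `h` and `Env` survive by `NFrame`, `Env.nframe`. In round `k`, with
`G₁` the first component of the fold so far, `sub_update` shows that `preP` builds
`G₁.submatrix (ι ∘ f) (ι ∘ f)`; apply the induction hypothesis to `G₁`; then `postP_ok`,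
`comp_update`, `List.range_succ`, `List.flatMap_append`, `List.foldl_append`. The child changes
neither `CT (d+1)` nor `PA (d+1)`, `KA (d+1)` (`NFrame d`). Numbers:
`simp [WR, WA, SZ, CT, BS, PA, KA, IA]; omega`. -/

namespace Vale.Agent.P305

open Finset Matrix

variable {M : ℕ} {ρ : ℕ → Bool} {p : ℕ} [Fact p.Prime] {N R g D m h : ℕ} [NeZero N]
  {a b c : ℕ → ℕ → ℕ → ZMod p}

theorem sq_Node {e : ℕ} (hR : N * N ≤ R) : N ^ e * N ^ e ≤ R ^ e := by
  rw [← mul_pow]
  exact Nat.pow_le_pow_left hR e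

theorem senv_Node {d k : ℕ} {σ : State} (hE : Env N R g D m a b c σ) (hd : d + 1 ≤ D)
    (hk : σ.reg (CT (d + 1)) = k) (hlt : k < N ^ (g + 1) * N ^ (g + 1)) : SEnv N g d k σ :=
  ⟨hE.rsz d (by omega), hE.rsz (d + 1) hd, hE.rbs d (by omega), hE.rb, hk, hlt⟩

theorem set_Node (d v : ℕ) (σ : State) : NFrame (d + 1) σ (σ.setReg (CT (d + 1)) v) :=
  ⟨fun r hr => by
    rw [setReg_reg, if_neg]
    rintro rfl
    exact hr (Or.inr (by simp only [CT]; omega)), fun _ _ => rfl, rfl⟩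

theorem nodeP_ok (hN : 2 ≤ N) (hR : N * N ≤ R) (hB : BilAlg N R a b c) (hpM : p ≤ M)
    (hM : R ^ (1 + g * D) < M) (hm : m < M) (hh : h = 3 ∨ h = 4) {H : Fin m → Fin m → Prop}
    (d : ℕ) (hd : d ≤ D) (σ : State) (hE : Env N R g D m a b c σ)
    (hH : ∀ u v : Fin m, σ.arr h (u.val * m + v.val) ≠ 0 ↔ H u v)
    (G : Matrix (Fin m) (Fin m) (ZMod p)) (ι : Fin (sz N g d) → Fin m)
    (hP : Rep σ (PA d) (G.submatrix ι ι)) (hι : ∀ t, σ.arr (IA d) t.val = (ι t).val) :
    Ok M ρ (nodeP N R h d) σ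
      (fun σ' => NodePost H G ι (pairs N g d ι) (KA d) σ σ' ∧ NFrame d σ σ') (nodeT N R g d) := by
  have hR1 : 1 ≤ R := le_trans (by nlinarith) hR
  induction d generalizing σ G with
  | zero =>
    have h1 : N * N < M := by
      refine lt_of_le_of_lt (hR.trans ?_) hM
      exact Nat.le_self_pow (by omega) R
    exact leafP_ok hN hE hpM h1 hm hh hH hP hι
  | succ d ih =>
    have hM' : R ^ (1 + g * (d + 1)) < M :=
      lt_of_le_of_lt (Nat.pow_le_pow_right hR1 (by nlinarith [Nat.mul_le_mul_left g hd])) hM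
    have hs : sz N g (d + 1) * sz N g (d + 1) < M := lt_of_le_of_lt (sq_Node hR) hM'
    have hb : N ^ (g + 1) * N ^ (g + 1) < M := by
      refine lt_of_le_of_lt (sq_Node hR) (lt_of_le_of_lt (Nat.pow_le_pow_right hR1 ?_) hM')
      nlinarith
    have hT := sq_le_mmT (e := 1 + g * (d + 1)) hR
    have hpos := sz_pos N g (d + 1)
    have nh : ¬ WA (d + 1) h := by rcases hh with rfl | rfl <;> simp [WA] <;> omega
    have nP : ¬ WA (d + 1) (PA (d + 1)) := by simp [WA, PA]; omega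
    have nI : ¬ WA (d + 1) (IA (d + 1)) := by simp [WA, IA]; omega
    refine Ok.seq' (zeroM_ok (p := p) (z := KA (d + 1)) (by simp only [SZ]; omega)
      (hE.rsz (d + 1) hd) hs) (fun σ₀ ⟨z1, z2⟩ => ((Ok.forL (N ^ (g + 1) * N ^ (g + 1))
        (30 * mmT R (1 + g * (d + 1)) + nodeT N R g d)
        (fun k σ' => NodePost H G ι ((List.range k).flatMap fun c => pairs N g d (ι ∘ fc N g d c))
          (KA (d + 1)) σ σ' ∧ NFrame (d + 1) σ σ') hb ?_ ?_ ?_).mono (fun σ' h => h.1) le_rfl)) ?_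
    · have f0 : NFrame (d + 1) σ σ₀ := z2.nframe _ (by simp [WR]) (by simp [WA, KA])
      refine ⟨⟨0, z1, by simp, ?_⟩, f0.trans (set_Node d 0 σ₀)⟩
      simpa using z2.2.1 2 (by simp [KA]; omega)
    · intro i σ' hI _
      simp [(hE.nframe hI.2).rb]
    · rintro k hk σ₁ ⟨⟨K, k1, k2, k3⟩, f1⟩ hr
      have E1 := hE.nframe f1
      have P1 : Rep σ₁ (PA (d + 1)) (G.submatrix ι ι) := by
        simpa only [Rep, f1.2.1 _ nP] using hP
      have I1 : ∀ t, σ₁.arr (IA (d + 1)) t.val = (ι t).val := by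
        simpa only [f1.2.1 _ nI] using hι
      refine Ok.seq' (preP_ok hN hR hB E1.me (senv_Node E1 hd hr hk) hpM hM' hm.le P1 k1 I1)
        (fun σ₂ ⟨q1, q2, q3⟩ => ?_) (T := nodeT N R g d + 20 * mmT R (1 + g * (d + 1))) (by omega)
      have f2 : NFrame (d + 1) σ₁ σ₂ := q3.nframe _ (by simp [WR])
        (by simp [WA, PA, IA]; omega)
      have E2 := E1.nframe f2
      rw [← sub_update, ← k2, submatrix_submatrix] at q1
      refine Ok.seq (ih (by omega) σ₂ E2 (by simpa only [(f1.trans f2).2.1 _ nh] using hH) _ _ q1 q2)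
        (fun σ₃ ⟨⟨K', c1, c2, c3⟩, f3⟩ => ?_)
      have E3 := E2.nframe f3
      have r3 : σ₃.reg (CT (d + 1)) = k := by
        rw [f3.1 _ (by simp [WR, CT]; omega), q3.1 _ (by simp [CT]; omega), hr]
      have P3 : Rep σ₃ (PA (d + 1)) (G.submatrix ι ι) := by
        simpa only [Rep, (f2.trans f3.succ).2.1 _ nP] using P1
      have K3 : Rep σ₃ (KA (d + 1)) K := by
        have e1 : σ₃.arr (KA (d + 1)) = σ₁.arr (KA (d + 1)) := by
          rw [f3.2.1 _ (by simp [WA, KA]; omega), q3.2.1 _ (by simp [KA, PA, IA]; omega)]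
        simpa only [Rep, e1] using k1
      have a2 : σ₂.arr 2 = σ₁.arr 2 := q3.2.1 _ (by simp [PA, IA]; omega)
      refine (postP_ok hN hR hB E3.me (senv_Node E3 hd r3 hk) hpM hM' P3 K3 c1).mono
        (fun σ₄ ⟨p1, p2⟩ => ?_) le_rfl
      have f4 : NFrame (d + 1) σ₃ σ₄ := p2.nframe _ (by simp [WR]) (by simp [WA, KA])
      have a4 : σ₄.arr 2 = σ₃.arr 2 := p2.2.1 _ (by simp [KA]; omega)
      rw [a2, k3, Prod.mk.eta] at c2 c3
      refine ⟨by rw [p2.1 _ (by simp [CT]; omega), r3], ⟨_, p1, ?_, ?_⟩,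
        (((f1.trans f2).trans f3.succ).trans f4).trans (set_Node d _ σ₄)⟩
      · rw [List.range_succ, List.flatMap_append, List.foldl_append, List.flatMap_singleton, c2]
        exact comp_update G _ ι _ K K' k2
      · rw [List.range_succ, List.flatMap_append, List.foldl_append, List.flatMap_singleton,
          setReg_arr, a4, c3]
    · have e : sz N g (d + 1) = N ^ (1 + g * (d + 1)) := rfl
      rw [← e] at hT
      have h1 : 1 ≤ sz N g (d + 1) * sz N g (d + 1) := Nat.mul_pos hpos hpos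
      have h2 : N ^ (g + 1) * N ^ (g + 1) * (30 * mmT R (1 + g * (d + 1)) + nodeT N R g d + 2) ≤
          N ^ (g + 1) * N ^ (g + 1) * (100 * mmT R (1 + g * (d + 1)) + nodeT N R g d) :=
        Nat.mul_le_mul_left _ (by omega)
      rw [nodeT]
      omega

end Vale.Agent.P305
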