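import Vale.Agent.P305.MtL
import Vale.Agent.P305.NmL

/-! From involutions on `Fin m` to matchings of `G`. Given `μ` with `Mt (lift G m) μ`, the subgraph
has `Adj u v ↔ μ (castLE u) = castLE v ∧ v ≠ u` and `verts = {u | μ (castLE u) ≠ castLE u}`.
Conversely a matching subgraph `M'` gives an involution. In both cases
`|cov| = |verts| = 2 * |edgeSet|` (prove once: for `M.IsMatching`,
`M.verts.ncard = 2 * M.edgeSet.ncard`, for instance by the degree sum formula in `M.spanningCoe`,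
or fibres of `IsMatching.toEdge`). -/

namespace Vale.Agent.P305

open Finset

theorem card_Out {n : ℕ} {G : SimpleGraph (Fin n)} {M : G.Subgraph} (h : M.IsMatching) :
    M.verts.ncard = 2 * M.edgeSet.ncard := by
  classical
  have h1 := M.spanningCoe.sum_degrees_eq_twice_card_edges
  have h2 : ∀ v, M.spanningCoe.degree v = if v ∈ M.verts then 1 else 0 := by
    intro v
    split_ifs with hv
    · exact SimpleGraph.degree_eq_one_iff_existsUnique_adj.2 (h hv)
    · rw [← SimpleGraph.card_neighborFinset_eq_degree, card_eq_zero, eq_empty_iff_forall_notMem]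
      intro w hw
      rw [SimpleGraph.mem_neighborFinset] at hw
      exact hv (M.edge_vert hw)
  rw [sum_congr rfl fun v _ => h2 v, ← card_filter] at h1
  rw [← M.edgeSet_spanningCoe, ← SimpleGraph.coe_edgeFinset, Set.ncard_coe_finset, ← h1,
    ← Set.ncard_coe_finset]
  refine congrArg _ (Set.ext fun v => ?_)
  simp

theorem link_Out {n m : ℕ} {G : SimpleGraph (Fin n)} (hm : n ≤ m) {μ : Fin m → Fin m}
    (h : Mt (lift G m) μ) {S : Set (Fin n)}
    (hS : ∀ u, u ∈ S ↔ μ (Fin.castLE hm u) ≠ Fin.castLE hm u) : (cov μ).card = S.ncard := by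
  rw [← Set.ncard_image_of_injective S (Fin.castLE_injective hm), ← Set.ncard_coe_finset]
  refine congrArg _ (Set.ext fun v => ⟨fun hv => ?_, ?_⟩)
  · have h1 := mem_cov.1 (mem_coe.1 hv)
    obtain ⟨h2, -⟩ := h.2 v h1
    exact ⟨⟨v.val, h2⟩, (hS _).2 h1, rfl⟩
  · rintro ⟨u, hu, rfl⟩
    exact mem_coe.2 (mem_cov.2 ((hS u).1 hu))

theorem inv_Out {n m : ℕ} {G : SimpleGraph (Fin n)} (hm : n ≤ m) {M : G.Subgraph}
    (h : M.IsMatching) : ∃ μ, Mt (lift G m) μ ∧ (cov μ).card = M.verts.ncard := by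
  classical
  obtain ⟨μ, h1, h2⟩ : ∃ μ : Fin m → Fin m,
      (∀ u w, M.Adj u w → μ (Fin.castLE hm u) = Fin.castLE hm w) ∧
      ∀ v, (∃ u w, Fin.castLE hm u = v ∧ M.Adj u w) ∨ μ v = v := by
    refine ⟨fun v => if hv : ∃ p : Fin n × Fin n, Fin.castLE hm p.1 = v ∧ M.Adj p.1 p.2 then
      Fin.castLE hm hv.choose.2 else v, fun u w huw => ?_, fun v => ?_⟩
    · have hv : ∃ p : Fin n × Fin n, Fin.castLE hm p.1 = Fin.castLE hm u ∧ M.Adj p.1 p.2 :=
        ⟨(u, w), rfl, huw⟩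
      obtain ⟨h3, h4⟩ := hv.choose_spec
      rw [Fin.castLE_injective hm h3] at h4
      simp only [dif_pos hv]
      rw [h.eq_of_adj_left h4 huw]
    · by_cases hv : ∃ p : Fin n × Fin n, Fin.castLE hm p.1 = v ∧ M.Adj p.1 p.2
      · obtain ⟨p, hp⟩ := hv
        exact Or.inl ⟨p.1, p.2, hp⟩
      · exact Or.inr (dif_neg hv)
  have h3 : Mt (lift G m) μ := by
    refine ⟨fun v => ?_, fun v hv => ?_⟩
    · rcases h2 v with ⟨u, w, rfl, huw⟩ | h4
      · rw [h1 u w huw, h1 w u huw.symm]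
      · rw [h4, h4]
    · rcases h2 v with ⟨u, w, rfl, huw⟩ | h4
      · rw [h1 u w huw]
        exact ⟨u.2, w.2, M.adj_sub huw⟩
      · exact absurd h4 hv
  refine ⟨μ, h3, link_Out hm h3 fun u => ⟨fun hu => ?_, fun hu => ?_⟩⟩
  · obtain ⟨w, hw, -⟩ := h hu
    rw [h1 u w hw]
    exact fun e => hw.ne (Fin.castLE_injective hm e).symm
  · rcases h2 (Fin.castLE hm u) with ⟨u', w, e, huw⟩ | h4
    · rw [← Fin.castLE_injective hm e]
      exact M.edge_vert huw
    · exact absurd h4 hu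

theorem outputsMax_of {n m : ℕ} (G : SimpleGraph (Fin n)) (hm : n ≤ m) (σ : State)
    (h : MaxOut n (lift G m) (σ.arr 2)) : OutputsMax G σ := by
  obtain ⟨μ, h1, h2, h3⟩ := h
  let M : G.Subgraph :=
    { verts := {u | μ (Fin.castLE hm u) ≠ Fin.castLE hm u}
      Adj := fun u v => μ (Fin.castLE hm u) = Fin.castLE hm v ∧ Fin.castLE hm v ≠ Fin.castLE hm u
      adj_sub := fun {u v} huv => by
        have h4 := h1.2 _ (huv.1.trans_ne huv.2)
        rw [huv.1] at h4
        exact h4.2.2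
      edge_vert := fun huv => huv.1.trans_ne huv.2
      symm := ⟨fun u v huv => ⟨by rw [← huv.1, h1.1], huv.2.symm⟩⟩ }
  have hM : M.IsMatching := by
    intro u hu
    obtain ⟨-, h4, -⟩ := h1.2 _ hu
    exact ⟨⟨_, h4⟩, ⟨rfl, hu⟩, fun w hw => Fin.castLE_injective hm hw.1.symm⟩
  refine ⟨M, hM, fun M' hM' => ?_, fun u v => (h3 (Fin.castLE hm u) (Fin.castLE hm v) u.2 v.2).symm⟩
  obtain ⟨μ', h4, h5⟩ := inv_Out hm hM'
  have h6 := h2 μ' h4
  rw [h5, link_Out hm h1 (S := M.verts) fun _ => Iff.rfl, card_Out hM', card_Out hM] at h6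
  omega

end Vale.Agent.P305
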