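import Vale.Agent.P305.Pure

/-! All pairs are tested. Induction on `d` for general `ι`. With `s = N^(g d)`, `β = N^(g+1)`,
`sz N g (d+1) = β * s`, `sz N g d = N * s ≥ 2 s`: positions `a, b` lie in blocks `a / s`, `b / s`;
the child `c = a / s * β + b / s` maps `a % s` to `a` and `s + b % s` to `b`. For `d = 0`, `s = 1`
and these are the positions 0 and 1. -/

namespace Vale.Agent.P305

open Finset

theorem sz_succ (N g d : ℕ) : sz N g (d + 1) = N ^ (g + 1) * N ^ (g * d) := by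
  unfold sz
  ring

theorem sz_eq (N g d : ℕ) : sz N g d = N * N ^ (g * d) := by
  unfold sz
  ring

theorem sz_le_succ (N g d : ℕ) [NeZero N] : sz N g d ≤ sz N g (d + 1) :=
  Nat.pow_le_pow_right (Nat.pos_of_ne_zero (NeZero.ne N)) (by nlinarith)

theorem fcN_lt (N g d : ℕ) [NeZero N] {c : ℕ} (hc : c < N ^ (g + 1) * N ^ (g + 1)) (t : ℕ) :
    fcN N g d c t < sz N g (d + 1) := by
  have hN := Nat.pos_of_ne_zero (NeZero.ne N)
  have hs : 0 < N ^ (g * d) := pow_pos hN _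
  have hb : 0 < N ^ (g + 1) := pow_pos hN _
  have key : ∀ x y, x < N ^ (g + 1) → y < N ^ (g * d) →
      x * N ^ (g * d) + y < N ^ (g + 1) * N ^ (g * d) := fun x y hx hy =>
    calc x * N ^ (g * d) + y < (x + 1) * N ^ (g * d) := by rw [add_one_mul]; omega
      _ ≤ _ := Nat.mul_le_mul_right _ hx
  rw [sz_succ]
  unfold fcN
  split_ifs with h
  · exact key _ _ (Nat.div_lt_of_lt_mul hc) h
  · exact key _ _ (Nat.mod_lt _ hb) (Nat.mod_lt _ hs)

theorem fc_val (N g d : ℕ) [NeZero N] {c : ℕ} (hc : c < N ^ (g + 1) * N ^ (g + 1))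
    (t : Fin (sz N g d)) : (fc N g d c t).val = fcN N g d c t.val :=
  Nat.mod_eq_of_lt (fcN_lt N g d hc _)

theorem child_Pairs (N g : ℕ) [NeZero N] (hN : 2 ≤ N) (d : ℕ) (a b : Fin (sz N g (d + 1))) :
    ∃ c < N ^ (g + 1) * N ^ (g + 1), fc N g d c (pos N g d (a.val % N ^ (g * d))) = a ∧
      fc N g d c (pos N g d (N ^ (g * d) + b.val % N ^ (g * d))) = b := by
  have hs : 0 < N ^ (g * d) := pow_pos (by omega) _
  have hb : 0 < N ^ (g + 1) := pow_pos (by omega) _
  have h1 : ∀ x : Fin (sz N g (d + 1)), x.val / N ^ (g * d) < N ^ (g + 1) := fun x =>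
    Nat.div_lt_of_lt_mul (by rw [mul_comm, ← sz_succ]; exact x.2)
  have h2 : 2 * N ^ (g * d) ≤ sz N g d := by
    rw [sz_eq]
    exact Nat.mul_le_mul_right _ hN
  have ha := Nat.mod_lt a.val hs
  have hb' := Nat.mod_lt b.val hs
  have hc : a.val / N ^ (g * d) * N ^ (g + 1) + b.val / N ^ (g * d) < N ^ (g + 1) * N ^ (g + 1) :=
    calc _ < (a.val / N ^ (g * d) + 1) * N ^ (g + 1) := by rw [add_one_mul]; linarith [h1 b]
      _ ≤ _ := Nat.mul_le_mul_right _ (h1 a)
  refine ⟨_, hc, Fin.ext ?_, Fin.ext ?_⟩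
  · have e : (pos N g d (a.val % N ^ (g * d))).val = a.val % N ^ (g * d) :=
      Nat.mod_eq_of_lt (by omega)
    rw [fc_val N g d hc, e]
    unfold fcN
    rw [if_pos ha, add_comm (_ * N ^ (g + 1)), Nat.add_mul_div_right _ _ hb,
      Nat.div_eq_of_lt (h1 b), zero_add, mul_comm, Nat.div_add_mod]
  · have e : (pos N g d (N ^ (g * d) + b.val % N ^ (g * d))).val =
        N ^ (g * d) + b.val % N ^ (g * d) := Nat.mod_eq_of_lt (by omega)
    rw [fc_val N g d hc, e]
    unfold fcN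
    rw [if_neg (Nat.not_lt.2 (Nat.le_add_right _ _)), add_comm (_ * N ^ (g + 1)), Nat.add_mul_mod_self_right,
      Nat.mod_eq_of_lt (h1 b), Nat.add_mod_left, Nat.mod_mod, mul_comm, Nat.div_add_mod]

theorem mem_pairs (N g : ℕ) [NeZero N] (hN : 2 ≤ N) {m : ℕ} (d : ℕ)
    (ι : Fin (sz N g (d + 1)) → Fin m) (a b : Fin (sz N g (d + 1))) :
    (ι a, ι b) ∈ pairs N g (d + 1) ι := by
  induction d with
  | zero =>
    obtain ⟨c, hc, h1, h2⟩ := child_Pairs N g hN 0 a b
    rw [pairs, List.mem_flatMap]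
    refine ⟨c, List.mem_range.2 hc, ?_⟩
    simp only [mul_zero, pow_zero, Nat.mod_one, add_zero] at h1 h2
    rw [pairs, List.mem_singleton, Function.comp_apply, Function.comp_apply, h1, h2]
  | succ d ih =>
    obtain ⟨c, hc, h1, h2⟩ := child_Pairs N g hN (d + 1) a b
    rw [pairs, List.mem_flatMap]
    refine ⟨c, List.mem_range.2 hc, ?_⟩
    have h := ih (ι ∘ fc N g (d + 1) c) (pos N g (d + 1) (a.val % N ^ (g * (d + 1))))
      (pos N g (d + 1) (N ^ (g * (d + 1)) + b.val % N ^ (g * (d + 1))))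
    rwa [Function.comp_apply, Function.comp_apply, h1, h2] at h

end Vale.Agent.P305
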