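import Vale.Agent.P305.Pure

/-! Determinant lemmas. Plan for `Dm_schur`: let `S = {u,v} ∪ Y`, `J = piv G u v`, `E` the diagonal
projector on `Y`, `GS` the matrix inside `Dm G S`, `G'Y` the matrix inside `Dm G' Y`, and `Q` the
identity with rows `u, v` replaced by those of `GS`. Then `(1 - E * G * J) * GS = G'Y * Q`
(columns `u, v` of `G'` vanish), `det (1 - (E * G) * J) = det (1 - J * (E * G)) = 1` since
`J * E = 0` (`Matrix.det_one_sub_mul_comm`), and `det Q = (G u v)^2` (write `Q = 1 + A * B` with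
`A : m × 2`, `B : 2 × m`, `Matrix.det_one_add_mul_comm`, `Matrix.det_fin_two`). -/

namespace Vale.Agent.P305

open Matrix Finset

theorem rows_PivA {R : Type} [CommRing R] {m : ℕ} (M : Matrix (Fin m) (Fin m) R) {u v : Fin m}
    (huv : u ≠ v) (h : ∀ a, a ≠ u → a ≠ v → ∀ b, M a b = if a = b then 1 else 0) :
    M.det = M u u * M v v - M u v * M v u := by
  obtain ⟨w, w0, w1⟩ : ∃ w : Fin 2 → Fin m, w 0 = u ∧ w 1 = v := ⟨![u, v], rfl, rfl⟩
  have e : M = 1 + (Matrix.of fun a i => if a = w i then (1 : R) else 0) *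
      Matrix.of fun i b => M (w i) b - if w i = b then 1 else 0 := by
    ext a b
    simp only [Matrix.add_apply, mul_apply, Fin.sum_univ_two, of_apply, w0, w1, one_apply]
    by_cases h1 : a = u
    · subst h1
      simp [huv]
    by_cases h2 : a = v
    · subst h2
      simp [h1]
    simp [h1, h2, h a h1 h2]
  refine (congrArg det e).trans ?_
  rw [det_one_add_mul_comm, det_fin_two]
  simp [mul_apply, huv, huv.symm, w0, w1]

theorem single_PivA {R : Type} [CommRing R] {m : ℕ} (A B : Matrix (Fin m) (Fin m) R)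
    (i j : Fin m) (c : R) (a b : Fin m) : (A * single i j c * B) a b = A a i * c * B j b := by
  rw [mul_apply, Finset.sum_eq_single j, mul_single_apply_same]
  · intro k _ hk
    rw [mul_single_apply_of_ne _ _ _ _ _ hk, zero_mul]
  · exact fun h => (h (Finset.mem_univ _)).elim

theorem piv_PivA {F : Type} [Field F] {m : ℕ} (G A B : Matrix (Fin m) (Fin m) F) (u v a b : Fin m) :
    (A * piv G u v * B) a b = A a u * (-(G u v)⁻¹) * B v b + A a v * (G u v)⁻¹ * B u b := by
  rw [piv, Matrix.mul_add, Matrix.add_mul, Matrix.add_apply, single_PivA, single_PivA]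

theorem Dm_empty {R : Type} [CommRing R] {m : ℕ} (N : Matrix (Fin m) (Fin m) R) : Dm N ∅ = 1 := by
  rw [Dm, ← det_one (n := Fin m)]
  congr 1
  ext a b
  simp [one_apply]

theorem Dm_pair {R : Type} [CommRing R] {m : ℕ} (G : Matrix (Fin m) (Fin m) R) (hs : Gᵀ = -G)
    (hd : ∀ a, G a a = 0) {u v : Fin m} (huv : u ≠ v) : Dm G {u, v} = (G u v) ^ 2 := by
  have hvu : G v u = -G u v := congrFun (congrFun hs u) v
  rw [Dm, rows_PivA _ huv fun a h1 h2 b => by simp [h1, h2]]
  simp [hd, hvu, sq]

theorem Dm_schur {F : Type} [Field F] {m : ℕ} (G : Matrix (Fin m) (Fin m) F) (hs : Gᵀ = -G)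
    (hd : ∀ a, G a a = 0) {u v : Fin m} (huv : u ≠ v) (hx : G u v ≠ 0) (Y : Finset (Fin m))
    (hu : u ∉ Y) (hv : v ∉ Y) :
    Dm G ({u, v} ∪ Y) = (G u v) ^ 2 * Dm (G - G * piv G u v * G) Y := by
  have hvu : G v u = -G u v := congrFun (congrFun hs u) v
  unfold Dm
  obtain ⟨A, hA⟩ : ∃ A : Matrix (Fin m) (Fin m) F, A = Matrix.of fun a b =>
    if a ∈ ({u, v} ∪ Y : Finset (Fin m)) ∧ b ∈ ({u, v} ∪ Y : Finset (Fin m)) then G a b
      else if a = b then 1 else 0 := ⟨_, rfl⟩
  obtain ⟨B, hB⟩ : ∃ B : Matrix (Fin m) (Fin m) F, B = Matrix.of fun a b =>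
    if a ∈ Y ∧ b ∈ Y then (G - G * piv G u v * G) a b else if a = b then 1 else 0 := ⟨_, rfl⟩
  obtain ⟨Q, hQ⟩ : ∃ Q : Matrix (Fin m) (Fin m) F, Q = Matrix.of fun a b =>
    if a = u ∨ a = v then A a b else if a = b then 1 else 0 := ⟨_, rfl⟩
  obtain ⟨D, hD⟩ : ∃ D : Matrix (Fin m) (Fin m) F,
    D = diagonal fun a => if a ∈ Y then 1 else 0 := ⟨_, rfl⟩
  rw [← hA, ← hB]
  have h1 : (1 - D * (G * piv G u v * 1)).det = 1 := by
    rw [← det_transpose, rows_PivA _ huv fun a h1 h2 b => ?_]
    · simp [hD, hu, hv, huv, huv.symm]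
    · rw [transpose_apply, Matrix.sub_apply, hD, diagonal_mul, piv_PivA,
        one_apply_ne (Ne.symm h1), one_apply_ne (Ne.symm h2), one_apply]
      simp [eq_comm]
  have h2 : Q.det = G u v ^ 2 := by
    rw [rows_PivA _ huv fun a h1 h2 b => by simp [hQ, h1, h2]]
    simp [hQ, hA, hd, hvu, sq]
  have h3 : (1 - D * (G * piv G u v * 1)) * A = B * Q := by
    ext a b
    rw [Matrix.sub_mul, Matrix.one_mul, Matrix.mul_one, Matrix.mul_assoc D, Matrix.sub_apply, hD,
      diagonal_mul, piv_PivA, mul_apply]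
    by_cases ha : a ∈ Y
    · have e : ∀ k, B a k * Q k b = if k = b then B a b else 0 := fun k => by
        by_cases hk : k = u ∨ k = v
        · have h4 : B a k = 0 := by
            have h5 : k ∉ Y := by rcases hk with rfl | rfl <;> assumption
            have h6 : a ≠ k := fun e => h5 (e ▸ ha)
            simp [hB, h5, h6]
          rw [h4, zero_mul]
          split_ifs with h5
          · rw [← h5, h4]
          · rfl
        · rw [hQ, of_apply, if_neg hk]
          split_ifs with h5
          · rw [h5, mul_one]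
          · rw [mul_zero]
      simp only [e, Finset.sum_ite_eq', Finset.mem_univ, if_true, ha, one_mul]
      by_cases hb : b ∈ Y
      · simp only [hA, hB, of_apply, Finset.mem_union, Finset.mem_insert, Finset.mem_singleton, ha,
          hb, true_or, or_true, and_self, if_true, Matrix.sub_apply, piv_PivA]
      have hab : a ≠ b := fun e => hb (e ▸ ha)
      by_cases h4 : b = u
      · subst h4
        simp [hA, hB, ha, hb, hab, hd, hvu, hx]
      by_cases h5 : b = v
      · subst h5
        simp [hA, hB, ha, hb, hab, hd, hx]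
      simp [hA, hB, ha, hb, hab, h4, h5, Ne.symm h4, Ne.symm h5]
    · have e : ∀ k, B a k * Q k b = if a = k then Q a b else 0 := fun k => by
        rw [hB, of_apply, if_neg fun h => ha h.1]
        split_ifs with h5
        · rw [h5, one_mul]
        · rw [zero_mul]
      simp only [e, Finset.sum_ite_eq, Finset.mem_univ, if_true, ha, if_false, zero_mul, sub_zero]
      rw [hQ, of_apply]
      split_ifs with h4 h5
      · rfl
      · rw [not_or] at h4
        simp [hA, ha, h4.1, h4.2, ← h5]
      · rw [not_or] at h4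
        simp [hA, ha, h4.1, h4.2, h5]
  have h4 := congrArg det h3
  rw [det_mul, det_mul, h1, h2, one_mul] at h4
  rw [h4, mul_comm]

end Vale.Agent.P305
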