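import Vale.Agent.P305.PivA

/-! The invariant `Inv`. Plan for `Inv.step`: with `J = piv G u v` take
`K' = K + (1 - K * N) * J * (1 - N * K)`; use `N * (1 - K * N) = G = (1 - N * K) * N`,
columns of `G` in `X` vanish, and `(J * G) a b = δ a b` for `b ∈ {u, v}` (skew `G`, zero diagonal).
The determinant parts come from `Dm_schur`, `Dm_pair`. -/

namespace Vale.Agent.P305

open Matrix Finset

variable {F : Type} [Field F] {m : ℕ} {N G : Matrix (Fin m) (Fin m) F} {X : Finset (Fin m)}

theorem Inv.empty (N : Matrix (Fin m) (Fin m) F) : Inv N ∅ N := by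
  refine ⟨⟨0, by simp, by simp, by simp, by simp⟩, ?_, ?_⟩
  · rw [Dm_empty]; exact one_ne_zero
  · intro Y _
    rw [Dm_empty, Finset.empty_union, one_mul]

theorem Inv.skew (hN : Nᵀ = -N) (h : Inv N X G) : Gᵀ = -G := by
  obtain ⟨⟨K, hK, -, -, rfl⟩, -, -⟩ := h
  rw [Matrix.transpose_sub, Matrix.transpose_mul, Matrix.transpose_mul, hN, hK]
  noncomm_ring

theorem Inv.col_zero (h : Inv N X G) (a : Fin m) {b : Fin m} (hb : b ∈ X) : G a b = 0 := by
  obtain ⟨⟨K, -, -, hKN, rfl⟩, -, -⟩ := h
  rw [Matrix.sub_apply, Matrix.mul_assoc, Matrix.mul_apply]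
  simp only [hKN _ b hb]
  simp

theorem skew_apply_PivB (hs : Gᵀ = -G) (a b : Fin m) : G b a = -G a b := by
  have := congrFun (congrFun hs a) b
  simpa [Matrix.transpose_apply] using this

theorem diag_zero_PivB (h2 : (2 : F) ≠ 0) (hs : Gᵀ = -G) (a : Fin m) : G a a = 0 := by
  have h := skew_apply_PivB hs a a
  have h' : 2 * G a a = 0 := by linear_combination h
  exact (mul_eq_zero.1 h').resolve_left h2

theorem Inv.row_zero (hN : Nᵀ = -N) (h : Inv N X G) {a : Fin m} (ha : a ∈ X) (b : Fin m) :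
    G a b = 0 := by
  rw [skew_apply_PivB (Inv.skew hN h) b a, Inv.col_zero h b ha, neg_zero]

theorem Inv.pair (h2 : (2 : F) ≠ 0) (hN : Nᵀ = -N) (h : Inv N X G) {u v : Fin m} (hu : u ∉ X)
    (hv : v ∉ X) (huv : u ≠ v) : Dm N (X ∪ {u, v}) = Dm N X * (G u v) ^ 2 := by
  have hs := Inv.skew hN h
  have hd : Disjoint X {u, v} := by
    rw [Finset.disjoint_right]
    intro a ha
    rcases Finset.mem_insert.1 ha with rfl | ha
    · exact hu
    · rw [Finset.mem_singleton.1 ha]; exact hv
  rw [h.2.2 _ hd, Dm_pair G hs (diag_zero_PivB h2 hs) huv]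

theorem piv_skew_PivB (G : Matrix (Fin m) (Fin m) F) (u v : Fin m) :
    (piv G u v)ᵀ = -piv G u v := by
  unfold piv
  rw [Matrix.transpose_add, Matrix.transpose_single, Matrix.transpose_single, neg_add,
    ← Matrix.single_neg, ← Matrix.single_neg, neg_neg, add_comm]

theorem piv_row_PivB (G : Matrix (Fin m) (Fin m) F) {u v a : Fin m} (hu : a ≠ u) (hv : a ≠ v)
    (b : Fin m) : piv G u v a b = 0 := by
  unfold piv
  rw [Matrix.add_apply, Matrix.single_apply_of_row_ne (Ne.symm hu),
    Matrix.single_apply_of_row_ne (Ne.symm hv), add_zero]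

theorem piv_mul_PivB (G : Matrix (Fin m) (Fin m) F) (u v a b : Fin m) :
    (piv G u v * G) a b =
      (if a = u then -(G u v)⁻¹ * G v b else 0) + (if a = v then (G u v)⁻¹ * G u b else 0) := by
  unfold piv
  rw [Matrix.add_mul, Matrix.add_apply]
  congr 1
  · split_ifs with h
    · rw [h, Matrix.single_mul_apply_same]
    · rw [Matrix.single_mul_apply_of_ne _ _ _ _ _ h]
  · split_ifs with h
    · rw [h, Matrix.single_mul_apply_same]
    · rw [Matrix.single_mul_apply_of_ne _ _ _ _ _ h]

theorem piv_col_PivB (hs : Gᵀ = -G) (hd : ∀ a, G a a = 0) {u v : Fin m} (hx : G u v ≠ 0)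
    (a : Fin m) {b : Fin m} (hb : b = u ∨ b = v) :
    (piv G u v * G) a b = if a = b then 1 else 0 := by
  rw [piv_mul_PivB]
  rcases hb with rfl | rfl
  · rw [hd, skew_apply_PivB hs b v, mul_zero, ite_self, add_zero, neg_mul_neg,
      inv_mul_cancel₀ hx]
  · rw [hd, mul_zero, ite_self, zero_add, inv_mul_cancel₀ hx]

theorem Inv.step (h2 : (2 : F) ≠ 0) (hN : Nᵀ = -N) (h : Inv N X G) {u v : Fin m}
    (hx : G u v ≠ 0) :
    u ∉ X ∧ v ∉ X ∧ u ≠ v ∧ Inv N (X ∪ {u, v}) (G - G * piv G u v * G) := by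
  have hs := Inv.skew hN h
  have hd := diag_zero_PivB h2 hs
  have hu : u ∉ X := fun hu => hx (Inv.row_zero hN h hu v)
  have hv : v ∉ X := fun hv => hx (Inv.col_zero h u hv)
  have huv : u ≠ v := fun e => hx (e ▸ hd u)
  have hp := Inv.pair h2 hN h hu hv huv
  have hcol : ∀ a b, b ∈ X → G a b = 0 := fun a b hb => Inv.col_zero h a hb
  obtain ⟨⟨K, hK, hsupp, hKN, hG⟩, hdet, hall⟩ := h
  have hJ := piv_skew_PivB G u v
  have hJrow : ∀ a, a ≠ u → a ≠ v → ∀ b, piv G u v a b = 0 :=
    fun a h1 h2 b => piv_row_PivB G h1 h2 b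
  have hJcol : ∀ a b, (b = u ∨ b = v) → (piv G u v * G) a b = if a = b then 1 else 0 :=
    fun a b hb => piv_col_PivB hs hd hx a hb
  have hsch := fun Y (h1 : u ∉ Y) (h2 : v ∉ Y) => Dm_schur G hs hd huv hx Y h1 h2
  generalize piv G u v = J at hJ hJrow hJcol hsch ⊢
  have hK' : (K + (1 - K * N) * J * (1 - N * K))ᵀ = -(K + (1 - K * N) * J * (1 - N * K)) := by
    simp only [Matrix.transpose_add, Matrix.transpose_mul, Matrix.transpose_sub,
      Matrix.transpose_one, hN, hK, hJ]
    noncomm_ring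
  have hrow : ∀ a, a ∉ X ∪ {u, v} → ∀ b, (K + (1 - K * N) * J * (1 - N * K)) a b = 0 := by
    intro a ha b
    have haX : a ∉ X := fun h => ha (Finset.mem_union_left _ h)
    have hau : a ≠ u := fun h => ha (Finset.mem_union_right _ (by simp [h]))
    have hav : a ≠ v := fun h => ha (Finset.mem_union_right _ (by simp [h]))
    have hKa : ∀ c, K a c = 0 := fun c => by
      by_contra hc
      exact haX (hsupp a c hc).1
    have e : K + (1 - K * N) * J * (1 - N * K) =
        K * (1 - N * J * (1 - N * K)) + J * (1 - N * K) := by noncomm_ring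
    rw [e, Matrix.add_apply, Matrix.mul_apply, Matrix.mul_apply]
    simp [hKa, hJrow a hau hav]
  refine ⟨hu, hv, huv, ⟨K + (1 - K * N) * J * (1 - N * K), hK', ?_, ?_, ?_⟩, ?_, ?_⟩
  · intro a b hab
    constructor
    · by_contra ha
      exact hab (hrow a ha b)
    · by_contra hb
      apply hab
      rw [skew_apply_PivB hK' b a, hrow b hb a, neg_zero]
  · intro a b hb
    have e : (K + (1 - K * N) * J * (1 - N * K)) * N = K * N + (1 - K * N) * (J * G) := by
      rw [hG]; noncomm_ring
    rw [e, Matrix.add_apply]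
    rcases Finset.mem_union.1 hb with hb | hb
    · have z : ∀ c, (J * G) c b = 0 := fun c => by
        rw [Matrix.mul_apply]
        simp [hcol _ b hb]
      rw [hKN a b hb, Matrix.mul_apply]
      simp [z]
    · have hb' : b = u ∨ b = v := by simpa using hb
      have z : ((1 - K * N) * (J * G)) a b = (1 - K * N) a b := by
        rw [Matrix.mul_apply]
        simp only [hJcol _ b hb']
        simp
      rw [z, Matrix.sub_apply, Matrix.one_apply]
      ring
  · rw [hG]; noncomm_ring
  · rw [hp]; exact mul_ne_zero hdet (pow_ne_zero _ hx)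
  · intro Y hY
    have huY : u ∉ Y := fun h =>
      Finset.disjoint_left.1 hY (Finset.mem_union_right _ (by simp)) h
    have hvY : v ∉ Y := fun h =>
      Finset.disjoint_left.1 hY (Finset.mem_union_right _ (by simp)) h
    have hXY : Disjoint X ({u, v} ∪ Y) := by
      rw [Finset.disjoint_left]
      intro a ha hb
      rcases Finset.mem_union.1 hb with hb | hb
      · rcases Finset.mem_insert.1 hb with rfl | hb
        · exact hu ha
        · rw [Finset.mem_singleton.1 hb] at ha; exact hv ha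
      · exact Finset.disjoint_left.1 hY (Finset.mem_union_left _ ha) hb
    rw [Finset.union_assoc, hall _ hXY, hsch Y huY hvY, hp]
    exact (mul_assoc _ _ _).symm

end Vale.Agent.P305
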