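import Vale.Agent.P305.Code
import Vale.Agent.P305.Pairs

/-! Selection routines, each one use of `Ok.fillE`; `fE_val` evaluates `fE`, `fc_val` links
`fcN` and `fc`. Register numbers: `simp [SZ, CT, BS, fE]; omega`. -/

namespace Vale.Agent.P305

open Finset Matrix

/-- The registers that the selection routines read. -/
structure SEnv (N g d c : ℕ) (σ : State) : Prop where
  s0 : σ.reg (SZ d) = sz N g d
  s1 : σ.reg (SZ (d + 1)) = sz N g (d + 1)
  bs : σ.reg (BS d) = N ^ (g * d)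
  rb : σ.reg 16 = N ^ (g + 1)
  ct : σ.reg (CT (d + 1)) = c
  hc : c < N ^ (g + 1) * N ^ (g + 1)

variable {M : ℕ} {ρ : ℕ → Bool} {p : ℕ} [NeZero p] {σ : State} {N g d c x z : ℕ} [NeZero N]

theorem fE_val (h : SEnv N g d c σ) (t : Expr) : (fE d t).val σ = fcN N g d c (t.val σ) := by
  unfold fE fcN
  simp only [val_add, val_mul, val_lt, val_reg, val_div, val_mod, val_sub, val_lit, h.bs, h.rb, h.ct]
  split_ifs <;> simp

theorem SEnv.setReg_Sel (h : SEnv N g d c σ) (i : ℕ) : SEnv N g d c (σ.setReg 1 i) :=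
  ⟨by rw [setReg_reg, if_neg (by unfold SZ; omega), h.s0],
    by rw [setReg_reg, if_neg (by unfold SZ; omega), h.s1],
    by rw [setReg_reg, if_neg (by unfold BS; omega), h.bs],
    by rw [setReg_reg, if_neg (by omega), h.rb],
    by rw [setReg_reg, if_neg (by unfold CT; omega), h.ct], h.hc⟩

theorem fE_arrs_Sel (d : ℕ) (t : Expr) (a : ℕ) (ha : a ∉ t.arrs) : a ∉ (fE d t).arrs := by
  simp [fE, ha]

theorem idx_div_Sel {s : ℕ} (i j : Fin s) : (i.val * s + j.val) / s = i.val := by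
  have hs : 0 < s := lt_of_le_of_lt (Nat.zero_le _) j.2
  rw [add_comm, Nat.add_mul_div_right _ _ hs, Nat.div_eq_of_lt j.2, zero_add]

theorem idx_mod_Sel {s : ℕ} (i j : Fin s) : (i.val * s + j.val) % s = j.val := by
  rw [add_comm, Nat.add_mul_mod_self_right, Nat.mod_eq_of_lt j.2]

theorem fillM_Sel {s : ℕ} {E e : Expr} (B : Matrix (Fin s) (Fin s) (ZMod p))
    (hE : E.val σ = s * s) (h1 : 1 ∉ E.regs) (h2 : z ∉ E.arrs) (h3 : z ∉ e.arrs)
    (hM : s * s < M) (hpM : p ≤ M)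
    (hv : ∀ i j : Fin s, e.val (σ.setReg 1 (i.val * s + j.val)) = (B i j).val) :
    Ok M ρ (fillE z E e) σ (fun σ' => Rep σ' z B ∧ Only [1] [z] σ σ') (3 * (s * s) + 2) := by
  refine (Ok.fillE (s * s) (fun i => e.val (σ.setReg 1 i)) hE h1 h2 h3 hM ?_).mono ?_ le_rfl
  · intro i hi
    refine ⟨rfl, ?_⟩
    have hs : 0 < s := Nat.pos_of_ne_zero (by rintro rfl; simp at hi)
    have := hv ⟨i / s, Nat.div_lt_of_lt_mul hi⟩ ⟨i % s, Nat.mod_lt _ hs⟩
    simp only [Nat.div_add_mod'] at this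
    show e.val (σ.setReg 1 i) < M
    rw [this]
    exact lt_of_lt_of_le (ZMod.val_lt _) hpM
  · rintro σ' ⟨k1, -, k3⟩
    refine ⟨fun i j => ?_, k3⟩
    rw [k1 _ ?_, hv]
    calc i.val * s + j.val < (i.val + 1) * s := by rw [add_one_mul]; linarith [j.2]
      _ ≤ s * s := Nat.mul_le_mul_right _ i.2

theorem selM_ok (h : SEnv N g d c σ) (hM : sz N g (d + 1) * sz N g (d + 1) < M) (hpM : p ≤ M)
    (hzx : z ≠ x) {A : Matrix (Fin (sz N g (d + 1))) (Fin (sz N g (d + 1))) (ZMod p)}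
    (hA : Rep σ x A) :
    Ok M ρ (selM d z x) σ
      (fun σ' => Rep σ' z (A.submatrix (fc N g d c) (fc N g d c)) ∧ Only [1] [z] σ σ')
      (3 * (sz N g (d + 1) * sz N g (d + 1)) + 2) := by
  have hle := sz_le_succ N g d
  have hsq : sz N g d * sz N g d ≤ sz N g (d + 1) * sz N g (d + 1) := Nat.mul_le_mul hle hle
  refine (fillM_Sel (s := sz N g d) _ (by simp [h.s0]) (by simp [SZ]; omega) (by simp)
    (by simp [hzx, fE]) (by omega) hpM ?_).mono (fun _ k => k) (by omega)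
  intro i j
  have h' := h.setReg_Sel (i.val * sz N g d + j.val)
  rw [val_load, val_add, val_mul, fE_val h', fE_val h', val_div, val_mod, val_reg, val_reg, val_reg,
    h'.s0, h'.s1, setReg_reg, if_pos rfl, idx_div_Sel, idx_mod_Sel, setReg_arr,
    ← fc_val N g d h.hc i, ← fc_val N g d h.hc j, hA, submatrix_apply]

theorem selI_ok (h : SEnv N g d c σ) (hM : sz N g (d + 1) * sz N g (d + 1) < M) {m : ℕ} (hm : m ≤ M)
    {ι : Fin (sz N g (d + 1)) → Fin m} (hι : ∀ t, σ.arr (IA (d + 1)) t.val = (ι t).val) :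
    Ok M ρ (selI d) σ
      (fun σ' => (∀ t, σ'.arr (IA d) t.val = ((ι ∘ fc N g d c) t).val) ∧ Only [1] [IA d] σ σ')
      (3 * (sz N g (d + 1) * sz N g (d + 1)) + 2) := by
  have hle := sz_le_succ N g d
  have hsq : sz N g (d + 1) ≤ sz N g (d + 1) * sz N g (d + 1) := Nat.le_mul_self _
  refine (Ok.fillE (sz N g d) (fun t => σ.arr (IA (d + 1)) (fcN N g d c t)) (by simp [h.s0])
    (by simp [SZ]; omega) (by simp) (by simp [fE, IA]) (by omega) ?_).mono ?_ (by omega)
  · intro i hi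
    refine ⟨?_, ?_⟩
    · rw [val_load, fE_val (h.setReg_Sel i), val_reg, setReg_reg, if_pos rfl, setReg_arr]
    · have e := fc_val N g d h.hc ⟨i, hi⟩
      show σ.arr (IA (d + 1)) (fcN N g d c i) < M
      rw [← e, hι]
      exact lt_of_lt_of_le (ι _).2 hm
  · rintro σ' ⟨k1, -, k3⟩
    refine ⟨fun t => ?_, k3⟩
    rw [k1 _ t.2, Function.comp_apply, ← hι, fc_val N g d h.hc]

theorem colSel_ok (h : SEnv N g d c σ) (hM : sz N g (d + 1) * sz N g (d + 1) < M) (hpM : p ≤ M)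
    (hzx : z ≠ x) {A : Matrix (Fin (sz N g (d + 1))) (Fin (sz N g (d + 1))) (ZMod p)}
    (hA : Rep σ x A) :
    Ok M ρ (colSel d z x) σ
      (fun σ' => Rep σ' z (Matrix.of fun a t : Fin (sz N g (d + 1)) =>
        if h : t.val < sz N g d then A a (fc N g d c ⟨t.val, h⟩) else 0) ∧ Only [1] [z] σ σ')
      (3 * (sz N g (d + 1) * sz N g (d + 1)) + 2) := by
  refine fillM_Sel (s := sz N g (d + 1)) _ (by simp [h.s1]) (by simp [SZ]; omega) (by simp)
    (by simp [hzx, fE]) hM hpM ?_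
  intro i j
  have h' := h.setReg_Sel (i.val * sz N g (d + 1) + j.val)
  simp only [val_load, val_add, val_mul, fE_val h', val_div, val_mod, val_reg, val_lt, h'.s0, h'.s1,
    setReg_arr, of_apply]
  rw [setReg_reg, if_pos rfl, idx_div_Sel, idx_mod_Sel]
  by_cases hj : j.val < sz N g d
  · rw [if_pos hj, dif_pos hj, one_mul, ← hA, fc_val N g d h.hc]
  · rw [if_neg hj, dif_neg hj, zero_mul, ZMod.val_zero]

theorem rowSel_ok (h : SEnv N g d c σ) (hM : sz N g (d + 1) * sz N g (d + 1) < M) (hpM : p ≤ M)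
    (hzx : z ≠ x) {A : Matrix (Fin (sz N g (d + 1))) (Fin (sz N g (d + 1))) (ZMod p)}
    (hA : Rep σ x A) :
    Ok M ρ (rowSel d z x) σ
      (fun σ' => Rep σ' z (Matrix.of fun t b : Fin (sz N g (d + 1)) =>
        if h : t.val < sz N g d then A (fc N g d c ⟨t.val, h⟩) b else 0) ∧ Only [1] [z] σ σ')
      (3 * (sz N g (d + 1) * sz N g (d + 1)) + 2) := by
  refine fillM_Sel (s := sz N g (d + 1)) _ (by simp [h.s1]) (by simp [SZ]; omega) (by simp)
    (by simp [hzx, fE]) hM hpM ?_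
  intro i j
  have h' := h.setReg_Sel (i.val * sz N g (d + 1) + j.val)
  simp only [val_load, val_add, val_mul, fE_val h', val_div, val_mod, val_reg, val_lt, h'.s0, h'.s1,
    setReg_arr, of_apply]
  rw [setReg_reg, if_pos rfl, idx_div_Sel, idx_mod_Sel]
  by_cases hj : i.val < sz N g d
  · rw [if_pos hj, dif_pos hj, one_mul, ← hA, fc_val N g d h.hc]
  · rw [if_neg hj, dif_neg hj, zero_mul, ZMod.val_zero]

theorem padM_ok (h : SEnv N g d c σ) (hM : sz N g (d + 1) * sz N g (d + 1) < M) (hpM : p ≤ M)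
    (hzx : z ≠ x) {A : Matrix (Fin (sz N g d)) (Fin (sz N g d)) (ZMod p)} (hA : Rep σ x A) :
    Ok M ρ (padM d z x) σ
      (fun σ' => Rep σ' z (Matrix.of fun t t' : Fin (sz N g (d + 1)) =>
        if h : t.val < sz N g d ∧ t'.val < sz N g d then A ⟨t.val, h.1⟩ ⟨t'.val, h.2⟩ else 0) ∧
        Only [1] [z] σ σ')
      (3 * (sz N g (d + 1) * sz N g (d + 1)) + 2) := by
  refine fillM_Sel (s := sz N g (d + 1)) _ (by simp [h.s1]) (by simp [SZ]; omega) (by simp)
    (by simp [hzx]) hM hpM ?_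
  intro i j
  have h' := h.setReg_Sel (i.val * sz N g (d + 1) + j.val)
  simp only [val_load, val_add, val_mul, val_div, val_mod, val_reg, val_lt, h'.s0, h'.s1,
    setReg_arr, of_apply]
  rw [setReg_reg, if_pos rfl, idx_div_Sel, idx_mod_Sel]
  by_cases hi : i.val < sz N g d
  · by_cases hj : j.val < sz N g d
    · rw [if_pos hi, if_pos hj, dif_pos ⟨hi, hj⟩, one_mul, one_mul, ← hA]
    · rw [if_neg hj, dif_neg (fun k => hj k.2), mul_zero, zero_mul, ZMod.val_zero]
  · rw [if_neg hi, dif_neg (fun k => hi k.1), zero_mul, zero_mul, ZMod.val_zero]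

end Vale.Agent.P305
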