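import Vale.Agent.P305.MM
import Vale.Agent.P305.Elem
import Vale.Agent.P305.Sel
import Vale.Agent.P305.NmL

/-! Chains of `Ok.seq'`. Carry the facts along with `MEnv.only`, `Rep.only`, `Only.mono`,
`Only.trans` (prove a small `SEnv.only`). In `postP_ok` finish with `pad_prod` and `sz_le_succ`.
Time: `sq_le_mmT` with `sz N g (d+1) = N ^ (1 + g * (d+1))` (by `rfl`); `s * s ≤ R ^ e < M`. -/

namespace Vale.Agent.P305

open Finset Matrix

variable {M : ℕ} {ρ : ℕ → Bool} {p : ℕ} [Fact p.Prime] {σ : State} {N R : ℕ}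
  {a b c : ℕ → ℕ → ℕ → ZMod p}

theorem step_PrePost {P Q : Prog} {σ₀ σ : State} {F G : State → Prop} {Rr Ra Rs As : List ℕ}
    {S T n : ℕ} (h0 : Only Rs As σ₀ σ) (h : Ok M ρ P σ (fun σ' => F σ' ∧ Only Rr Ra σ σ') S)
    (hS : S ≤ T) (hR : ∀ r ∈ Rr, r ∈ Rs) (hA : ∀ a ∈ Ra, a ∈ As)
    (h' : ∀ σ', F σ' → Only Rr Ra σ σ' → Only Rs As σ₀ σ' → Ok M ρ Q σ' G (n * T)) :
    Ok M ρ (.seq P Q) σ G ((n + 1) * T) :=
  h.seq' (fun σ' k => h' σ' k.1 k.2 (h0.trans (k.2.mono hR hA))) (by rw [add_one_mul]; omega)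

theorem senv_PrePost {g d k : ℕ} {σ σ' : State} {As : List ℕ} (h : SEnv N g d k σ)
    (ho : Only [1, 2, 3, 6, 7, 8] As σ σ') : SEnv N g d k σ' :=
  ⟨(ho.1 _ (by simp [SZ]; omega)).trans h.s0, (ho.1 _ (by simp [SZ]; omega)).trans h.s1,
    (ho.1 _ (by simp [BS]; omega)).trans h.bs, (ho.1 _ (by simp)).trans h.rb,
    (ho.1 _ (by simp [CT]; omega)).trans h.ct, h.hc⟩

theorem time_PrePost {e s : ℕ} (hN : 2 ≤ N) (hR : N * N ≤ R) (hM : R ^ e < M) (hse : s = N ^ e) :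
    s * s < M ∧ 3 * (s * s) + 2 ≤ mmT R e := by
  have h1 := sq_le_mmT (e := e) hR
  have h2 : 0 < N ^ e * N ^ e := by positivity
  have h3 := Nat.pow_le_pow_left hR e
  rw [mul_pow] at h3
  rw [hse]
  omega

theorem rep_PrePost {q s z : ℕ} {σ : State} {A B : Matrix (Fin s) (Fin s) (ZMod q)}
    (h : Rep σ z A) (e : A = B) : Rep σ z B := e ▸ h

theorem num_PrePost (d : ℕ) : SZ (d + 1) = 23 + 3 * d ∧ PA (d + 1) = 23 + 3 * d ∧
    KA (d + 1) = 24 + 3 * d ∧ IA (d + 1) = 25 + 3 * d ∧ PA d = 20 + 3 * d ∧ KA d = 21 + 3 * d ∧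
      IA d = 22 + 3 * d := by
  unfold SZ PA KA IA
  omega

theorem updM_ok {e s z P K sr : ℕ} (hN : 2 ≤ N) (hR : N * N ≤ R)
    (hB : BilAlg N R a b c) (hE : MEnv N R a b c σ) (hpM : p ≤ M) (hM : R ^ e < M)
    (hse : s = N ^ e) (hsr : 9 ≤ sr) (hs : σ.reg sr = s) (hz : 16 ≤ z) (hP : 16 ≤ P) (hK : 16 ≤ K)
    (hzP : z ≠ P) {A B : Matrix (Fin s) (Fin s) (ZMod p)} (hA : Rep σ P A) (hB' : Rep σ K B) :
    Ok M ρ (updM N R z P K sr) σ
      (fun σ' => Rep σ' z (A - A * (B * A)) ∧ Only [1, 2, 3, 6, 7, 8] [11, 12, 13, 14, 15, z] σ σ')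
      (3 * mmT R e) := by
  obtain ⟨t1, t2⟩ := time_PrePost hN hR hM hse
  have inv : ∀ σ', Only [1, 2, 3, 6, 7, 8] [11, 12, 13, 14, 15] σ σ' →
      MEnv N R a b c σ' ∧ σ'.reg sr = s ∧ Rep σ' P A := fun σ' h =>
    ⟨hE.only h (by simp) (by simp) (by simp) (by simp), (h.1 _ (by simp; omega)).trans hs,
      hA.only h (by simp; omega)⟩
  refine step_PrePost (Only.refl [1, 2, 3, 6, 7, 8] [11, 12, 13, 14, 15] σ)
    (mm_ok hN hR hB hE hpM hM hse hsr hs (by omega) (by omega) le_rfl hB' hA) le_rfl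
    (by simp) (by simp) fun σ₁ r1 _ o1 => ?_
  obtain ⟨e1, s1, a1⟩ := inv _ o1
  refine step_PrePost o1
    (mm_ok hN hR hB e1 hpM hM hse hsr s1 (by omega) le_rfl (by omega) a1 r1) le_rfl
    (by simp) (by simp) fun σ₂ r2 _ o2 => ?_
  obtain ⟨e2, s2, a2⟩ := inv _ o2
  exact (subM_ok hsr s2 t1 e2.rp hpM hzP (by omega) a2 r2).mono (fun σ₃ h =>
    ⟨h.1, (o2.mono (by simp) (by simp)).trans (h.2.mono (by simp) (by simp))⟩) (by omega)

theorem preP_ok [NeZero N] {g d k m : ℕ} (hN : 2 ≤ N) (hR : N * N ≤ R)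
    (hB : BilAlg N R a b c) (hE : MEnv N R a b c σ) (hS : SEnv N g d k σ) (hpM : p ≤ M)
    (hM : R ^ (1 + g * (d + 1)) < M) (hm : m ≤ M)
    {P K : Matrix (Fin (sz N g (d + 1))) (Fin (sz N g (d + 1))) (ZMod p)}
    (hP : Rep σ (PA (d + 1)) P) (hK : Rep σ (KA (d + 1)) K)
    {ι : Fin (sz N g (d + 1)) → Fin m} (hι : ∀ t, σ.arr (IA (d + 1)) t.val = (ι t).val) :
    Ok M ρ (preP N R d) σ
      (fun σ' => Rep σ' (PA d) ((P - P * (K * P)).submatrix (fc N g d k) (fc N g d k)) ∧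
        (∀ t, σ'.arr (IA d) t.val = ((ι ∘ fc N g d k) t).val) ∧
        Only [1, 2, 3, 6, 7, 8] [11, 12, 13, 14, 15, 16, PA d, IA d] σ σ')
      (10 * mmT R (1 + g * (d + 1))) := by
  obtain ⟨t1, t2⟩ := time_PrePost (s := sz N g (d + 1)) hN hR hM rfl
  obtain ⟨q1, q2, q3, q4, q5, q6, q7⟩ := num_PrePost d
  refine (updM_ok hN hR hB hE hpM hM rfl (by omega) hS.s1 le_rfl (by omega) (by omega)
    (by omega) hP hK).seq' (T := 2 * mmT R (1 + g * (d + 1))) (fun σ₁ ⟨r1, o1⟩ => ?_) (by omega)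
  have s1 := senv_PrePost hS o1
  refine (selM_ok s1 t1 hpM (by omega) r1).seq' (T := mmT R (1 + g * (d + 1)))
    (fun σ₂ ⟨r2, o2⟩ => ?_) (by omega)
  have s2 := senv_PrePost s1 (o2.mono (by simp) fun _ h => h)
  refine (selI_ok s2 t1 hm (ι := ι) fun t => ?_).mono (fun σ₃ ⟨r3, o3⟩ =>
    ⟨r2.only o3 (by simp), r3, ((o1.mono (by simp) (by simp)).trans
      (o2.mono (by simp) (by simp))).trans (o3.mono (by simp) (by simp))⟩) t2
  rw [o2.2.1 _ (by simp; omega), o1.2.1 _ (by simp; omega), hι]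

theorem postP_ok [NeZero N] {g d k : ℕ} (hN : 2 ≤ N) (hR : N * N ≤ R)
    (hB : BilAlg N R a b c) (hE : MEnv N R a b c σ) (hS : SEnv N g d k σ) (hpM : p ≤ M)
    (hM : R ^ (1 + g * (d + 1)) < M)
    {P K : Matrix (Fin (sz N g (d + 1))) (Fin (sz N g (d + 1))) (ZMod p)}
    {K' : Matrix (Fin (sz N g d)) (Fin (sz N g d)) (ZMod p)}
    (hP : Rep σ (PA (d + 1)) P) (hK : Rep σ (KA (d + 1)) K) (hK' : Rep σ (KA d) K') :
    Ok M ρ (postP N R d) σ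
      (fun σ' => Rep σ' (KA (d + 1)) (K + (1 - K * P).submatrix id (fc N g d k) * K' *
          (1 - P * K).submatrix (fc N g d k) id) ∧
        Only [1, 2, 3, 6, 7, 8] [11, 12, 13, 14, 15, 16, KA (d + 1)] σ σ')
      (20 * mmT R (1 + g * (d + 1))) := by
  obtain ⟨t1, t2⟩ := time_PrePost (s := sz N g (d + 1)) hN hR hM rfl
  obtain ⟨q1, q2, q3, q4, q5, q6, q7⟩ := num_PrePost d
  have inv : ∀ σ', Only [1, 2, 3, 6, 7, 8] [11, 12, 13, 14, 15, 16] σ σ' →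
      MEnv N R a b c σ' ∧ SEnv N g d k σ' ∧ Rep σ' (PA (d + 1)) P ∧ Rep σ' (KA (d + 1)) K ∧
        Rep σ' (KA d) K' := fun σ' h =>
    ⟨hE.only h (by simp) (by simp) (by simp) (by simp), senv_PrePost hS h,
      hP.only h (by simp; omega), hK.only h (by simp; omega), hK'.only h (by simp; omega)⟩
  have z1 : 9 ≤ SZ (d + 1) := by omega
  have z2 : 14 ≤ KA (d + 1) := by omega
  have z3 : 14 ≤ PA (d + 1) := by omega
  refine step_PrePost (Only.refl [1, 2, 3, 6, 7, 8] [11, 12, 13, 14, 15, 16] σ)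
    (mm_ok hN hR hB hE hpM hM rfl z1 hS.s1 z2 z3 le_rfl hK hP) le_rfl
    (by simp) (by simp) fun σ₁ r1 _ o1 => ?_
  refine step_PrePost o1 (oneSub_ok z1 (inv _ o1).2.1.s1 t1 (inv _ o1).1.rp hpM (by omega) r1) t2
    (by simp) (by simp) fun σ₂ r2 _ o2 => ?_
  refine step_PrePost o2 (colSel_ok (inv _ o2).2.1 t1 hpM (by omega) r2) t2
    (by simp) (by simp) fun σ₃ r3 _ o3 => ?_
  refine step_PrePost o3 (padM_ok (inv _ o3).2.1 t1 hpM (by omega) (inv _ o3).2.2.2.2) t2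
    (by simp) (by simp) fun σ₄ r4 u4 o4 => ?_
  refine step_PrePost o4 (mm_ok hN hR hB (inv _ o4).1 hpM hM rfl z1 (inv _ o4).2.1.s1 le_rfl
    (by omega) (by omega) (r3.only u4 (by simp)) r4) le_rfl
    (by simp) (by simp) fun σ₅ r5 _ o5 => ?_
  refine step_PrePost o5 (mm_ok hN hR hB (inv _ o5).1 hpM hM rfl z1 (inv _ o5).2.1.s1 z3 z2 le_rfl
    (inv _ o5).2.2.1 (inv _ o5).2.2.2.1) le_rfl (by simp) (by simp) fun σ₆ r6 u6 o6 => ?_
  refine step_PrePost o6 (oneSub_ok z1 (inv _ o6).2.1.s1 t1 (inv _ o6).1.rp hpM (by omega) r6) t2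
    (by simp) (by simp) fun σ₇ r7 u7 o7 => ?_
  refine step_PrePost o7 (rowSel_ok (inv _ o7).2.1 t1 hpM (by omega) r7) t2
    (by simp) (by simp) fun σ₈ r8 u8 o8 => ?_
  refine step_PrePost o8 (mm_ok hN hR hB (inv _ o8).1 hpM hM rfl z1 (inv _ o8).2.1.s1 (by omega)
    le_rfl (by omega) (((r5.only u6 (by simp)).only u7 (by simp)).only u8 (by simp)) r8) le_rfl
    (by simp) (by simp) fun σ₉ r9 _ o9 => ?_
  replace r9 : Rep σ₉ 15 ((1 - K * P).submatrix id (fc N g d k) * K' *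
      (1 - P * K).submatrix (fc N g d k) id) :=
    rep_PrePost r9 (pad_prod (sz_le_succ N g d) (fc N g d k) (1 - K * P) (1 - P * K) _ _ _ K'
      (fun _ _ => rfl) (fun _ _ => rfl) fun _ _ => rfl)
  refine step_PrePost o9 (addM_ok z1 (inv _ o9).2.1.s1 t1 (inv _ o9).1.rp hpM (by omega) (by omega)
    (inv _ o9).2.2.2.1 r9) t2 (by simp) (by simp) fun σ' r _ o => ?_
  exact (copyM_ok z1 (inv _ o).2.1.s1 t1 hpM (by omega) r).mono (fun σ₃ h =>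
    ⟨h.1, (o.mono (by simp) (by simp)).trans (h.2.mono (by simp) (by simp))⟩) (by omega)

end Vale.Agent.P305
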