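import Vale.Agent.P305.Code

/-! Reading the adjacency lists: two nested `Ok.forL`. Let `off u` be the total length of the lists
of the vertices below `u`. Outer invariant: register 13 is `off u`, and cell `a * m + b` (`b < m`) of
array 3 is 1 if `a < u` and `b` is in the list of `a`, else 0. Key lemma: entry `off u + j` of the
flattened list is entry `j` of `adj u` (write `List.ofFn adj` as `take u ++ adj u :: drop`, or
induct on a general list of lists). Each list has length at most `n` (`List.Nodup.length_le_card`).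
`hzP_ok` is one use of `Ok.fillE`. -/

namespace Vale.Agent.P305

open Finset

variable {M : ℕ} {ρ : ℕ → Bool} {σ : State}

theorem flat_Read (Ls : List (List ℕ)) (u j : ℕ) (hj : j < (Ls.getD u []).length) :
    Ls.flatten.getD (∑ i ∈ range u, (Ls.getD i []).length + j) 0 = (Ls.getD u []).getD j 0 := by
  induction Ls generalizing u with
  | nil => simp at hj
  | cons l Ls ih =>
    cases u with
    | zero =>
      rw [List.getD_cons_zero] at hj ⊢
      rw [sum_range_zero, zero_add, List.flatten_cons, List.getD_append _ _ _ _ hj]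
    | succ u =>
      rw [List.getD_cons_succ] at hj ⊢
      rw [sum_range_succ', List.flatten_cons, List.getD_append_right _ _ _ _ (by
        rw [List.getD_cons_zero]; omega), ← ih u hj]
      simp only [List.getD_cons_succ, List.getD_cons_zero]
      congr 1
      omega

theorem only_reg_Read {σ σ' : State} (h : Only [13, 14, 15] [3] σ σ') {r : ℕ}
    (hr : r ∈ [13, 14, 15]) (v : ℕ) : Only [13, 14, 15] [3] σ (σ'.setReg r v) :=
  ⟨fun r' hr' => by
    rw [setReg_reg, if_neg (fun e : r' = r => hr' (e ▸ hr)), h.1 r' hr'], h.2.1, h.2.2⟩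

theorem only_arr_Read {σ σ' : State} (h : Only [13, 14, 15] [3] σ σ') (i v : ℕ) :
    Only [13, 14, 15] [3] σ (σ'.setArr 3 i v) :=
  ⟨h.1, fun a ha => by
    rw [setArr_arr, if_neg (fun e => ha (by simp [e])), h.2.1 a ha], h.2.2⟩

open Classical in
theorem aux_Read {n m : ℕ} (A : ℕ → List ℕ) (hlen : ∀ u < n, (A u).length ≤ n) (hm : n ≤ m)
    (hM : m * m + 1 < M) (h0 : σ.reg 0 = n) (h10 : σ.reg 10 = m)
    (ha0 : ∀ u < n, σ.arr 0 u = (A u).length)
    (ha1 : ∀ u < n, ∀ j < (A u).length,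
      σ.arr 1 (∑ i ∈ range u, (A i).length + j) = (A u).getD j 0)
    (ha3 : ∀ i, σ.arr 3 i = 0) :
    Ok M ρ readP σ (fun σ' => (∀ i, σ'.arr 3 i =
      if ∃ a < n, ∃ k < (A a).length, i = a * m + (A a).getD k 0 then 1 else 0) ∧
        Only [13, 14, 15] [3] σ σ') (n * (4 * n + 4) + 3) := by
  have hnn : n * n ≤ m * m := Nat.mul_le_mul hm hm
  have hn : n < M := by nlinarith
  have hoff : ∀ u < n, ∑ i ∈ range u, (A i).length + (A u).length ≤ n * n := fun u hu => by
    rw [← sum_range_succ (fun i => (A i).length)]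
    refine (sum_le_card_nsmul _ _ n fun i hi => hlen i ?_).trans ?_
    · have := mem_range.1 hi
      omega
    · rw [card_range, smul_eq_mul]
      exact Nat.mul_le_mul_right _ hu
  refine Ok.seq' (S := 1) (T := n * (4 * n + 2 + 2) + 2) (Q := fun σ' => σ' = σ.setReg 13 0)
    (Ok.set (by simp; omega) rfl) ?_ (by nlinarith)
  rintro _ rfl
  refine (Ok.forL n (4 * n + 2) (fun u σ' => σ'.reg 13 = ∑ i ∈ range u, (A i).length ∧
    (∀ i, σ'.arr 3 i =
      if ∃ a < u, ∃ k < (A a).length, i = a * m + (A a).getD k 0 then 1 else 0) ∧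
      Only [13, 14, 15] [3] σ σ') hn ⟨by simp, by simpa using ha3,
        only_reg_Read (only_reg_Read (Only.refl _ _ _) (by simp) _) (by simp) _⟩
    (fun u σ' hI _ => ?_) fun u hu σ₁ hI hr => ?_).mono (fun σ' h => h.1.2) le_rfl
  · rw [val_reg, hI.2.2.1 0 (by simp), h0]
  · have hl := hlen u hu
    have ho := hoff u hu
    refine (Ok.forL (A u).length 2 (fun j σ' => σ'.reg 14 = u ∧
      σ'.reg 13 = ∑ i ∈ range u, (A i).length + j ∧
      (∀ i, σ'.arr 3 i = if (∃ a < u, ∃ k < (A a).length, i = a * m + (A a).getD k 0) ∨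
        ∃ k < j, i = u * m + (A u).getD k 0 then 1 else 0) ∧
      Only [13, 14, 15] [3] σ σ') (by omega)
      ⟨by simpa using hr, by simpa using hI.1, by simpa using hI.2.1,
        only_reg_Read hI.2.2 (by simp) _⟩
      (fun j σ' hJ _ => ?_) fun j hj σ₂ hJ hr' => ?_).mono (fun σ' h => ?_) (by omega)
    · rw [val_load, val_reg, hJ.1, hJ.2.2.2.2.1 0 (by simp), ha0 u hu]
    · obtain ⟨k1, k2, k3, k4⟩ := hJ
      have hv : (Expr.reg 14 * Expr.reg 10 + Expr.load 1 (Expr.reg 13)).val σ₂ =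
          u * m + (A u).getD j 0 := by
        rw [val_add, val_mul, val_load, val_reg, val_reg, val_reg, k1, k2, k4.1 10 (by simp), h10,
          k4.2.1 1 (by simp), ha1 u hu j hj]
      refine Ok.seq (S := 1) (T := 1) (Q := fun σ' => σ' = σ₂.setArr 3 (u * m + (A u).getD j 0) 1)
        (Ok.store (by simp; omega) (by rw [hv]; rfl)) ?_
      rintro _ rfl
      refine Ok.set (by simp [k2]; omega) ⟨by simpa using hr', by simpa using k1,
        by simp [k2, add_assoc], fun i => ?_,
        only_reg_Read (only_reg_Read (only_arr_Read k4 _ _) (by simp) _) (by simp) _⟩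
      rw [setReg_arr, setReg_arr, setArr_arr_apply, k3 i]
      by_cases hi : i = u * m + (A u).getD j 0
      · rw [if_pos ⟨rfl, hi⟩, if_pos (Or.inr ⟨j, Nat.lt_succ_self j, hi⟩)]
      · rw [if_neg fun h => hi h.2]
        refine if_congr (or_congr_right ⟨fun ⟨k, h1, h2⟩ => ⟨k, by omega, h2⟩,
          fun ⟨k, h1, h2⟩ => ⟨k, ?_, h2⟩⟩) rfl rfl
        by_contra h3
        exact hi (by rw [h2, show k = j by omega])
    · obtain ⟨⟨k1, k2, k3, k4⟩, -⟩ := h
      refine ⟨k1, by simp [k2, sum_range_succ], fun i => ?_, only_reg_Read k4 (by simp) _⟩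
      rw [setReg_arr, k3 i]
      refine if_congr ⟨?_, fun ⟨a, h1, h2⟩ => ?_⟩ rfl rfl
      · rintro (⟨a, h1, h2⟩ | h2)
        · exact ⟨a, by omega, h2⟩
        · exact ⟨u, Nat.lt_succ_self u, h2⟩
      · rcases Nat.lt_succ_iff_lt_or_eq.1 h1 with h1 | rfl
        · exact Or.inl ⟨a, h1, h2⟩
        · exact Or.inr h2

theorem divmod_Read {m : ℕ} (u : ℕ) {v : ℕ} (hv : v < m) :
    (u * m + v) / m = u ∧ (u * m + v) % m = v := by
  have hm : 0 < m := by omega
  rw [add_comm, Nat.add_mul_div_right _ _ hm, Nat.add_mul_mod_self_right, Nat.div_eq_of_lt hv,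
    Nat.mod_eq_of_lt hv, zero_add]
  exact ⟨rfl, rfl⟩

open Classical in
theorem readP_ok {n m : ℕ} {G : SimpleGraph (Fin n)} {adj : Fin n → List (Fin n)}
    (hadj : IsAdjList G adj) (hm : n ≤ m) (hM : m * m + 1 < M) (h0 : σ.reg 0 = n) (h10 : σ.reg 10 = m)
    (ha0 : σ.arr 0 = (input adj).arr 0) (ha1 : σ.arr 1 = (input adj).arr 1)
    (ha3 : ∀ i, σ.arr 3 i = 0) :
    Ok M ρ readP σ
      (fun σ' => (∀ u v : Fin m, σ'.arr 3 (u.val * m + v.val) = if (lift G m).Adj u v then 1 else 0) ∧
        Only [13, 14, 15] [3] σ σ') (n * (4 * n + 4) + 3) := by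
  have hA : ∀ (u : ℕ) (hu : u < n), (List.ofFn fun v => (adj v).map Fin.val).getD u [] =
      (adj ⟨u, hu⟩).map Fin.val := fun u hu => by
    rw [List.getD_eq_getElem _ _ (by simpa using hu), List.getElem_ofFn]
  refine (aux_Read (fun u => (List.ofFn fun v => (adj v).map Fin.val).getD u []) (fun u hu => ?_)
    hm hM h0 h10 (fun u hu => ?_) (fun u hu j hj => ?_) ha3).mono (fun σ' h => ⟨fun u v => ?_, h.2⟩)
    le_rfl
  · rw [hA u hu, List.length_map]
    simpa using (hadj ⟨u, hu⟩).1.length_le_card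
  · rw [ha0, hA u hu, List.length_map]
    change (List.ofFn fun v => (adj v).length).getD u 0 = _
    rw [List.getD_eq_getElem _ _ (by simpa using hu), List.getElem_ofFn]
  · rw [ha1, ← flat_Read _ u j hj]
    change ((List.ofFn adj).flatten.map Fin.val).getD _ 0 = _
    rw [List.map_flatten, List.map_ofFn]
    rfl
  · rw [h.1]
    refine if_congr ⟨?_, ?_⟩ rfl rfl
    · rintro ⟨a, ha, k, hk, e⟩
      rw [hA a ha] at hk e
      rw [List.getD_eq_getElem _ _ hk, List.getElem_map] at e
      rw [List.length_map] at hk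
      have h1 := divmod_Read u.val v.2
      have h2 := divmod_Read a (((adj ⟨a, ha⟩)[k]).2.trans_le hm)
      rw [← e] at h2
      have e1 : u.val = a := h1.1.symm.trans h2.1
      have e2 : v.val = ((adj ⟨a, ha⟩)[k]).val := h1.2.symm.trans h2.2
      subst e1
      refine ⟨ha, e2 ▸ ((adj ⟨u.val, ha⟩)[k]).2, ((hadj _).2 _).1 ?_⟩
      have e3 : (⟨v.val, e2 ▸ ((adj ⟨u.val, ha⟩)[k]).2⟩ : Fin n) = (adj ⟨u.val, ha⟩)[k] :=
        Fin.ext e2
      rw [e3]
      exact List.getElem_mem hk
    · rintro ⟨hu, hv, h⟩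
      obtain ⟨k, hk, e⟩ := List.getElem_of_mem (((hadj _).2 _).2 h)
      refine ⟨u.val, hu, k, by rw [hA _ hu, List.length_map]; exact hk, ?_⟩
      rw [hA _ hu, List.getD_eq_getElem _ _ (by rw [List.length_map]; exact hk), List.getElem_map, e]

theorem hzP_ok {n m : ℕ} (hM : m * m + 1 < M) (h0 : σ.reg 0 = n) (h10 : σ.reg 10 = m) :
    Ok M ρ hzP σ
      (fun σ' => (∀ u v : Fin m, σ'.arr 4 (u.val * m + v.val) ≠ 0 ↔ HZ m n u v) ∧
        Only [1] [4] σ σ') (3 * (m * m) + 2) := by
  refine (Ok.fillE (m * m) (fun i => if n ≤ i / m ∧ i / m < 2 * n ∧ n ≤ i % m ∧ i % m < 2 * n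
    then 1 else 0) (by simp [h10]) (by simp) (by decide) (by decide) (by omega)
    fun i _ => ⟨?_, by split_ifs <;> omega⟩).mono (fun σ' h => ⟨fun u v => ?_, h.2.2⟩) le_rfl
  · simp only [val_mul, val_sub, val_lit, val_lt, val_div, val_mod, val_reg, setReg_reg, if_true,
      show ¬ (10 = 1) by decide, show ¬ (0 = 1) by decide, if_false, h0, h10]
    split_ifs <;> omega
  · have h1 := divmod_Read u.val v.2
    have h2 : u.val * m + v.val < m * m := by
      have := Nat.mul_le_mul_right m (Nat.succ_le_of_lt u.2)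
      have := v.2
      rw [Nat.succ_mul] at *
      omega
    rw [h.1 _ h2, h1.1, h1.2]
    simp [HZ]

end Vale.Agent.P305
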