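import Vale.Agent.P305.Code
import Vale.Agent.P305.Tape

/-! Random values: two nested `Ok.forL`. Outer invariant at round `i`: `coins = i * k`, cells below
`i` are right. Inner invariant at round `j`: `coins = i * k + j`, register 14 is
`bitsVal ρ (i * k) j`. Carry the frame conditions in the invariants. -/

namespace Vale.Agent.P305

open Finset

variable {M : ℕ} {ρ : ℕ → Bool} {σ : State}

theorem inner_Rnd {k s : ℕ} (hM : 2 ^ k < M) (h11 : σ.reg 11 = k) (h14 : σ.reg 14 = 0)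
    (hc : σ.coins = s) :
    Ok M ρ (forL 15 (.reg 11) (.seq (.coin 4) (.set 14 (.lit 2 * .reg 14 + .reg 4)))) σ
      (fun σ' => σ'.reg 14 = bitsVal ρ s k ∧ σ'.coins = s + k ∧
        (∀ r, r ∉ [4, 14, 15] → σ'.reg r = σ.reg r) ∧ σ'.arr = σ.arr) (4 * k + 2) := by
  have hk : k < M := Nat.lt_two_pow_self.trans hM
  have := Ok.forL (M := M) (ρ := ρ) (r := 15) (N := .reg 11)
    (body := .seq (.coin 4) (.set 14 (.lit 2 * .reg 14 + .reg 4))) k 2
    (fun j σ' => σ'.reg 14 = bitsVal ρ s j ∧ σ'.coins = s + j ∧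
      (∀ r, r ∉ [4, 14, 15] → σ'.reg r = σ.reg r) ∧ σ'.arr = σ.arr) hk (σ := σ)
    ⟨by simp [h14, bitsVal], by simp [hc], fun r hr => by simp at hr; simp [hr], rfl⟩
    (fun i σ' hI _ => by rw [val_reg, hI.2.2.1 11 (by simp), h11])
    (fun j hj σ' hI hr => by
      obtain ⟨i1, i2, i3, i4⟩ := hI
      refine Ok.seq' (S := 1) (T := 1) (Q := fun τ => τ.reg 4 = (if ρ (s + j) then 1 else 0) ∧
        τ.coins = s + (j + 1) ∧ (∀ r, r ≠ 4 → τ.reg r = σ'.reg r) ∧ τ.arr = σ'.arr)
        (Ok.coin ⟨by simp [i2], by simp [i2, add_assoc], fun r h => by simp [h], rfl⟩)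
        (fun τ hτ => ?_) le_rfl
      obtain ⟨t1, t2, t3, t4⟩ := hτ
      have hv : (Expr.lit 2 * Expr.reg 14 + Expr.reg 4).val τ = bitsVal ρ s (j + 1) := by
        simp [t1, t3 14 (by simp), i1, bitsVal]
      refine Ok.set ?_ ⟨?_, ?_, ?_, ?_, ?_⟩
      · rw [hv]
        exact ((bitsVal_lt ρ s (j + 1)).trans_le
          (Nat.pow_le_pow_right (by norm_num) hj)).trans hM
      · simp [t3 15 (by simp), hr]
      · rw [hv]
        simp
      · simp [t2]
      · intro r h
        have h' := i3 r h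
        simp at h
        simp [h, t3 r h.1, h']
      · simp [t4, i4])
  exact this.mono (fun σ' h => h.1) (by omega)

theorem rndP_ok {m k : ℕ} (hM : 2 ^ k < M) (hM' : 2 * m * m < M) (h10 : σ.reg 10 = m)
    (h11 : σ.reg 11 = k) (hc : σ.coins = 0) :
    Ok M ρ rndP σ
      (fun σ' => (∀ i < 2 * m * m, σ'.arr 9 i = bitsVal ρ (i * k) k) ∧ σ'.coins = 2 * m * m * k ∧
        (∀ r, r ∉ [4, 13, 14, 15] → σ'.reg r = σ.reg r) ∧ ∀ a, a ≠ 9 → σ'.arr a = σ.arr a)
      (2 * m * m * (4 * k + 6) + 2) := by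
  have := Ok.forL (M := M) (ρ := ρ) (r := 13) (N := .lit 2 * .reg 10 * .reg 10)
    (body := .seq (.set 14 (.lit 0)) <|
      .seq (forL 15 (.reg 11) (.seq (.coin 4) (.set 14 (.lit 2 * .reg 14 + .reg 4))))
        (.store 9 (.reg 13) (.reg 14))) (2 * m * m) (4 * k + 4)
    (fun i σ' => (∀ j < i, σ'.arr 9 j = bitsVal ρ (j * k) k) ∧ σ'.coins = i * k ∧
      (∀ r, r ∉ [4, 13, 14, 15] → σ'.reg r = σ.reg r) ∧ ∀ a, a ≠ 9 → σ'.arr a = σ.arr a) hM'
    (σ := σ)
    ⟨by simp, by simp [hc], fun r hr => by simp at hr; simp [hr], fun _ _ => rfl⟩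
    (fun i σ' hI _ => by simp [hI.2.2.1 10 (by simp), h10])
    (fun i hi σ' hI hr => by
      obtain ⟨i1, i2, i3, i4⟩ := hI
      refine Ok.seq' (S := 1) (T := 4 * k + 3) (Q := fun τ => τ = σ'.setReg 14 0)
        (Ok.set (by simp; omega) rfl) (fun τ hτ => ?_) (by omega)
      subst hτ
      refine Ok.seq' (T := 1) (inner_Rnd (s := i * k) hM (by simp [i3 11 (by simp), h11])
        (by simp) (by simp [i2])) (fun τ hτ => ?_) le_rfl
      obtain ⟨t1, t2, t3, t4⟩ := hτ
      have t13 : τ.reg 13 = i := by simp [t3 13 (by simp), hr]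
      refine Ok.store ?_ ⟨?_, ?_, ?_, ?_, ?_⟩
      · rw [val_reg, t1]
        exact (bitsVal_lt ρ _ k).trans hM
      · simp [t13]
      · intro j hj
        by_cases h : j = i
        · simp [h, t13, t1]
        · simp [h, t13, t4, i1 j (by omega)]
      · simp [t2, add_mul]
      · intro r h
        have h' := i3 r h
        simp at h
        simp [h, t3 r (by simp [h]), h']
      · intro a h
        simp [setArr_arr, h, t4, i4 a h])
  exact this.mono (fun σ' h => h.1) le_rfl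

end Vale.Agent.P305
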