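import Vale.Agent.P305.Code

/-! The sieve. Outer loop by `Ok.forS` with `T d = 3 * (X / d) + 3`, `X = 2 * 2^k`; invariant after
`d` rounds: cell `q` of array 10 is nonzero iff `q ≤ X` and `q = i * j` with `2 ≤ i < d`, `2 ≤ j`.
Inner loop by `Ok.loopV` (measure `(X + d - reg 14) / d`) or `Ok.loopN`. At the end, for
`2 ≤ q ≤ X`, the cell is zero iff `q` is prime. Harmonic bound:
`∑ d ∈ range (2^j + 1), X / d ≤ X * (j + 1)` (induction on `j`: a dyadic block adds at most `X`).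
The final scan is `Ok.loopN` with `p - 2^k - 1` rounds. -/

namespace Vale.Agent.P305

open Finset

variable {M : ℕ} {ρ : ℕ → Bool} {σ : State}

theorem harm_Sieve (X j : ℕ) : ∑ d ∈ range (2 ^ j + 1), X / d ≤ X * (j + 1) := by
  induction j with
  | zero => simp [sum_range_succ]
  | succ j ih =>
    have h1 : 2 ^ (j + 1) + 1 = 2 ^ j + 1 + 2 ^ j := by ring
    have h2 : ∑ i ∈ range (2 ^ j), X / (2 ^ j + 1 + i) ≤ 2 ^ j * (X / 2 ^ j) := by
      have h3 := sum_le_card_nsmul (range (2 ^ j)) (fun i => X / (2 ^ j + 1 + i)) (X / 2 ^ j)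
        fun i _ => Nat.div_le_div_left (by omega) (by positivity)
      simpa using h3
    have h3 := Nat.mul_div_le X (2 ^ j)
    rw [h1, sum_range_add, mul_add X (j + 1) 1]
    omega

/-- The invariant of the sieve after `d` rounds. -/
def Sv_Sieve (Y d : ℕ) (σ : State) : Prop :=
  σ.reg 12 = Y ∧ (∀ q, σ.arr 10 q ≠ 0 → ¬ q.Prime) ∧
    ∀ i j, 2 ≤ i → i < d → 2 ≤ j → i * j ≤ 2 * Y → σ.arr 10 (i * j) ≠ 0

theorem inner_Sieve {Y d : ℕ} (hM : 8 * Y ≤ M) (hd : 1 < d) (hd' : d ≤ 2 * Y)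
    (h : Sv_Sieve Y d σ) (hr : σ.reg 13 = d) :
    Ok M ρ (.seq (.set 14 (.lit 2 * .reg 13))
      (.loop (.lt (.reg 14) (.lit 2 * .reg 12 + .lit 1))
        (.seq (.store 10 (.reg 14) (.lit 1)) (.set 14 (.reg 14 + .reg 13))))) σ
      (fun σ' => σ'.reg 13 = d ∧ Sv_Sieve Y (d + 1) σ') (3 * (2 * Y / d) + 2) := by
  have h1 := Ok.loopV (M := M) (ρ := ρ) (e := .lt (.reg 14) (.lit 2 * .reg 12 + .lit 1))
    (p := .seq (.store 10 (.reg 14) (.lit 1)) (.set 14 (.reg 14 + .reg 13)))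
    (fun σ' => σ'.reg 13 = d ∧ Sv_Sieve Y d σ' ∧ ∃ j, 2 ≤ j ∧ σ'.reg 14 = d * j ∧
      ∀ j', 2 ≤ j' → j' < j → σ'.arr 10 (d * j') ≠ 0)
    (fun σ' => (2 * Y + d - σ'.reg 14) / d) 2
    (fun σ' ⟨a1, ⟨a2, a3, a4⟩, j, a5, a6, a7⟩ he => by
      have b1 : d * j ≤ 2 * Y := by
        simp only [val_lt, val_reg, val_add, val_mul, val_lit, a2, a6] at he
        by_contra h2
        exact he (if_neg (by omega))
      refine Ok.seq (S := 1) (T := 1) (Ok.store (Q := fun s => s = σ'.setArr 10 (d * j) 1)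
        (by simp only [val_lit]; omega) (by simp [a6])) ?_
      rintro _ rfl
      refine Ok.set (by simp only [val_add, val_reg, setArr_reg, a1, a6]; omega)
        ⟨⟨by simpa using a1, ⟨by simpa using a2, fun q hq => ?_, fun i i' c1 c2 c3 c4 => ?_⟩, j + 1,
          by omega, by simp [a1, a6, mul_add], fun j' c1 c2 => ?_⟩, ?_⟩
      · by_cases h2 : q = d * j
        · exact h2 ▸ Nat.not_prime_mul (by omega) (by omega)
        · exact a3 q (by simpa [h2] using hq)
      · have := a4 i i' c1 c2 c3 c4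
        simp only [setReg_arr, setArr_arr_apply]
        split_ifs <;> simp [this]
      · simp only [setReg_arr, setArr_arr_apply, true_and]
        split_ifs with h2
        · simp
        · exact a7 j' c1 (lt_of_le_of_ne (by omega) fun h3 => h2 (by rw [h3]))
      · have c1 : 2 * Y + d - d * j = 2 * Y + d - (d * j + d) + d := by omega
        simp only [setReg_reg, if_true, val_add, val_reg, setArr_reg, a1, a6]
        rw [c1, Nat.add_div_right _ (by omega)]
        omega)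
    (σ := σ.setReg 14 (d * 2))
    ⟨by simpa using hr, by simpa [Sv_Sieve] using h, 2, le_rfl, by simp, fun j' c1 c2 => by omega⟩
  have h2 : (2 * Y + d - d * 2) / d ≤ 2 * Y / d := Nat.div_le_div_right (by omega)
  refine Ok.seq' (S := 1) (T := 3 * (2 * Y / d) + 1)
    (Ok.set (Q := fun s => s = σ.setReg 14 (d * 2))
    (by simp only [val_mul, val_lit, val_reg, hr]; omega) (by simp [hr, mul_comm])) ?_ (by omega)
  rintro _ rfl
  refine h1.mono (fun σ' ⟨⟨a1, ⟨a2, a3, a4⟩, j, a5, a6, a7⟩, he⟩ =>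
    ⟨a1, a2, a3, fun i i' c1 c2 c3 c4 => ?_⟩) (by simp only [setReg_reg, if_true]; omega)
  rcases Nat.lt_succ_iff_lt_or_eq.1 c2 with c5 | rfl
  · exact a4 i i' c1 c5 c3 c4
  · refine a7 i' c3 (Nat.lt_of_mul_lt_mul_left (a := i) ?_)
    simp only [val_lt, val_reg, val_add, val_mul, val_lit, a2, a6] at he
    by_contra h3
    rw [if_pos (by omega)] at he
    omega

theorem sieveP_ok {k p : ℕ} (hp : p.Prime) (hp1 : 2 ^ k < p) (hp2 : ∀ q, 2 ^ k < q → q < p → ¬ q.Prime)
    (hp3 : p ≤ 2 * 2 ^ k) (hM : 8 * 2 ^ k ≤ M) (h12 : σ.reg 12 = 2 ^ k) (h10 : ∀ i, σ.arr 10 i = 0) :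
    Ok M ρ sieveP σ (fun σ' => σ'.reg 5 = p ∧ Only [5, 13, 14] [10] σ σ') (2 ^ k * (6 * k + 40)) := by
  have hY : 1 ≤ 2 ^ k := Nat.one_le_two_pow
  have hh := harm_Sieve (2 * 2 ^ k) (k + 1)
  rw [pow_succ'] at hh
  generalize 2 ^ k = Y at *
  have h1 := Ok.forS (M := M) (ρ := ρ) (r := 13) (N := .lit 2 * .reg 12 + .lit 1)
    (body := .ite (.lt (.lit 1) (.reg 13))
      (.seq (.set 14 (.lit 2 * .reg 13))
        (.loop (.lt (.reg 14) (.lit 2 * .reg 12 + .lit 1))
          (.seq (.store 10 (.reg 14) (.lit 1)) (.set 14 (.reg 14 + .reg 13)))))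
      (.set 14 (.lit 0))) (2 * Y + 1) (fun d => 3 * (2 * Y / d) + 3) (Sv_Sieve Y) (by omega)
    (σ := σ) ⟨by simpa using h12, fun q hq => absurd (h10 q) hq, fun i j _ h => by omega⟩
    (fun i σ' hI _ => by simp [hI.1])
    (fun i hi σ' hI hr => by
      by_cases h1 : 1 < i
      · exact Ok.iteT (by simp [hr, h1]) ((inner_Sieve hM h1 (by omega) hI hr).mono
          (fun s hs => ⟨hs.1, by simpa [Sv_Sieve] using hs.2⟩) le_rfl)
      · refine (Ok.iteF (T := 1) (by simp [hr, h1]) (Ok.set (by simp only [val_lit]; omega)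
          ⟨by simpa using hr, by simpa using hI.1, hI.2.1, fun a b _ _ => ?_⟩)).mono
          (fun _ h => h) (by omega)
        omega)
  have h2 : Ok M ρ sieveP σ (fun σ' => σ'.reg 5 = p) (Y * (6 * k + 40)) := by
    refine Ok.seq' (T := 2 * Y + 2) h1 (fun σ₁ ⟨⟨a1, a2, a3⟩, _⟩ => ?_) ?_
    · have h3 := Ok.loopN (M := M) (ρ := ρ) (e := .load 10 (.reg 5))
        (p := .set 5 (.reg 5 + .lit 1)) (fun i s => s.reg 5 = Y + 1 + i ∧ s.arr = σ₁.arr)
        (p - Y - 1) 1
        (fun i hi s ⟨b1, b2⟩ => ⟨by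
          obtain ⟨m, ⟨j, hj⟩, c1, c2⟩ := Nat.exists_dvd_of_not_prime2 (n := Y + 1 + i) (by omega)
            (hp2 _ (by omega) (by omega))
          simp only [val_load, val_reg, b1, b2, hj]
          refine a3 m j c1 (by omega) ?_ (by omega)
          by_contra h4
          have h5 : m * j ≤ m * 1 := Nat.mul_le_mul_left _ (by omega)
          omega, Ok.set (by simp only [val_add, val_reg, val_lit, b1]; omega)
            ⟨by simp [b1, add_assoc], by simpa using b2⟩⟩)
        (fun s ⟨b1, b2⟩ => by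
          have h4 : Y + 1 + (p - Y - 1) = p := by omega
          simp only [val_load, val_reg, b1, b2, h4]
          by_contra h5
          exact a2 p h5 hp)
        (σ := σ₁.setReg 5 (Y + 1)) ⟨by simp, by simp⟩
      refine Ok.seq' (S := 1) (T := 2 * Y + 1) (Ok.set (Q := fun s => s = σ₁.setReg 5 (Y + 1))
        (by simp only [val_add, val_reg, val_lit, a1]; omega) (by simp [a1])) ?_ (by omega)
      rintro _ rfl
      exact h3.mono (fun s hs => by rw [hs.1]; omega) (by omega)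
    · simp only [add_assoc, sum_add_distrib, ← mul_sum, sum_const, card_range, smul_eq_mul]
      nlinarith
  exact h2.frame [5, 13, 14] [10] (by simp [sieveP, Prog.wr, forL])
    (by simp [sieveP, Prog.wa, forL]) (by simp [sieveP, Prog.noCoin, forL])

end Vale.Agent.P305
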