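import Vale.Agent.P305.Code

/-! Inverse table: for `1 < i < p`, `p = (p / i) * i + p % i` with `0 < p % i < i`, so
`i⁻¹ = -(p / i) * (p % i)⁻¹` in `ZMod p`. Tables: induction on the number of cells;
`(f t).toNat - (-f t).toNat = f t` (`Int.toNat_sub_toNat_neg`), `((p - 1 : ℕ) : ZMod p) = -1`. -/

namespace Vale.Agent.P305

open Finset

variable {M : ℕ} {ρ : ℕ → Bool} {σ : State} {p : ℕ} [Fact p.Prime]

theorem mod_pos_Tabs {i : ℕ} (h1 : 1 < i) (hi : i < p) : 0 < p % i := by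
  refine Nat.pos_of_ne_zero fun h => ?_
  rcases (Nat.dvd_prime (Fact.out : p.Prime)).1 (Nat.dvd_of_mod_eq_zero h) with h2 | h2 <;> omega

theorem ne_Tabs {i : ℕ} (h0 : 0 < i) (hi : i < p) : (i : ZMod p) ≠ 0 := fun h =>
  absurd (Nat.le_of_dvd h0 ((ZMod.natCast_eq_zero_iff i p).1 h)) (by omega)

theorem inv_Tabs {i : ℕ} (h1 : 1 < i) (hi : i < p) :
    (p - p / i) * (((p % i : ℕ) : ZMod p)⁻¹).val % p = ((i : ZMod p)⁻¹).val := by
  have hr := ne_Tabs (p := p) (mod_pos_Tabs h1 hi) ((Nat.mod_lt _ (by omega)).trans hi)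
  have h2 : (i : ZMod p) * ((p / i : ℕ) : ZMod p) + ((p % i : ℕ) : ZMod p) = 0 := by
    rw [← Nat.cast_mul, ← Nat.cast_add, Nat.div_add_mod, ZMod.natCast_self]
  rw [← ZMod.val_natCast, Nat.cast_mul, Nat.cast_sub (Nat.div_le_self _ _), ZMod.natCast_self,
    ZMod.natCast_zmod_val]
  refine congrArg ZMod.val (eq_inv_of_mul_eq_one_left ?_)
  have h3 := mul_inv_cancel₀ hr
  linear_combination h3 - ((p % i : ℕ) : ZMod p)⁻¹ * h2

theorem invP_ok (hp : σ.reg 5 = p) (hM : p < M) :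
    Ok M ρ invP σ (fun σ' => InvTab p σ' ∧ Only [13] [5] σ σ') (4 * p + 2) := by
  have hp0 : 0 < p := (Fact.out : p.Prime).pos
  have hp1 : 1 < p := (Fact.out : p.Prime).one_lt
  have h := Ok.forL (M := M) (ρ := ρ) (r := 13) (N := .reg 5)
    (body := .ite (.lt (.lit 1) (.reg 13))
      (.store 5 (.reg 13) ((.reg 5 - .reg 5 / .reg 13) * .load 5 (.reg 5 % .reg 13) % .reg 5))
      (.store 5 (.reg 13) (.reg 13))) p 2
    (fun i σ' => σ'.reg 5 = p ∧ ∀ x, 0 < x → x < i → σ'.arr 5 x = ((x : ZMod p)⁻¹).val) hM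
    (σ := σ) ⟨by simpa using hp, fun x _ hx => absurd hx (Nat.not_lt_zero x)⟩
    (fun i σ' hI _ => hI.1)
    (fun i hi σ' hI hr => by
      by_cases h1 : 1 < i
      · have hm := mod_pos_Tabs h1 hi
        have hv : ((Expr.reg 5 - .reg 5 / .reg 13) * .load 5 (.reg 5 % .reg 13) % .reg 5).val σ' =
            ((i : ZMod p)⁻¹).val := by
          simp only [val_mod, val_mul, val_sub, val_div, val_load, val_reg, hI.1, hr]
          rw [hI.2 _ hm (Nat.mod_lt _ (by omega)), inv_Tabs h1 hi]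
        refine Ok.iteT (by simp [hr, h1]) (Ok.store (by rw [hv]; exact (ZMod.val_lt _).trans hM)
          ⟨by simpa using hr, by simpa using hI.1, fun x hx hx' => ?_⟩)
        rw [hv]
        by_cases h2 : x = i
        · simp [h2, hr]
        · simp [h2, hr, hI.2 x hx (by omega)]
      · refine Ok.iteF (by simp [hr, h1]) (Ok.store (by simp only [val_reg, hr]; omega)
          ⟨by simpa using hr, by simpa using hI.1, fun x hx hx' => ?_⟩)
        have h2 : x = 1 := by omega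
        have h3 : i = 1 := by omega
        simp [h2, h3, hr, ZMod.val_one])
  exact (h.frame [13] [5] (by simp [Prog.wr, forL]) (by simp [Prog.wa, forL])
    (by simp [Prog.noCoin, forL])).mono (fun σ' k => ⟨k.1.1.2, k.2⟩) (by omega)

theorem cell_Tabs (z : ℤ) (μ : ZMod p) :
    (z.toNat + (p - 1) * (-z).toNat) * μ.val % p = ((z : ZMod p) * μ).val := by
  have h1 : ((z.toNat : ℤ) : ZMod p) - (((-z).toNat : ℤ) : ZMod p) = (z : ZMod p) := by
    rw [← Int.cast_sub, Int.toNat_sub_toNat_neg]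
  rw [Int.cast_natCast, Int.cast_natCast] at h1
  rw [← ZMod.val_natCast, Nat.cast_mul, Nat.cast_add, Nat.cast_mul,
    Nat.cast_sub (Fact.out : p.Prime).one_le, ZMod.natCast_self, ZMod.natCast_zmod_val, ← h1]
  refine congrArg ZMod.val ?_
  rw [Nat.cast_one]
  ring

theorem tabP_ok {a : ℕ} {mult : Expr} {f : ℕ → ℤ} {μ : ZMod p} (hp : σ.reg 5 = p) (hM : p < M)
    (hmult : mult.val σ = μ.val) (h1 : 1 ∉ mult.regs) (h2 : a ∉ mult.arrs) (T : ℕ) :
    Ok M ρ (tabP a mult f T) σ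
      (fun σ' => (∀ t < T, σ'.arr a t = ((f t : ZMod p) * μ).val) ∧ Only [1] [a] σ σ') (T + 1) := by
  have hp0 : 0 < p := (Fact.out : p.Prime).pos
  induction T with
  | zero =>
    refine Ok.set (by simp only [val_lit]; omega) ⟨fun t ht => absurd ht (Nat.not_lt_zero t),
      fun r hr => ?_, fun _ _ => rfl, rfl⟩
    have h3 : r ≠ 1 := by simpa using hr
    simp [h3]
  | succ T ih =>
    refine Ok.seq ih fun σ' ⟨k1, k2⟩ => ?_
    have hm : mult.val σ' = μ.val := by
      rw [← hmult]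
      refine val_congr mult (fun r hr => k2.1 r ?_) fun b hb => k2.2.1 b ?_
      · rw [List.mem_singleton]
        rintro rfl
        exact h1 hr
      · rw [List.mem_singleton]
        rintro rfl
        exact h2 hb
    have h5 : σ'.reg 5 = p := (k2.1 5 (by simp)).trans hp
    have hv : ((Expr.lit (f T).toNat + (.reg 5 - .lit 1) * .lit (-f T).toNat) * mult
        % .reg 5).val σ' = ((f T : ZMod p) * μ).val := by
      simp only [val_mod, val_mul, val_sub, val_add, val_lit, val_reg, h5, hm]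
      exact cell_Tabs _ _
    refine Ok.store (by rw [hv]; exact (ZMod.val_lt _).trans hM)
      ⟨fun t ht => ?_, fun r hr => k2.1 r hr, fun b hb => ?_, k2.2.2⟩
    · rw [hv]
      by_cases h3 : t = T
      · simp [h3]
      · simp [h3, k1 t (by omega)]
    · have h3 : b ≠ a := by simpa using hb
      rw [setArr_arr, if_neg h3, k2.2.1 b hb]

theorem lt_Tabs {N i j : ℕ} (hi : i < N) (hj : j < N) : i * N + j < N * N := by
  have := Nat.mul_le_mul_right N (Nat.succ_le_of_lt hi)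
  rw [Nat.succ_mul] at this
  omega

theorem idx_Tabs {N R l i j : ℕ} (hl : l < R) (hi : i < N) (hj : j < N) :
    l * (N * N) + (i * N + j) < R * (N * N) := by
  have h1 := lt_Tabs hi hj
  have := Nat.mul_le_mul_right (N * N) (Nat.succ_le_of_lt hl)
  rw [Nat.succ_mul] at this
  omega

theorem flat_Tabs {N : ℕ} (f : ℕ → ℕ → ℕ → ℤ) (l : ℕ) {i j : ℕ} (hi : i < N) (hj : j < N) :
    flat N f (l * (N * N) + (i * N + j)) = f l i j := by
  have h1 := lt_Tabs hi hj
  have e1 : (l * (N * N) + (i * N + j)) / (N * N) = l := by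
    rw [add_comm, Nat.add_mul_div_right _ _ (by omega), Nat.div_eq_of_lt h1, zero_add]
  have e2 : (l * (N * N) + (i * N + j)) % (N * N) = i * N + j := by
    rw [add_comm, Nat.add_mul_mod_self_right, Nat.mod_eq_of_lt h1]
  have e3 : (i * N + j) / N = i := by
    rw [add_comm, Nat.add_mul_div_right _ _ (by omega), Nat.div_eq_of_lt hj, zero_add]
  have e4 : (l * (N * N) + (i * N + j)) % N = j := by
    rw [← mul_assoc, ← add_assoc, ← add_mul, add_comm, Nat.add_mul_mod_self_right,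
      Nat.mod_eq_of_lt hj]
  rw [flat, e1, e2, e3, e4]

theorem tabsP_ok {N R Dn : ℕ} {a b c : ℕ → ℕ → ℕ → ℤ} (hp : σ.reg 5 = p) (hM : p < M)
    (hD : 0 < Dn) (hDp : Dn < p) (hI : InvTab p σ) :
    Ok M ρ (tabsP N R Dn a b c) σ
      (fun σ' => MEnv (p := p) N R (fun l i j => (a l i j : ZMod p)) (fun l i j => (b l i j : ZMod p))
        (fun l i j => (c l i j : ZMod p) * (Dn : ZMod p)⁻¹) σ' ∧ Only [1] [6, 7, 8] σ σ')
      (3 * (R * (N * N)) + 3) := by
  have h1 : (Expr.lit 1).val σ = (1 : ZMod p).val := (ZMod.val_one p).symm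
  refine Ok.seq' (tabP_ok (a := 6) (f := flat N a) hp hM h1 (by simp) (by simp) (R * (N * N)))
    (T := R * (N * N) + 1 + (R * (N * N) + 1)) (fun σ₁ ⟨k1, o1⟩ => ?_) (by omega)
  have p1 : σ₁.reg 5 = p := (o1.1 5 (by simp)).trans hp
  refine Ok.seq (tabP_ok (a := 7) (mult := .lit 1) (f := flat N b) (μ := 1) p1 hM
    (ZMod.val_one p).symm (by simp) (by simp) (R * (N * N))) fun σ₂ ⟨k2, o2⟩ => ?_
  have p2 : σ₂.reg 5 = p := (o2.1 5 (by simp)).trans p1
  have h3 : (Expr.load 5 (.lit Dn)).val σ₂ = ((Dn : ZMod p)⁻¹).val := by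
    rw [val_load, val_lit, o2.2.1 5 (by simp), o1.2.1 5 (by simp), hI Dn hD hDp]
  refine (tabP_ok (a := 8) (f := flat N c) p2 hM h3 (by simp) (by simp) (R * (N * N))).mono
    (fun σ₃ ⟨k3, o3⟩ => ⟨⟨(o3.1 5 (by simp)).trans p2, fun l hl i hi j hj => ?_,
      fun l hl i hi j hj => ?_, fun l hl i hi j hj => ?_⟩,
      ((o1.mono (fun _ h => h) (by simp)).trans (o2.mono (fun _ h => h) (by simp))).trans
        (o3.mono (fun _ h => h) (by simp))⟩) le_rfl
  · rw [o3.2.1 6 (by simp), o2.2.1 6 (by simp), k1 _ (idx_Tabs hl hi hj), flat_Tabs a l hi hj,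
      mul_one]
  · rw [o3.2.1 7 (by simp), k2 _ (idx_Tabs hl hi hj), flat_Tabs b l hi hj, mul_one]
  · rw [k3 _ (idx_Tabs hl hi hj), flat_Tabs c l hi hj]

end Vale.Agent.P305
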