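import Vale.Agent.P305.Sizes
import Vale.Agent.P305.Sieve
import Vale.Agent.P305.Tabs
import Vale.Agent.P305.Read
import Vale.Agent.P305.Rnd

/-! The setup phase: chain `Ok.seq'` over the eight routines, carrying the facts by the frames.
All bounds on `M` follow from `hM`, `Par.hk`, `Par.p_le`. -/

namespace Vale.Agent.P305

open Finset

def setupT (N R D n g k p : ℕ) : ℕ :=
  (3 * g + 2 * D + 10) + (3 * k + 3) + 2 ^ k * (6 * k + 40) + (4 * p + 2) + (3 * (R * (N * N)) + 3) +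
    (n * (4 * n + 4) + 3) + (3 * (sz N g D * sz N g D) + 2) +
    (2 * sz N g D * sz N g D * (4 * k + 6) + 2)

open Classical in
/-- The state after the setup phase. -/
structure Ready {p : ℕ} (N R g D n k : ℕ) (a b c : ℕ → ℕ → ℕ → ZMod p)
    (Γ : SimpleGraph (Fin (sz N g D))) (ρ : ℕ → Bool) (σ : State) : Prop where
  env : Env N R g D (sz N g D) a b c σ
  r0 : σ.reg 0 = n
  a3 : ∀ u v : Fin (sz N g D), σ.arr 3 (u.val * sz N g D + v.val) = if Γ.Adj u v then 1 else 0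
  a4 : ∀ u v : Fin (sz N g D), σ.arr 4 (u.val * sz N g D + v.val) ≠ 0 ↔ HZ (sz N g D) n u v
  a9 : ∀ i < 2 * sz N g D * sz N g D, σ.arr 9 i = bitsVal ρ (i * k) k
  a2 : σ.arr 2 = fun _ => 0
  co : σ.coins = 2 * sz N g D * sz N g D * k

theorem setupP_ok {M : ℕ} {ρ : ℕ → Bool} {N R D Dn n g k p : ℕ} [Fact p.Prime]
    {a b c : ℕ → ℕ → ℕ → ℤ} (hN : 2 ≤ N) (hD : 1 ≤ D) (hDn : 0 < Dn) (hP : Par N D Dn n g k p)
    (hM : 8 * 2 ^ k ≤ M) {G : SimpleGraph (Fin n)} {adj : Fin n → List (Fin n)}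
    (hadj : IsAdjList G adj) :
    Ok M ρ (setupP N R D Dn a b c) (input adj)
      (Ready (p := p) N R g D n k (fun l i j => (a l i j : ZMod p)) (fun l i j => (b l i j : ZMod p))
        (fun l i j => (c l i j : ZMod p) * (Dn : ZMod p)⁻¹) (lift G (sz N g D)) ρ)
      (setupT N R D n g k p) := by
  have hk := hP.hk
  have hp1 := hP.hp1
  have hp3 := hP.p_le
  have hg := hP.hg
  have hmm : sz N g D ≤ sz N g D * sz N g D := Nat.le_mul_self _
  have e6 : 6 * sz N g D * sz N g D = 6 * (sz N g D * sz N g D) := mul_assoc _ _ _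
  have e2 : 2 * sz N g D * sz N g D = 2 * (sz N g D * sz N g D) := mul_assoc _ _ _
  have hT : (3 * g + 2 * D + 10) + ((3 * k + 3) + (2 ^ k * (6 * k + 40) + ((4 * p + 2) +
      ((3 * (R * (N * N)) + 3) + ((n * (4 * n + 4) + 3) + ((3 * (sz N g D * sz N g D) + 2) +
      (2 * sz N g D * sz N g D * (4 * k + 6) + 2))))))) ≤ setupT N R D n g k p := by
    unfold setupT
    omega
  refine Ok.mono (Q := _) ?_ (fun _ h => h) hT
  refine Ok.seq (sizesP_ok hN hD hg hP.hg' (by omega) rfl) ?_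
  rintro σ₁ ⟨s10, s16, ssz, sbs, sr, sa, sc⟩
  have s0 : σ₁.reg 0 = n := sr 0 (by norm_num)
  refine Ok.seq (powP_ok hk hP.hk' (by omega) s10) ?_
  rintro σ₂ ⟨p11, p12, o2⟩
  have a2 : ∀ x, σ₂.arr x = (input adj).arr x := fun x => by rw [o2.2.1 x (by simp), sa]
  refine Ok.seq (sieveP_ok hP.hp hp1 hP.hp2 hp3 hM p12 fun i => by rw [a2]; rfl) ?_
  rintro σ₃ ⟨q5, o3⟩
  refine Ok.seq (invP_ok q5 (by omega)) ?_
  rintro σ₄ ⟨hI, o4⟩
  refine Ok.seq (tabsP_ok (N := N) (R := R) (a := a) (b := b) (c := c)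
    (by rw [o4.1 5 (by simp), q5]) (by omega) hDn (by omega) hI) ?_
  rintro σ₅ ⟨hE, o5⟩
  have o25 : Only [1, 5, 13, 14] [5, 6, 7, 8, 10] σ₂ σ₅ :=
    ((o3.mono (by simp) (by simp)).trans (o4.mono (by simp) (by simp))).trans
      (o5.mono (by simp) (by simp))
  have o15 : Only [1, 5, 11, 12, 13, 14, 15] [3, 4, 5, 6, 7, 8, 10] σ₁ σ₅ :=
    (o2.mono (by simp) (by simp)).trans (o25.mono (by simp) (by simp))
  refine Ok.seq (readP_ok (m := sz N g D) hadj (by omega) (by omega)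
    (by rw [o15.1 0 (by simp), s0]) (by rw [o15.1 10 (by simp), s10])
    (by rw [o25.2.1 0 (by simp), a2]) (by rw [o25.2.1 1 (by simp), a2])
    fun i => by rw [o25.2.1 3 (by simp), a2]; rfl) ?_
  rintro σ₆ ⟨r3, o6⟩
  have o16 := o15.trans (o6.mono (by simp) (by simp))
  refine Ok.seq (hzP_ok (n := n) (m := sz N g D) (by omega)
    (by rw [o16.1 0 (by simp), s0]) (by rw [o16.1 10 (by simp), s10])) ?_
  rintro σ₇ ⟨r4, o7⟩
  have o17 := o16.trans (o7.mono (by simp) (by simp))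
  have o57 : Only [1, 13, 14, 15] [3, 4] σ₅ σ₇ :=
    (o6.mono (by simp) (by simp)).trans (o7.mono (by simp) (by simp))
  refine (rndP_ok (m := sz N g D) (k := k) (by omega) (by omega)
    (by rw [o17.1 10 (by simp), s10]) (by rw [o57.1 11 (by simp), o25.1 11 (by simp), p11])
    (by rw [o17.2.2, sc]; rfl)).mono ?_ le_rfl
  rintro σ₈ ⟨r9, rc, fr, fa⟩
  have hE7 := hE.only o57 (by simp) (by simp) (by simp) (by simp)
  have fr' : ∀ r, r = 0 ∨ r = 10 ∨ 16 ≤ r → σ₈.reg r = σ₁.reg r := fun r hr => by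
    rw [fr r (by simp; omega), o17.1 r (by simp; omega)]
  refine ⟨⟨⟨by rw [fr 5 (by simp), hE7.rp], ?_, ?_, ?_⟩, by rw [fr' 10 (by simp), s10],
    by rw [fr' 16 (by simp), s16], fun d hd => ?_, fun d hd => ?_, ?_⟩,
    by rw [fr' 0 (by simp), s0], ?_, ?_, r9, ?_, rc⟩
  · simpa only [Tab, fa 6 (by simp)] using hE7.ta
  · simpa only [Tab, fa 7 (by simp)] using hE7.tb
  · simpa only [Tab, fa 8 (by simp)] using hE7.tc
  · rw [fr' _ (by simp only [SZ]; omega), ssz d hd]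
  · rw [fr' _ (by simp only [BS]; omega), sbs d hd]
  · simpa only [InvTab, fa 5 (by simp), o57.2.1 5 (by simp), o5.2.1 5 (by simp)] using hI
  · intro u v
    rw [fa 3 (by simp), o7.2.1 3 (by simp), r3 u v]
  · intro u v
    rw [fa 4 (by simp)]
    exact r4 u v
  · rw [fa 2 (by simp), o17.2.1 2 (by simp), sa]
    rfl

end Vale.Agent.P305
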