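import Vale.Agent.P305.NmL

/-! Trace argument. Let `N = W T Wᵀ + W - Wᵀ`, `G = N - N K N`. For `v < n` column `v` of `N` is
column `v` of `W` and row `v` of `N` is row `v` of `-Wᵀ`, so `G u v = (Wᵀ K W) u v` for `u, v < n`.
If `G` vanishes on all edges then `trace (T * (Wᵀ K W)) = 0`. But this trace is
`trace (K * (W T Wᵀ)) = trace (K N) - trace (K W) + trace (K Wᵀ) = |X| - 2 |vs X| = |zs X| - |vs X|`:
`(K N) a a = 1` for `a ∈ X` and `0` otherwise (row `a` of `K` is zero), `(K W) a a = (K N) a a`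
for `a < n` and `0` otherwise, `trace (K Wᵀ) = trace (W Kᵀ) = - trace (K W)`. -/

namespace Vale.Agent.P305

open Matrix Finset

theorem exists_edge {F : Type} [Field F] {m n : ℕ} {Γ : SimpleGraph (Fin m)} (hΓ : Low n Γ)
    (hc : ∀ k : ℕ, 0 < k → k ≤ m → (k : F) ≠ 0) {r : ℕ → F} {X : Finset (Fin m)}
    {G : Matrix (Fin m) (Fin m) F} (h : Inv (Nm n Γ r) X G)
    (hlt : (vs n X).card < (zs n X).card) : ∃ u v, Γ.Adj u v ∧ G u v ≠ 0 := by
  by_contra hn
  push Not at hn
  obtain ⟨⟨K, k1, k2, k3, k4⟩, -⟩ := h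
  have sk := Nm_skew n Γ r
  obtain ⟨W, hW⟩ : ∃ W, W = Wm m n r := ⟨_, rfl⟩
  have w1 : ∀ a b : Fin m, a.val < n → W a b = 0 := fun a b h => by
    rw [hW, Wm, of_apply, if_neg fun h' => h.not_ge h'.1]
  have w2 : ∀ a b : Fin m, ¬ b.val < n → W a b = 0 := fun a b h => by
    rw [hW, Wm, of_apply, if_neg fun h' => h h'.2.2]
  have eN : Nm n Γ r = W * Tm Γ r * Wᵀ + W - Wᵀ := by rw [hW, Nm]
  generalize Nm n Γ r = N at k3 k4 sk eN
  have c1 : ∀ a v : Fin m, v.val < n → N a v = W a v := fun a v h => by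
    simp [eN, mul_apply, w1 v _ h]
  have c2 : ∀ u b : Fin m, u.val < n → N u b = -W b u := fun u b h => by
    rw [← c1 b u h, ← transpose_apply N u b, sk, neg_apply, neg_neg]
  have g1 : ∀ u v : Fin m, u.val < n → v.val < n → G u v = (Wᵀ * K * W) u v := fun u v hu hv => by
    simp [k4, mul_apply, c1 _ v hv, c2 u _ hu, w1 _ _ hu, w1 _ _ hv]
  have t1 : trace (Tm Γ r * (Wᵀ * K * W)) = 0 :=
    sum_eq_zero fun v _ => mul_apply.trans <| sum_eq_zero fun u _ => by
      by_cases h : Γ.Adj v u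
      · rw [← g1 u v (hΓ u v h.symm) (hΓ v u h), hn u v h.symm, mul_zero]
      · rw [Tm, of_apply, if_neg h, zero_mul]
  have d1 : ∀ a, (K * N) a a = if a ∈ X then 1 else 0 := fun a => by
    split_ifs with h
    · rw [k3 a a h, if_pos rfl]
    · exact mul_apply.trans <| sum_eq_zero fun b _ => by
        rw [show K a b = 0 from by_contra fun h' => h (k2 a b h').1, zero_mul]
  have t2 : trace (K * N) = X.card := by simp [trace, d1]
  have t3 : trace (K * W) = (vs n X).card := by
    have : ∀ a, (K * W) a a = if a ∈ vs n X then 1 else 0 := fun a => by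
      by_cases h : a.val < n
      · have : (K * W) a a = (K * N) a a := by simp only [mul_apply, c1 _ a h]
        simp [this, d1, vs, h]
      · simp [mul_apply, w2 _ a h, vs, h]
    simp [trace, this]
  have t4 : trace (K * Wᵀ) = -trace (K * W) := by
    rw [← trace_transpose, transpose_mul, transpose_transpose, k1, Matrix.mul_neg, trace_neg,
      trace_mul_comm]
  have t5 : trace (Tm Γ r * (Wᵀ * K * W)) = trace (K * (W * Tm Γ r * Wᵀ)) := by
    rw [Matrix.mul_assoc Wᵀ, ← Matrix.mul_assoc, trace_mul_comm]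
    simp only [Matrix.mul_assoc]
  rw [eN, Matrix.mul_sub, Matrix.mul_add, trace_sub, trace_add, ← t5, t1, t4, t3] at t2
  have e : (vs n X).card + (zs n X).card = X.card := by
    simpa [vs, zs] using card_filter_add_card_filter_not (s := X) fun v => v.val < n
  have hX : X.card ≤ m := by simpa using card_le_univ X
  refine hc ((zs n X).card - (vs n X).card) (by omega) (by omega) ?_
  rw [← e, Nat.cast_add] at t2
  rw [Nat.cast_sub hlt.le]
  linear_combination -t2

end Vale.Agent.P305
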