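import Vale.Agent.P305.PivB
import Vale.Agent.P305.Trace
import Vale.Agent.P305.MtL

/-! `Inv.feas`: induction on `|zs X| - |vs X|`; if it is positive, `exists_edge` and `Inv.step`
give an edge `u v` and the invariant for `X ∪ {u, v}`; conclude by `Feas.back`. Otherwise use the
empty matching. `sim_fold`: induction on the list; the numerical test and the ideal test agree:
`Inv.step` and `Inv.feas` in one direction, `Inv.pair` and goodness (`hist_mono`) in the other. -/

namespace Vale.Agent.P305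

open Matrix Finset

variable {F : Type} [Field F] {m n : ℕ} {Γ : SimpleGraph (Fin m)}

theorem Inv.feas (hΓ : Low n Γ) (h2 : (2 : F) ≠ 0) (hc : ∀ k : ℕ, 0 < k → k ≤ m → (k : F) ≠ 0)
    {r : ℕ → F} {X : Finset (Fin m)} {G : Matrix (Fin m) (Fin m) F} (h : Inv (Nm n Γ r) X G) :
    Feas n Γ X := by
  induction hk : (zs n X).card - (vs n X).card using Nat.strong_induction_on generalizing X G with
  | _ k ih =>
    rcases lt_or_ge (vs n X).card (zs n X).card with hlt | hle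
    · obtain ⟨u, v, huv, hx⟩ := exists_edge hΓ hc h hlt
      obtain ⟨hu, hv, hne, h'⟩ := h.step h2 (Nm_skew n Γ r) hx
      obtain ⟨e1, e2⟩ := vs_zs_union_low hu hv hne (hΓ u v huv) (hΓ v u huv.symm)
      exact (ih _ (by rw [e1, e2]; omega) h' rfl).back hΓ huv hu hv
    · refine ⟨_, (Mt.nil Γ).1, ?_, ?_⟩
      · rw [(Mt.nil Γ).2]
        exact disjoint_empty_left _
      · omega

theorem hist_mono (H : Fin m → Fin m → Prop) (L : List (Fin m × Fin m)) (s : IState m) :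
    s.hist ⊆ (L.foldl (istep n Γ H) s).hist := by
  induction L generalizing s with
  | nil => exact Subset.refl _
  | cons e L ih =>
    refine Subset.trans ?_ (ih (istep n Γ H s e))
    unfold istep
    split_ifs
    · exact subset_insert _ _
    · exact Subset.refl _

theorem sim_fold (hΓ : Low n Γ) (h2 : (2 : F) ≠ 0) (hc : ∀ k : ℕ, 0 < k → k ≤ m → (k : F) ≠ 0)
    {r : ℕ → F} (H : Fin m → Fin m → Prop) (L : List (Fin m × Fin m)) (s : IState m)
    (G : Matrix (Fin m) (Fin m) F) (h : Inv (Nm n Γ r) s.X G)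
    (hgood : ∀ Y ∈ (L.foldl (istep n Γ H) s).hist, Dm (Nm n Γ r) Y ≠ 0) :
    Inv (Nm n Γ r) (L.foldl (istep n Γ H) s).X (L.foldl (nstep H) (G, s.out)).1 ∧
      (L.foldl (nstep H) (G, s.out)).2 = (L.foldl (istep n Γ H) s).out := by
  induction L generalizing s G with
  | nil => exact ⟨h, rfl⟩
  | cons e L ih =>
    rw [List.foldl_cons] at hgood ⊢
    rw [List.foldl_cons]
    by_cases h1 : H e.1 e.2 ∧ G e.1 e.2 ≠ 0
    · obtain ⟨hu, hv, hne, h'⟩ := h.step h2 (Nm_skew n Γ r) h1.2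
      have e1 : istep n Γ H s e = ⟨s.X ∪ {e.1, e.2}, insert (s.X ∪ {e.1, e.2}) s.hist,
          mark s.out e.1 e.2⟩ := if_pos ⟨h1.1, hu, hv, hne, h'.feas hΓ h2 hc⟩
      have e2 : nstep H (G, s.out) e = (G - G * piv G e.1 e.2 * G, mark s.out e.1 e.2) := if_pos h1
      rw [e1] at hgood
      rw [e1, e2]
      exact ih _ _ h' hgood
    · have e1 : istep n Γ H s e = s := by
        by_contra h3
        have h4 : H e.1 e.2 ∧ e.1 ∉ s.X ∧ e.2 ∉ s.X ∧ e.1 ≠ e.2 ∧ Feas n Γ (s.X ∪ {e.1, e.2}) := by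
          by_contra h5
          exact h3 (if_neg h5)
        have e3 : istep n Γ H s e = ⟨s.X ∪ {e.1, e.2}, insert (s.X ∪ {e.1, e.2}) s.hist,
          mark s.out e.1 e.2⟩ := if_pos h4
        have h6 := hgood (s.X ∪ {e.1, e.2}) (hist_mono H L _ (by
          rw [e3]
          exact mem_insert_self _ _))
        rw [h.pair h2 (Nm_skew n Γ r) h4.2.1 h4.2.2.1 h4.2.2.2.1] at h6
        exact h1 ⟨h4.1, fun h7 => h6 (by rw [h7, zero_pow two_ne_zero, mul_zero])⟩
      have e2 : nstep H (G, s.out) e = (G, s.out) := if_neg h1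
      rw [e1] at hgood
      rw [e1, e2]
      exact ih _ _ h hgood

theorem sim (hΓ : Low n Γ) (h2 : (2 : F) ≠ 0) (hc : ∀ k : ℕ, 0 < k → k ≤ m → (k : F) ≠ 0)
    {r : ℕ → F} (L : List (Fin m × Fin m))
    (hgood : ∀ Y ∈ (ifinal n Γ L).hist, Dm (Nm n Γ r) Y ≠ 0) :
    (nfinal n Γ (Nm n Γ r) L).2 = (ifinal n Γ L).out := by
  obtain ⟨a1, a2⟩ := sim_fold hΓ h2 hc (HZ m n) L ⟨∅, ∅, fun _ => 0⟩ _ (Inv.empty (Nm n Γ r))
    fun Y hY => hgood Y (hist_mono Γ.Adj L _ hY)
  have a3 := (sim_fold hΓ h2 hc Γ.Adj L _ _ a1 hgood).2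
  rw [← a2] at a3
  exact a3

end Vale.Agent.P305
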