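import Vale.Agent.P305.Code

/-! The size computations, by `Ok.loopN` (`g` and `k` rounds) and induction on the level. -/

namespace Vale.Agent.P305

open Finset

/-- The parameters computed by the program. -/
structure Par (N D Dn n g k p : ℕ) : Prop where
  hg : 2 * n ≤ sz N g D
  hg' : ∀ g' < g, sz N g' D < 2 * n
  hk : 6 * sz N g D * sz N g D + (Dn + 3) ≤ 2 ^ k
  hk' : ∀ k' < k, 2 ^ k' < 6 * sz N g D * sz N g D + (Dn + 3)
  hp : p.Prime
  hp1 : 2 ^ k < p
  hp2 : ∀ q, 2 ^ k < q → q < p → ¬ q.Prime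

theorem exists_par (N D Dn n : ℕ) (hN : 2 ≤ N) (hD : 1 ≤ D) : ∃ g k p, Par N D Dn n g k p := by
  classical
  have e1 : ∃ g, 2 * n ≤ sz N g D := by
    refine ⟨2 * n, ?_⟩
    unfold sz
    have h1 : 2 * n < 2 ^ (2 * n) := Nat.lt_two_pow_self
    have h2 : 2 ^ (2 * n) ≤ N ^ (2 * n) := Nat.pow_le_pow_left hN _
    have h3 : N ^ (2 * n) ≤ N ^ (1 + 2 * n * D) :=
      Nat.pow_le_pow_right (by omega) (by nlinarith)
    omega
  have e2 : ∀ x : ℕ, ∃ k, x ≤ 2 ^ k := fun x => ⟨x, Nat.lt_two_pow_self.le⟩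
  have e3 : ∀ x : ℕ, ∃ p, p.Prime ∧ x < p := fun x => by
    obtain ⟨p, hp, hp'⟩ := Nat.exists_infinite_primes (x + 1)
    exact ⟨p, hp', by omega⟩
  refine ⟨Nat.find e1, Nat.find (e2 (6 * sz N (Nat.find e1) D * sz N (Nat.find e1) D + (Dn + 3))),
    Nat.find (e3 (2 ^ Nat.find (e2 (6 * sz N (Nat.find e1) D * sz N (Nat.find e1) D + (Dn + 3))))),
    Nat.find_spec e1, fun g' h => not_le.1 (Nat.find_min e1 h), Nat.find_spec (e2 _),
    fun k' h => not_le.1 (Nat.find_min (e2 _) h), (Nat.find_spec (e3 _)).1,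
    (Nat.find_spec (e3 _)).2, fun q h1 h2 h3 => Nat.find_min (e3 _) h2 ⟨h3, h1⟩⟩

theorem Par.p_le {N D Dn n g k p : ℕ} (h : Par N D Dn n g k p) : p ≤ 2 * 2 ^ k := by
  obtain ⟨q, hq, h1, h2⟩ := Nat.exists_prime_lt_and_le_two_mul (2 ^ k) (by positivity)
  by_contra hc
  exact h.hp2 q h1 (by omega) hq

theorem Par.pow_le {N D Dn n g k p : ℕ} (h : Par N D Dn n g k p) :
    2 ^ k ≤ 2 * (6 * sz N g D * sz N g D + (Dn + 3)) := by
  rcases k with _ | k
  · simp only [pow_zero]; omega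
  · have := h.hk' k (by omega)
    rw [pow_succ]; omega

theorem Par.sz_le {N D Dn n g k p : ℕ} (h : Par N D Dn n g k p) (hN : 2 ≤ N) :
    sz N g D ≤ N ^ (D + 1) * (2 * n + 1) := by
  have hp : N ^ D ≤ N ^ (D + 1) := Nat.pow_le_pow_right (by omega) (by omega)
  rcases g with _ | g
  · have : N ^ 1 ≤ N ^ (D + 1) := Nat.pow_le_pow_right (by omega) (by omega)
    simp only [sz, zero_mul, add_zero]
    exact this.trans (Nat.le_mul_of_pos_right _ (by omega))
  · have h1 := h.hg' g (by omega)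
    have h2 : sz N (g + 1) D = N ^ D * sz N g D := by
      unfold sz; rw [← pow_add]; exact congrArg _ (by ring)
    rw [h2]
    exact Nat.mul_le_mul hp (by omega)

variable {M : ℕ} {ρ : ℕ → Bool} {σ : State}

theorem levels_ok_Sizes {N g : ℕ} (D : ℕ) (s : State) (hpow : ∀ e, e ≤ 1 + g * D → N ^ e < M)
    (h17 : s.reg 17 = N ^ g) :
    Ok M ρ (levelsP N D) s
      (fun t => (∀ d ≤ D, t.reg (SZ d) = sz N g d) ∧ (∀ d ≤ D, t.reg (BS d) = N ^ (g * d)) ∧
        (∀ r < 20, t.reg r = s.reg r) ∧ t.arr = s.arr ∧ t.coins = s.coins) (2 * D + 2) := by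
  induction D with
  | zero =>
    unfold levelsP
    refine Ok.seq' (Q := fun t => t = s.setReg (BS 0) 1) (S := 1) (T := 1)
      (Ok.set (by simpa using hpow 0 (by omega)) rfl) ?_ (by omega)
    rintro _ rfl
    refine Ok.set (by simpa using hpow 1 (by omega)) ⟨fun d hd => ?_, fun d hd => ?_,
      fun r hr => ?_, rfl, rfl⟩
    · obtain rfl : d = 0 := by omega
      simp [sz]
    · obtain rfl : d = 0 := by omega
      simp [SZ, BS]
    · simp only [setReg_reg, SZ, BS]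
      rw [if_neg (by omega), if_neg (by omega)]
  | succ D ih =>
    unfold levelsP
    have hm : g * (D + 1) = g * D + g := by ring
    refine Ok.seq' (T := 2) (ih fun e he => hpow e (by omega)) ?_ (by omega)
    rintro t ⟨b1, b2, b3, b4, b5⟩
    have hv : (Expr.reg (BS D) * Expr.reg 17).val t = N ^ (g * (D + 1)) := by
      simp only [val_mul, val_reg]
      rw [b2 D le_rfl, b3 17 (by omega), h17, ← pow_add, hm]
    refine Ok.seq (Q := fun u => u = t.setReg (BS (D + 1)) (N ^ (g * (D + 1)))) (S := 1) (T := 1)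
      (Ok.set (by rw [hv]; exact hpow _ (by omega)) (by rw [hv])) ?_
    rintro _ rfl
    have hw : (Expr.reg (BS (D + 1)) * Expr.lit N).val
        (t.setReg (BS (D + 1)) (N ^ (g * (D + 1)))) = sz N g (D + 1) := by
      simp only [val_mul, val_reg, val_lit, setReg_reg, if_true, sz]
      rw [← pow_succ, add_comm]
    refine Ok.set (by rw [hw]; exact hpow _ le_rfl) ?_
    rw [hw]
    refine ⟨fun d hd => ?_, fun d hd => ?_, fun r hr => ?_, by simpa using b4, by simpa using b5⟩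
    · simp only [setReg_reg, SZ, BS]
      rcases Nat.lt_or_ge d (D + 1) with h | h
      · rw [if_neg (by omega), if_neg (by omega)]; exact b1 d (by omega)
      · obtain rfl : d = D + 1 := by omega
        rw [if_pos rfl]
    · simp only [setReg_reg, SZ, BS]
      rw [if_neg (by omega)]
      rcases Nat.lt_or_ge d (D + 1) with h | h
      · rw [if_neg (by omega)]; exact b2 d (by omega)
      · obtain rfl : d = D + 1 := by omega
        rw [if_pos rfl]
    · simp only [setReg_reg, SZ, BS]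
      rw [if_neg (by omega), if_neg (by omega)]; exact b3 r hr

theorem sizesP_ok {N D n g : ℕ} (hN : 2 ≤ N) (hD : 1 ≤ D) (hg : 2 * n ≤ sz N g D)
    (hg' : ∀ g' < g, sz N g' D < 2 * n) (hM : sz N g D < M) (h0 : σ.reg 0 = n) :
    Ok M ρ (sizesP N D) σ
      (fun σ' => σ'.reg 10 = sz N g D ∧ σ'.reg 16 = N ^ (g + 1) ∧
        (∀ d ≤ D, σ'.reg (SZ d) = sz N g d) ∧ (∀ d ≤ D, σ'.reg (BS d) = N ^ (g * d)) ∧
        (∀ r < 10, σ'.reg r = σ.reg r) ∧ σ'.arr = σ.arr ∧ σ'.coins = σ.coins)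
      (3 * g + 2 * D + 10) := by
  have hpow : ∀ e, e ≤ 1 + g * D → N ^ e < M := fun e he =>
    lt_of_le_of_lt (Nat.pow_le_pow_right (by omega) he) hM
  have hgD : g ≤ g * D := Nat.le_mul_of_pos_right _ hD
  have hN1 : N < M := by simpa using hpow 1 (by omega)
  unfold sizesP
  refine Ok.seq' (Q := fun s => s = σ.setReg 17 1) (S := 1) (T := 3 * g + 2 * D + 5)
    (Ok.set (by simp; omega) rfl) ?_ (by omega)
  rintro _ rfl
  refine Ok.seq' (Q := fun s => s = (σ.setReg 17 1).setReg 10 N) (S := 1) (T := 3 * g + 2 * D + 4)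
    (Ok.set (by simpa using hN1) rfl) ?_ (by omega)
  rintro _ rfl
  refine Ok.seq' (Q := fun s => s.reg 17 = N ^ g ∧ s.reg 10 = sz N g D ∧
      (∀ r < 10, s.reg r = σ.reg r) ∧ s.arr = σ.arr ∧ s.coins = σ.coins)
    (S := g * (2 + 1) + 1) (T := 2 * D + 3)
    (Ok.loopN (fun i s => s.reg 17 = N ^ i ∧ s.reg 10 = sz N i D ∧
      (∀ r < 10, s.reg r = σ.reg r) ∧ s.arr = σ.arr ∧ s.coins = σ.coins) g 2 ?_ ?_ ?_) ?_ (by omega)
  · rintro i hi s ⟨a1, a2, a3, a4, a5⟩
    have hs0 : s.reg 0 = n := by rw [a3 0 (by omega), h0]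
    have hiD : (i + 1) * D ≤ g * D := Nat.mul_le_mul_right _ hi
    refine ⟨by simp [a2, hs0, hg' i hi], ?_⟩
    refine Ok.seq (Q := fun t => t = s.setReg 17 (N ^ (i + 1))) (S := 1) (T := 1)
      (Ok.set ?_ ?_) ?_
    · simp only [val_mul, val_reg, val_lit, a1, ← pow_succ]; exact hpow _ (by omega)
    · simp only [val_mul, val_reg, val_lit, a1, ← pow_succ]
    rintro _ rfl
    have hv : (Expr.reg 10 * Expr.lit (N ^ D)).val (s.setReg 17 (N ^ (i + 1))) =
        sz N (i + 1) D := by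
      simp only [val_mul, val_reg, val_lit, setReg_reg]
      rw [if_neg (by omega), a2]
      unfold sz; rw [← pow_add]; exact congrArg _ (by ring)
    refine Ok.set (by rw [hv]; exact hpow _ (by omega)) ?_
    rw [hv]
    refine ⟨by simp, by simp, fun r hr => ?_, by simpa using a4, by simpa using a5⟩
    simp only [setReg_reg]
    rw [if_neg (by omega), if_neg (by omega), a3 r hr]
  · rintro s ⟨_, a2, a3, _, _⟩
    have hs0 : s.reg 0 = n := by rw [a3 0 (by omega), h0]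
    simp [a2, hs0, hg]
  · refine ⟨by simp, by simp [sz], fun r hr => ?_, rfl, rfl⟩
    simp only [setReg_reg]
    rw [if_neg (by omega), if_neg (by omega)]
  rintro s ⟨a1, a2, a3, a4, a5⟩
  refine Ok.seq' (Q := fun t => t = s.setReg 16 (N ^ (g + 1))) (S := 1) (T := 2 * D + 2)
    (Ok.set ?_ ?_) ?_ (by omega)
  · simp only [val_mul, val_reg, val_lit, a1, ← pow_succ]; exact hpow _ (by omega)
  · simp only [val_mul, val_reg, val_lit, a1, ← pow_succ]
  rintro _ rfl
  refine (levels_ok_Sizes (M := M) (ρ := ρ) (N := N) (g := g) D (s.setReg 16 (N ^ (g + 1)))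
    (fun e he => hpow e he) (by simpa using a1)).mono ?_ le_rfl
  rintro t ⟨b1, b2, b3, b4, b5⟩
  refine ⟨?_, ?_, b1, b2, fun r hr => ?_, b4.trans (by simpa using a4), b5.trans (by simpa using a5)⟩
  · rw [b3 10 (by omega)]; simpa using a2
  · rw [b3 16 (by omega)]; simp
  · rw [b3 r (by omega), setReg_reg, if_neg (by omega), a3 r hr]

theorem powP_ok {Dn m k : ℕ} (hk : 6 * m * m + (Dn + 3) ≤ 2 ^ k)
    (hk' : ∀ k' < k, 2 ^ k' < 6 * m * m + (Dn + 3)) (hM : 2 ^ k < M) (h10 : σ.reg 10 = m) :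
    Ok M ρ (powP Dn) σ (fun σ' => σ'.reg 11 = k ∧ σ'.reg 12 = 2 ^ k ∧ Only [11, 12] [] σ σ')
      (3 * k + 3) := by
  have h1 : 1 ≤ 2 ^ k := Nat.one_le_two_pow
  have hkk : k < 2 ^ k := Nat.lt_two_pow_self
  unfold powP
  refine Ok.seq' (Q := fun s => s = σ.setReg 12 1) (S := 1) (T := 3 * k + 2)
    (Ok.set (by simp; omega) rfl) ?_ (by omega)
  rintro _ rfl
  refine Ok.seq' (Q := fun s => s = (σ.setReg 12 1).setReg 11 0) (S := 1) (T := k * (2 + 1) + 1)
    (Ok.set (by simp; omega) rfl) ?_ (by omega)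
  rintro _ rfl
  refine Ok.loopN (fun i s => s.reg 11 = i ∧ s.reg 12 = 2 ^ i ∧ Only [11, 12] [] σ s) k 2 ?_ ?_ ?_
  · rintro i hi s ⟨a1, a2, a3⟩
    have hs : s.reg 10 = m := by rw [a3.1 10 (by simp), h10]
    have hle : 2 ^ (i + 1) ≤ 2 ^ k := Nat.pow_le_pow_right (by omega) hi
    refine ⟨by simp [a2, hs, hk' i hi], ?_⟩
    have hv : (Expr.lit 2 * Expr.reg 12).val s = 2 ^ (i + 1) := by
      simp only [val_mul, val_reg, val_lit, a2]; rw [pow_succ, mul_comm]
    refine Ok.seq (Q := fun t => t = s.setReg 12 (2 ^ (i + 1))) (S := 1) (T := 1)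
      (Ok.set (by rw [hv]; omega) (by rw [hv])) ?_
    rintro _ rfl
    refine Ok.set (by simp [a1]; omega) ⟨by simp [a1], by simp, fun r hr => ?_, a3.2.1, a3.2.2⟩
    have hr' := hr
    simp only [List.mem_cons, List.not_mem_nil, or_false, not_or] at hr'
    simp only [setReg_reg]
    rw [if_neg hr'.1, if_neg hr'.2, a3.1 r hr]
  · rintro s ⟨_, a2, a3⟩
    have hs : s.reg 10 = m := by rw [a3.1 10 (by simp), h10]
    simp [a2, hs, hk]
  · refine ⟨by simp, by simp, fun r hr => ?_, fun _ _ => rfl, rfl⟩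
    simp only [List.mem_cons, List.not_mem_nil, or_false, not_or] at hr
    simp only [setReg_reg]
    rw [if_neg hr.1, if_neg hr.2]

end Vale.Agent.P305
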