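import Vale.Agent.P305.Setup
import Vale.Agent.P305.Build
import Vale.Agent.P305.Node

/-! The solving phase: `buildP_ok` (with `r i = bitsVal ρ (i * k) k`, `bitsVal_lt`), `nodeP_ok` with
`ι = id` (`Matrix.submatrix_id_id`), `updM_ok`, `copyM_ok`, `nodeP_ok` again. `Env` survives
`buildP`, `updM`, `copyM` (prove a small `Env.only`) and the nodes (`Env.nframe`); arrays 3, 4,
`PA D`, `IA D` survive `NFrame D`. -/

namespace Vale.Agent.P305

open Finset Matrix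

theorem env_Solve {p N R g D m : ℕ} {a b c : ℕ → ℕ → ℕ → ZMod p} {σ σ' : State}
    {Rs As : List ℕ} (h : Env N R g D m a b c σ) (ho : Only Rs As σ σ')
    (hR : ∀ r ∈ Rs, r < 10 ∧ r ≠ 5) (hA : ∀ x ∈ As, 11 ≤ x) : Env N R g D m a b c σ' := by
  have r1 : ∀ r, 10 ≤ r → σ'.reg r = σ.reg r := fun r hr =>
    ho.1 r fun k => absurd (hR r k).1 (by omega)
  have a1 : ∀ x, x < 11 → x ∉ As := fun x hx k => absurd (hA x k) (by omega)
  refine ⟨h.me.only ho (fun k => (hR 5 k).2 rfl) (a1 6 (by omega)) (a1 7 (by omega))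
    (a1 8 (by omega)), by rw [r1 10 le_rfl, h.rm], by rw [r1 16 (by omega), h.rb],
    fun d hd => ?_, fun d hd => ?_, ?_⟩
  · rw [r1 _ (by simp only [SZ]; omega), h.rsz d hd]
  · rw [r1 _ (by simp only [BS]; omega), h.rbs d hd]
  · simpa only [InvTab, ho.2.1 5 (a1 5 (by omega))] using h.inv

theorem solveP_ok {M : ℕ} {ρ : ℕ → Bool} {N R D n g k p : ℕ} [Fact p.Prime] [NeZero N]
    {a b c : ℕ → ℕ → ℕ → ZMod p} (hN : 2 ≤ N) (hR : N * N ≤ R) (hB : BilAlg N R a b c)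
    (hpM : p ≤ M) (hM : R ^ (1 + g * D) < M) (hk : 2 ^ k ≤ p) {Γ : SimpleGraph (Fin (sz N g D))}
    {σ : State} (h : Ready N R g D n k a b c Γ ρ σ) :
    Ok M ρ (solveP N R D) σ
      (fun σ' => σ'.arr 2 = (nfinal n Γ (Nm n Γ fun i => ((bitsVal ρ (i * k) k : ℕ) : ZMod p))
          (pairs N g D id)).2 ∧ σ'.coins = σ.coins)
      (20 * mmT R (1 + g * D) + 2 * nodeT N R g D) := by
  have hm0 : 0 < sz N g D := sz_pos N g D
  have hsq : sz N g D * sz N g D < M := by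
    refine lt_of_le_of_lt ?_ hM
    rw [sz, ← mul_pow]
    exact Nat.pow_le_pow_left hR _
  have hm : sz N g D < M := lt_of_le_of_lt (Nat.le_mul_self _) hsq
  have hT : 100 * (sz N g D * sz N g D) ≤ mmT R (1 + g * D) := sq_le_mmT hR
  have hT0 : 0 < sz N g D * sz N g D := Nat.mul_pos hm0 hm0
  set G₀ : Matrix (Fin (sz N g D)) (Fin (sz N g D)) (ZMod p) :=
    Nm n Γ fun i => ((bitsVal ρ (i * k) k : ℕ) : ZMod p) with hG
  refine Ok.seq' (T := nodeT N R g D + (3 * mmT R (1 + g * D) +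
      ((3 * (sz N g D * sz N g D) + 2) + nodeT N R g D)))
    (buildP_ok (D := D) (r := fun i => bitsVal ρ (i * k) k) hN hR hB h.env.me hpM hM rfl h.r0
      h.env.rm h.a3 h.a9 fun i => (bitsVal_lt _ _ _).trans_le hk) ?_ (by omega)
  rintro σ₁ ⟨p1, i1, o1⟩
  have e1 := env_Solve h.env o1 (by simp) (by simp [PA, IA]; omega)
  refine Ok.seq (nodeP_ok (h := 4) (H := HZ (sz N g D) n) hN hR hB hpM hM hm (Or.inr rfl) D le_rfl
    σ₁ e1 (by rw [o1.2.1 4 (by simp [PA, IA]; omega)]; exact h.a4) G₀ id p1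
    fun t => i1 t.val t.2) ?_
  rintro σ₂ ⟨⟨K, k2, g2, u2⟩, f2⟩
  have e2 := e1.nframe f2
  have p2 : Rep σ₂ (PA D) G₀ := fun i j => by
    rw [f2.2.1 (PA D) (by simp [WA, PA]; omega)]
    exact p1 i j
  rw [o1.2.1 2 (by simp [PA, IA]; omega), h.a2] at g2 u2
  refine Ok.seq (updM_ok hN hR hB e2.me hpM hM rfl (by omega) e2.rm le_rfl
    (by simp only [PA]; omega) (by simp only [KA]; omega) (by simp only [PA]; omega) p2 k2) ?_
  rintro σ₃ ⟨p3, o3⟩
  have e3 := env_Solve e2 o3 (by simp) (by simp)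
  refine Ok.seq (copyM_ok (by omega) e3.rm hsq hpM (by simp only [PA]; omega) p3) ?_
  rintro σ₄ ⟨p4, o4⟩
  have e4 := env_Solve e3 o4 (by simp) (by simp [PA]; omega)
  have a3 : σ₄.arr 3 = σ.arr 3 := by
    rw [o4.2.1 3 (by simp [PA]; omega), o3.2.1 3 (by simp), f2.2.1 3 (by simp [WA]; omega),
      o1.2.1 3 (by simp [PA, IA]; omega)]
  have ai : σ₄.arr (IA D) = σ₁.arr (IA D) := by
    rw [o4.2.1 _ (by simp [PA, IA]), o3.2.1 _ (by simp [IA]; omega),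
      f2.2.1 _ (by simp [WA, IA]; omega)]
  have a2 : σ₄.arr 2 = σ₂.arr 2 := by
    rw [o4.2.1 2 (by simp [PA]; omega), o3.2.1 2 (by simp)]
  rw [submatrix_id_id, Matrix.mul_assoc] at g2
  refine (nodeP_ok (h := 3) (H := Γ.Adj) hN hR hB hpM hM hm (Or.inl rfl) D le_rfl σ₄ e4
    (fun u v => by rw [a3, h.a3]; simp) (G₀ - G₀ * (K * G₀)) id p4
    fun t => by rw [ai]; exact i1 t.val t.2).mono ?_ le_rfl
  rintro σ₅ ⟨⟨-, -, -, u5⟩, f5⟩
  refine ⟨?_, by rw [f5.2.2, o4.2.2, o3.2.2, f2.2.2, o1.2.2]⟩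
  rw [u5, a2, u2, ← g2]
  rfl

end Vale.Agent.P305
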